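import Vale.Agent.Lib.P064.Defs

namespace Vale.Agent.Lib.P064

open SimpleGraph Finset

/-- `Subgraph.map` along an injective homomorphism is injective. -/
lemma subgraph_map_injective {α β : Type*} {A : SimpleGraph α} {B : SimpleGraph β} (g : A →g B)
    (hg : Function.Injective g) : Function.Injective (Subgraph.map g) := by
  intro D₁ D₂ h
  ext
  · rename_i v
    have h1 : (D₁.map g).verts = (D₂.map g).verts := by rw [h]
    simp only [Subgraph.map_verts] at h1
    have := Set.image_injective.2 hg h1
    rw [this]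
  · rename_i v w
    have h1 : (D₁.map g).Adj (g v) (g w) ↔ (D₂.map g).Adj (g v) (g w) := by rw [h]
    simp only [Subgraph.map_adj, Relation.map_apply] at h1
    constructor
    · intro hh
      obtain ⟨a, b, hab, ha, hb⟩ := h1.1 ⟨v, w, hh, rfl, rfl⟩
      rw [← hg ha, ← hg hb]; exact hab
    · intro hh
      obtain ⟨a, b, hab, ha, hb⟩ := h1.2 ⟨v, w, hh, rfl, rfl⟩
      rw [← hg ha, ← hg hb]; exact hab

section closedForm

variable {n : ℕ}

/-- edge finset with a canonical (classical) finiteness proof -/
noncomputable def ef (G : SimpleGraph (Fin n)) : Finset (Sym2 (Fin n)) :=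
  (Set.toFinite G.edgeSet).toFinset

lemma mem_ef {G : SimpleGraph (Fin n)} {e : Sym2 (Fin n)} : e ∈ ef G ↔ e ∈ G.edgeSet :=
  Set.Finite.mem_toFinset _

lemma card_ef (G : SimpleGraph (Fin n)) : (ef G).card = G.edgeSet.ncard :=
  (Set.ncard_eq_toFinset_card _ _).symm

lemma ef_mono {G G' : SimpleGraph (Fin n)} (h : G ≤ G') : ef G ⊆ ef G' := by
  intro e he
  rw [mem_ef] at he ⊢
  exact edgeSet_mono h he

lemma coe_ef (G : SimpleGraph (Fin n)) : ((ef G : Finset _) : Set (Sym2 (Fin n))) = G.edgeSet :=
  Set.Finite.coe_toFinset _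

lemma card_ef_top : (ef (⊤ : SimpleGraph (Fin n))).card = n.choose 2 := by
  classical
  rw [card_ef, ← coe_edgeFinset, Set.ncard_coe_finset, card_edgeFinset_top_eq_card_choose_two,
    Fintype.card_fin]

open Classical in
lemma sum_gnpProb_ge (p : ℝ) (T : SimpleGraph (Fin n)) :
    ∑ G : SimpleGraph (Fin n), (if T ≤ G then gnpProb n p G else 0) = p ^ T.edgeSet.ncard := by
  set E : Finset (Sym2 (Fin n)) := ef (⊤ : SimpleGraph (Fin n)) with hE
  set E0 : Finset (Sym2 (Fin n)) := ef T with hE0
  have hE0E : E0 ⊆ E := ef_mono le_top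
  have hcardE : E.card = n.choose 2 := card_ef_top
  -- reindex by subsets of E \ E0
  have h1 : ∑ G : SimpleGraph (Fin n), (if T ≤ G then gnpProb n p G else 0)
      = ∑ S ∈ (E \ E0).powerset, p ^ (E0.card + S.card) * (1 - p) ^ ((E \ E0).card - S.card) := by
    rw [← Finset.sum_filter]
    refine Finset.sum_bij' (fun G _ => ef G \ E0)
      (fun S _ => SimpleGraph.fromEdgeSet ((E0 ∪ S : Finset _) : Set (Sym2 (Fin n)))) ?_ ?_ ?_ ?_ ?_
    · intro G _
      rw [Finset.mem_powerset]
      exact Finset.sdiff_subset_sdiff (ef_mono le_top) (le_refl _)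
    · intro S hS
      rw [Finset.mem_powerset] at hS
      simp only [Finset.mem_filter, Finset.mem_univ, true_and]
      intro v w hvw
      rw [fromEdgeSet_adj]
      refine ⟨?_, hvw.ne⟩
      simp only [Finset.coe_union, Set.mem_union, Finset.mem_coe]
      left
      rw [hE0, mem_ef]; exact hvw
    · intro G hG
      simp only [Finset.mem_filter, Finset.mem_univ, true_and] at hG
      have : E0 ∪ (ef G \ E0) = ef G :=
        Finset.union_sdiff_of_subset (ef_mono hG)
      rw [this, coe_ef, fromEdgeSet_edgeSet]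
    · intro S hS
      rw [Finset.mem_powerset] at hS
      have hSE : E0 ∪ S ⊆ E := Finset.union_subset hE0E (hS.trans Finset.sdiff_subset)
      have hdisj : Disjoint E0 S := Finset.disjoint_of_subset_right hS Finset.disjoint_sdiff
      ext e
      rw [Finset.mem_sdiff, mem_ef, edgeSet_fromEdgeSet]
      simp only [Set.mem_sdiff, Finset.mem_coe, Finset.mem_union]
      constructor
      · rintro ⟨⟨h | h, _⟩, h2⟩
        · exact absurd h h2
        · exact h
      · intro h
        refine ⟨⟨Or.inr h, ?_⟩, fun h0 => Finset.disjoint_left.1 hdisj h0 h⟩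
        have := hSE (Finset.mem_union_right _ h)
        rw [hE, mem_ef, edgeSet_top] at this
        exact this
    · intro G hG
      simp only [Finset.mem_filter, Finset.mem_univ, true_and] at hG
      have hsub : E0 ⊆ ef G := ef_mono hG
      have hGE : ef G ⊆ E := ef_mono le_top
      unfold gnpProb
      rw [← card_ef G, ← hcardE]
      have e1 : E0.card + (ef G \ E0).card = (ef G).card := by
        rw [Finset.card_sdiff_of_subset hsub]
        have := Finset.card_le_card hsub
        omega
      have e2 : (E \ E0).card - (ef G \ E0).card = E.card - (ef G).card := by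
        rw [Finset.card_sdiff_of_subset hsub, Finset.card_sdiff_of_subset hE0E]
        have := Finset.card_le_card hsub
        have := Finset.card_le_card hGE
        omega
      rw [e1, e2]
  rw [h1, ← card_ef T]
  have h2 : ∀ S ∈ (E \ E0).powerset,
      p ^ (E0.card + S.card) * (1 - p) ^ ((E \ E0).card - S.card)
        = p ^ E0.card * (p ^ S.card * (1 - p) ^ ((E \ E0).card - S.card)) := by
    intro S _
    rw [pow_add]; ring
  rw [Finset.sum_congr rfl h2, ← Finset.mul_sum, Finset.sum_pow_mul_eq_add_pow]
  simp only [add_sub_cancel, one_pow, mul_one]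
  rfl

/-- The finite set of copies of `F` in `K` (subgraphs of `K` isomorphic to `F`). -/
noncomputable def copiesIn {V W : Type*} [Finite V] (K : SimpleGraph V) (F : SimpleGraph W) :
    Finset K.Subgraph :=
  (Set.toFinite {T : K.Subgraph | Nonempty (F ≃g T.coe)}).toFinset

lemma mem_copiesIn {V W : Type*} [Finite V] {K : SimpleGraph V} {F : SimpleGraph W}
    {T : K.Subgraph} : T ∈ copiesIn K F ↔ Nonempty (F ≃g T.coe) := by
  simp [copiesIn]

lemma copyCount_eq_card_copiesIn {V W : Type*} [Fintype V] (K : SimpleGraph V)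
    (F : SimpleGraph W) : K.copyCount F = (copiesIn K F).card := by
  rw [copyCount]
  exact congrArg Finset.card (Finset.ext fun T => by simp [mem_copiesIn])

open Classical in
lemma copyCount_eq_sum {V W : Type*} [Fintype V] {G K : SimpleGraph V} (h : G ≤ K)
    (F : SimpleGraph W) :
    (G.copyCount F : ℝ) = ∑ T ∈ copiesIn K F, (if T.spanningCoe ≤ G then (1 : ℝ) else 0) := by
  have hinj : Function.Injective (Subgraph.map (Hom.ofLE h)) :=
    subgraph_map_injective _ Function.injective_id
  rw [Finset.sum_boole, copyCount_eq_card_copiesIn, ← Finset.card_image_of_injective _ hinj]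
  congr 2
  ext T
  simp only [Finset.mem_image, Finset.mem_filter, mem_copiesIn]
  constructor
  · rintro ⟨G', ⟨i⟩, rfl⟩
    refine ⟨⟨((Copy.ofLE G K h).isoSubgraphMap G').comp i⟩, ?_⟩
    intro v w hvw
    simp only [Subgraph.spanningCoe_adj, Subgraph.map_adj, Hom.coe_ofLE, Relation.map_id_id] at hvw
    exact hvw.adj_sub
  · rintro ⟨⟨i⟩, hT⟩
    let T' : G.Subgraph :=
      { verts := T.verts
        Adj := T.Adj
        adj_sub := fun {v w} hvw => hT (by simpa using hvw)
        edge_vert := fun {v w} hvw => T.edge_vert hvw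
        symm := T.symm }
    have hT' : T'.map (Hom.ofLE h) = T := by
      ext
      · simp [T']
      · simp [T']
    refine ⟨T', ?_, hT'⟩
    have j := (Copy.ofLE G K h).isoSubgraphMap T'
    have hT'' : T'.map (Copy.ofLE G K h).toHom = T := hT'
    rw [hT''] at j
    exact ⟨j.symm.comp i⟩

open Classical in
/-- Closed form (linearity of expectation): `E N(G(n,p),F) = N(K_n,F) p^{e(F)}`. -/
lemma expCopies_eq (p : ℝ) {W : Type*} (F : SimpleGraph W) :
    expCopies n p F = ((⊤ : SimpleGraph (Fin n)).copyCount F : ℝ) * p ^ F.edgeSet.ncard := by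
  unfold expCopies
  have h1 : ∀ G : SimpleGraph (Fin n), gnpProb n p G * (G.copyCount F : ℝ)
      = ∑ T ∈ copiesIn (⊤ : SimpleGraph (Fin n)) F,
          (if T.spanningCoe ≤ G then gnpProb n p G else 0) := by
    intro G
    rw [copyCount_eq_sum (le_top : G ≤ ⊤) F, Finset.mul_sum]
    refine Finset.sum_congr rfl fun T _ => ?_
    split_ifs <;> simp
  rw [Finset.sum_congr rfl (fun G _ => h1 G), Finset.sum_comm]
  have h2 : ∀ T ∈ copiesIn (⊤ : SimpleGraph (Fin n)) F,
      ∑ G : SimpleGraph (Fin n), (if T.spanningCoe ≤ G then gnpProb n p G else 0)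
        = p ^ F.edgeSet.ncard := by
    intro T hT
    rw [mem_copiesIn] at hT
    obtain ⟨i⟩ := hT
    rw [sum_gnpProb_ge]
    congr 1
    rw [Subgraph.edgeSet_spanningCoe, ← Subgraph.image_coe_edgeSet_coe,
      Set.ncard_image_of_injective _ (Sym2.map.injective Subtype.coe_injective)]
    rw [← Nat.card_coe_set_eq, ← Nat.card_coe_set_eq]
    exact (Nat.card_congr i.mapEdgeSet).symm
  rw [Finset.sum_congr rfl h2, Finset.sum_const, nsmul_eq_mul, copyCount_eq_card_copiesIn]

end closedForm

end Vale.Agent.Lib.P064
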