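import Mathlib

namespace Vale.Agent.Lib.P064

open SimpleGraph Finset

/-- The probability that the binomial random graph `G(n,p)` on the vertex set `Fin n` equals `G`. -/
noncomputable def gnpProb (n : ℕ) (p : ℝ) (G : SimpleGraph (Fin n)) : ℝ :=
  p ^ G.edgeSet.ncard * (1 - p) ^ (n.choose 2 - G.edgeSet.ncard)

/-- The expectation `E N(G(n,p),F)` of the number of (unlabelled, not necessarily induced) copies
of `F` in `G(n,p)`. -/
noncomputable def expCopies (n : ℕ) (p : ℝ) {W : Type*} (F : SimpleGraph W) : ℝ :=
  ∑ G : SimpleGraph (Fin n), gnpProb n p G * (G.copyCount F : ℝ)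

end Vale.Agent.Lib.P064
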