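import Vale.Agent.Lib.P064.Reduction

namespace Vale.Agent.Lib.P064

open SimpleGraph Finset

universe u

variable {V W : Type*}

/-- In a connected graph every vertex other than `a` has a neighbour closer to `a`. -/
lemma exists_parent {F : SimpleGraph W} (hc : F.Connected) (a w : W) (hw : w ≠ a) :
    ∃ p, F.Adj p w ∧ F.dist a p < F.dist a w := by
  obtain ⟨P, hP⟩ := hc.exists_walk_length_eq_dist a w
  have hnil : ¬ P.Nil := Walk.not_nil_of_ne (Ne.symm hw)
  refine ⟨P.penultimate, P.adj_penultimate hnil, ?_⟩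
  have h1 := dist_le P.dropLast
  have h2 := Walk.length_dropLast_add_one hnil
  omega

open Classical in
/-- Rooted embedding count: a connected graph `F` has at most `Δ^{v(F)-1}` labelled copies in `H`
sending a given vertex `a` to a given vertex `x`, if all degrees of `H` are at most `Δ`. -/
lemma card_rooted_copies_le [Fintype V] [Fintype W] {F : SimpleGraph W} (hc : F.Connected)
    (H : SimpleGraph V) (Δ : ℕ) (hΔ : ∀ y, H.degree y ≤ Δ) (hΔ1 : 1 ≤ Δ) (a : W) (x : V) :
    Nat.card {f : Copy F H // f a = x} ≤ Δ ^ (Fintype.card W - 1) := by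
  have hι : ∀ y : V, ∃ ι : V → Fin Δ, Set.InjOn ι (H.neighborSet y) := by
    intro y
    obtain ⟨e⟩ : Nonempty (H.neighborSet y ↪ Fin Δ) := by
      apply Function.Embedding.nonempty_of_card_le
      rw [Fintype.card_fin, card_neighborSet_eq_degree]
      exact hΔ y
    refine ⟨fun v => if h : v ∈ H.neighborSet y then e ⟨v, h⟩ else ⟨0, hΔ1⟩, ?_⟩
    intro u hu v hv huv
    simp only [dif_pos hu, dif_pos hv] at huv
    exact congrArg Subtype.val (e.injective huv)
  choose ι hιinj using hι
  have hpar : ∀ w : {w : W // w ≠ a}, ∃ p, F.Adj p w.1 ∧ F.dist a p < F.dist a w.1 :=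
    fun w => exists_parent hc a w.1 w.2
  choose par hpadj hpdist using hpar
  have hcard : Fintype.card ({w : W // w ≠ a} → Fin Δ) = Δ ^ (Fintype.card W - 1) := by
    rw [Fintype.card_fun, Fintype.card_fin, Fintype.card_subtype_compl, Fintype.card_subtype_eq]
  rw [← hcard, ← Nat.card_eq_fintype_card]
  refine Nat.card_le_card_of_injective
    (fun f : {f : Copy F H // f a = x} => fun w : {w : W // w ≠ a} => ι (f.1 (par w)) (f.1 w.1)) ?_
  rintro ⟨f, hf⟩ ⟨g, hg⟩ hfg
  apply Subtype.ext
  have key : ∀ m : ℕ, ∀ w : W, F.dist a w = m → f w = g w := by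
    intro m
    induction m using Nat.strong_induction_on with
    | _ m ih =>
      intro w hw
      by_cases hwa : w = a
      · rw [hwa, hf, hg]
      · have h1 : f (par ⟨w, hwa⟩) = g (par ⟨w, hwa⟩) :=
          ih _ (hw ▸ hpdist ⟨w, hwa⟩) _ rfl
        have h2 := congrFun hfg ⟨w, hwa⟩
        simp only at h2
        rw [← h1] at h2
        apply hιinj (f (par ⟨w, hwa⟩)) _ _ h2
        · exact f.toHom.map_adj (hpadj ⟨w, hwa⟩)
        · rw [h1]; exact g.toHom.map_adj (hpadj ⟨w, hwa⟩)
  ext w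
  exact key _ w rfl

open Classical in
/-- A maximal edge-disjoint family of copies of `F` yields a small set `U` of edges of `H` meeting
every copy of `F`. -/
lemma packing_cover [Fintype V] (H : SimpleGraph V) (n : ℕ) (q : ℝ) (hq : 0 ≤ q)
    (hyp : ∀ I : H.Subgraph, 1 ≤ expCopies n q I.coe) (F : SimpleGraph W)
    (hE : F.edgeSet.ncard ≠ 0) :
    ∃ U : Finset (Sym2 V), (U.card : ℝ) ≤ F.edgeSet.ncard * (Real.exp 1 * expCopies n q F) ∧
      ∀ T : H.Subgraph, Nonempty (F ≃g T.coe) → ∃ e ∈ U, e ∈ T.edgeSet := by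
  let valid : Finset H.Subgraph → Prop := fun D =>
    (∀ C ∈ D, Nonempty (F ≃g C.coe)) ∧
      (∀ C₁ ∈ D, ∀ C₂ ∈ D, C₁ ≠ C₂ → Disjoint C₁.edgeSet C₂.edgeSet)
  obtain ⟨D, hDmem, hDmax⟩ := Finset.exists_max_image (univ.filter valid) Finset.card
    ⟨∅, by simp [valid]⟩
  simp only [Finset.mem_filter, Finset.mem_univ, true_and] at hDmem hDmax
  obtain ⟨hDiso, hDdisj⟩ := hDmem
  have hk : (D.card : ℝ) ≤ Real.exp 1 * expCopies n q F := by
    have h := packing_factorial n q 1 hq hyp D hDiso hDdisj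
    rw [one_mul] at h
    refine le_exp_mul_of_factorial_le _ _ ?_ h
    rw [expCopies_eq]
    positivity
  have hedges : ∀ T : H.Subgraph, Nonempty (F ≃g T.coe) → T.edgeSet.ncard = F.edgeSet.ncard := by
    rintro T ⟨i⟩
    rw [← ncard_edgeSet_coe, ← ncard_edgeSet_of_iso i]
  set U := (sSup (D : Set H.Subgraph)).edgeSet with hUdef
  have hU : U.ncard = D.card * F.edgeSet.ncard :=
    ncard_edgeSet_sSup _ D (fun C hC => hedges C (hDiso C hC)) hDdisj
  have hCU : ∀ C ∈ D, C.edgeSet ⊆ U := fun C hC =>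
    Subgraph.edgeSet_mono (le_sSup (by simpa using hC))
  refine ⟨(Set.toFinite U).toFinset, ?_, ?_⟩
  · rw [← Set.ncard_eq_toFinset_card U (Set.toFinite U), hU]
    push_cast
    rw [mul_comm]
    exact mul_le_mul_of_nonneg_left hk (Nat.cast_nonneg _)
  · intro T hTiso
    by_contra hcon
    push Not at hcon
    have hTU : ∀ e ∈ T.edgeSet, e ∉ U := fun e he heU => hcon e (by simpa using heU) he
    have hTne : T.edgeSet.Nonempty := by
      apply Set.nonempty_of_ncard_ne_zero
      rw [hedges T hTiso]; exact hE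
    have hTD : T ∉ D := by
      intro h
      obtain ⟨e, he⟩ := hTne
      exact hTU e he (hCU T h he)
    have hdisjT : ∀ C ∈ D, Disjoint T.edgeSet C.edgeSet := by
      intro C hC
      rw [Set.disjoint_left]
      exact fun e he heC => hTU e he (hCU C hC heC)
    have hvalid : valid (insert T D) := by
      constructor
      · intro C hC
        rcases Finset.mem_insert.1 hC with rfl | hC
        · exact hTiso
        · exact hDiso C hC
      · intro C₁ h₁ C₂ h₂ hne
        rcases Finset.mem_insert.1 h₁ with e₁ | h₁'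
        · rcases Finset.mem_insert.1 h₂ with e₂ | h₂'
          · exact absurd (e₁.trans e₂.symm) hne
          · rw [e₁]; exact hdisjT C₂ h₂'
        · rcases Finset.mem_insert.1 h₂ with e₂ | h₂'
          · rw [e₂]; exact (hdisjT C₁ h₁').symm
          · exact hDdisj C₁ h₁' C₂ h₂' hne
    have := hDmax (insert T D) hvalid
    rw [Finset.card_insert_of_notMem hTD] at this
    omega

lemma copyCount_top_le_pow [Fintype W] (F : SimpleGraph W) (n : ℕ) :
    (⊤ : SimpleGraph (Fin n)).copyCount F ≤ n ^ Fintype.card W := by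
  have h1 := inj_eq_copyCount_mul F (⊤ : SimpleGraph (Fin n))
  rw [inj_top] at h1
  have h2 : 1 ≤ Nat.card (F ≃g F) := Nat.card_pos
  calc (⊤ : SimpleGraph (Fin n)).copyCount F
      ≤ (⊤ : SimpleGraph (Fin n)).copyCount F * Nat.card (F ≃g F) := Nat.le_mul_of_pos_right _ h2
    _ = n.descFactorial (Fintype.card W) := h1.symm
    _ ≤ n ^ Fintype.card W := Nat.descFactorial_le_pow _ _

lemma six_mul_le (m : ℕ) (hm : 1 ≤ m) : 6 * m * (m + 1) ≤ 12 ^ m := by
  induction m, hm using Nat.le_induction with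
  | base => norm_num
  | succ m hm ih =>
    rw [pow_succ]
    nlinarith

open Classical in
/-- Labelled copies of a connected graph in a graph of maximum degree at most `Δ`. -/
lemma inj_le_connected_degree [Fintype V] (H : SimpleGraph V) (n : ℕ) (q : ℝ) (hq : 0 ≤ q)
    (hyp : ∀ I : H.Subgraph, 1 ≤ expCopies n q I.coe)
    (Δ : ℕ) (hΔ : ∀ y, H.degree y ≤ Δ) (hΔ1 : 1 ≤ Δ)
    (W : Type u) [Finite W] (F : SimpleGraph W) (hc : F.Connected) (hE : F.edgeSet.Nonempty) :
    (inj F H : ℝ) ≤ (n : ℝ) ^ (Nat.card W) * (12 * Δ * q) ^ F.edgeSet.ncard := by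
  have : Fintype W := Fintype.ofFinite _
  have : Fintype (Copy F H) := Fintype.ofFinite _
  set m := F.edgeSet.ncard with hm
  have hm1 : 1 ≤ m := (Set.ncard_pos (Set.toFinite _)).2 hE
  obtain ⟨U, hUcard, hUcover⟩ := packing_cover H n q hq hyp F (by omega)
  set X : Finset V := U.biUnion Sym2.toFinset with hX
  have hXcard : X.card ≤ U.card * 2 := by
    apply Finset.card_biUnion_le_card_mul
    intro e _
    rw [Sym2.card_toFinset]
    split_ifs <;> omega
  have hcov : (Finset.univ : Finset (Copy F H)) ⊆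
      (X ×ˢ (Finset.univ : Finset W)).biUnion
        (fun p => Finset.univ.filter fun f : Copy F H => f p.2 = p.1) := by
    intro f _
    obtain ⟨e, heU, heT⟩ := hUcover f.toSubgraph ⟨f.isoToSubgraph⟩
    rw [Subgraph.edgeSet_map] at heT
    obtain ⟨e', he', rfl⟩ := heT
    induction e' using Sym2.ind with
    | _ a b =>
      rw [Finset.mem_biUnion]
      refine ⟨(f a, a), ?_, by simp⟩
      rw [Finset.mem_product]
      refine ⟨?_, Finset.mem_univ _⟩
      rw [hX, Finset.mem_biUnion]
      exact ⟨_, heU, by simp [Sym2.map_mk]⟩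
  have hcount : inj F H ≤ (X.card * Fintype.card W) * Δ ^ (Fintype.card W - 1) := by
    unfold inj
    rw [Nat.card_eq_fintype_card, ← Finset.card_univ]
    refine (Finset.card_le_card hcov).trans ?_
    refine (Finset.card_biUnion_le_card_mul _ _ (Δ ^ (Fintype.card W - 1)) ?_).trans ?_
    · intro p _
      have := card_rooted_copies_le hc H Δ hΔ hΔ1 p.2 p.1
      rwa [Nat.card_eq_fintype_card, Fintype.card_subtype] at this
    · rw [Finset.card_product, Finset.card_univ]
  have hv : Fintype.card W ≤ m + 1 := by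
    have := hc.card_vert_le_card_edgeSet_add_one
    rwa [Nat.card_eq_fintype_card, Nat.card_coe_set_eq] at this
  have hΔpow : (Δ : ℝ) ^ (Fintype.card W - 1) ≤ (Δ : ℝ) ^ m := by
    apply pow_le_pow_right₀ (by exact_mod_cast hΔ1)
    omega
  have hμ : expCopies n q F ≤ (n : ℝ) ^ (Fintype.card W) * q ^ m := by
    rw [expCopies_eq]
    apply mul_le_mul_of_nonneg_right _ (pow_nonneg hq _)
    exact_mod_cast copyCount_top_le_pow F n
  have hE3 : Real.exp 1 ≤ 3 := by
    have := Real.exp_one_lt_d9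
    linarith
  have hμ0 : 0 ≤ expCopies n q F := by rw [expCopies_eq]; positivity
  have h6 : (6 : ℝ) * m * (m + 1) ≤ 12 ^ m := by exact_mod_cast six_mul_le m hm1
  have hnq : 0 ≤ (n : ℝ) ^ (Fintype.card W) * q ^ m := by positivity
  rw [Nat.card_eq_fintype_card]
  calc (inj F H : ℝ)
      ≤ ((X.card : ℝ) * (Fintype.card W : ℝ)) * (Δ : ℝ) ^ (Fintype.card W - 1) := by
        exact_mod_cast hcount
    _ ≤ (((m : ℝ) * (3 * ((n : ℝ) ^ (Fintype.card W) * q ^ m)) * 2) * ((m : ℝ) + 1)) * (Δ : ℝ) ^ m := by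
        have hX1 : (X.card : ℝ) ≤ (m : ℝ) * (3 * ((n : ℝ) ^ (Fintype.card W) * q ^ m)) * 2 := by
          have h1 : (X.card : ℝ) ≤ (U.card : ℝ) * 2 := by exact_mod_cast hXcard
          have h2 : (U.card : ℝ) ≤ (m : ℝ) * (3 * ((n : ℝ) ^ (Fintype.card W) * q ^ m)) := by
            refine hUcard.trans ?_
            apply mul_le_mul_of_nonneg_left _ (Nat.cast_nonneg _)
            exact mul_le_mul hE3 hμ hμ0 (by norm_num)
          linarith
        have hW1 : (Fintype.card W : ℝ) ≤ (m : ℝ) + 1 := by exact_mod_cast hv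
        have hΔ0 : (0 : ℝ) ≤ (Δ : ℝ) ^ (Fintype.card W - 1) := by positivity
        apply mul_le_mul _ hΔpow hΔ0 (by positivity)
        exact mul_le_mul hX1 hW1 (Nat.cast_nonneg _) (by positivity)
    _ = ((6 : ℝ) * m * (m + 1)) * (((n : ℝ) ^ (Fintype.card W) * q ^ m) * (Δ : ℝ) ^ m) := by ring
    _ ≤ (12 ^ m) * (((n : ℝ) ^ (Fintype.card W) * q ^ m) * (Δ : ℝ) ^ m) :=
        mul_le_mul_of_nonneg_right h6 (by positivity)
    _ = _ := by
        rw [mul_pow, mul_pow]; ring

end Vale.Agent.Lib.P064
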