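import Vale.Agent.Lib.P064.Defs

namespace Vale.Agent.Lib.P064

open SimpleGraph Finset

/-- The subgraph expectation threshold `p_E(n,H)`: the least `p ∈ [0,1]` such that
`E N(G(n,p),F) ≥ 1/2` for every subgraph `F ⊆ H`. -/
noncomputable def pE (n : ℕ) {V : Type*} (H : SimpleGraph V) : ℝ :=
  sInf {p : ℝ | 0 ≤ p ∧ p ≤ 1 ∧ ∀ F : H.Subgraph, 1 / 2 ≤ expCopies n p F.coe}

/-- The modified threshold `ptilde_E(n,H)`: the least `p ∈ [0,1]` such that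
`E N(G(n,p),F) ≥ N(H,F)/2` for every subgraph `F ⊆ H`. -/
noncomputable def pEtilde (n : ℕ) {V : Type*} [Fintype V] (H : SimpleGraph V) : ℝ :=
  sInf {p : ℝ | 0 ≤ p ∧ p ≤ 1 ∧ ∀ F : H.Subgraph, (H.copyCount F.coe : ℝ) / 2 ≤ expCopies n p F.coe}

end Vale.Agent.Lib.P064
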