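import Vale.Agent.Lib.P064.Degree
import Vale.Agent.Lib.P064.Thresholds

namespace Vale.Agent.Lib.P064

open SimpleGraph Finset

universe u

variable {V : Type u}

lemma exp_two_le : Real.exp 2 ≤ 7.5 := by
  have h1 := Real.exp_one_lt_d9
  have h2 : Real.exp 2 = Real.exp 1 * Real.exp 1 := by rw [← Real.exp_add]; norm_num
  have h3 := Real.exp_pos 1
  rw [h2]
  nlinarith

/-- From a bound for connected graphs to the `min{1, .}` form for all graphs. -/
theorem copyCount_le_expCopies_of_connected [Fintype V] (H : SimpleGraph V) (n : ℕ)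
    (hcard : Fintype.card V ≤ n) (x : ℝ) (hx : 0 ≤ x)
    (hconn : ∀ (W : Type u) [Finite W] (F : SimpleGraph W), F.Connected → F.edgeSet.Nonempty →
      F ⊑ H → (inj F H : ℝ) ≤ (n : ℝ) ^ (Nat.card W) * x ^ F.edgeSet.ncard)
    (W : Type u) [Fintype W] (F : SimpleGraph W) (hW : Fintype.card W ≤ n) :
    (H.copyCount F : ℝ) ≤ expCopies n (min 1 (7.5 * x)) F := by
  rw [expCopies_eq]
  rcases le_or_gt 1 (7.5 * x) with hL | hL
  · rw [min_eq_left hL, one_pow, mul_one]
    exact_mod_cast copyCount_le_top H n hcard F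
  · rw [min_eq_right hL.le]
    refine (reduction H n hcard x hx hconn W F hW).trans ?_
    apply mul_le_mul_of_nonneg_left _ (Nat.cast_nonneg _)
    apply pow_le_pow_left₀ (by positivity)
    exact mul_le_mul_of_nonneg_right exp_two_le hx

open Classical in
/-- **Bounded degree.** -/
theorem degree_main [Fintype V] (H : SimpleGraph V) (n : ℕ) (hcard : Fintype.card V ≤ n) (q : ℝ)
    (hq : 0 ≤ q) (hyp : ∀ I : H.Subgraph, 1 ≤ expCopies n q I.coe)
    (Δ : ℕ) (hΔ : ∀ y, H.degree y ≤ Δ) (hΔ1 : 1 ≤ Δ)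
    (W : Type u) [Fintype W] (F : SimpleGraph W) (hW : Fintype.card W ≤ n) :
    (H.copyCount F : ℝ) ≤ expCopies n (min 1 (90 * Δ * q)) F := by
  have h := copyCount_le_expCopies_of_connected H n hcard (12 * Δ * q) (by positivity)
    (fun W _ F hc hE _ => inj_le_connected_degree H n q hq hyp Δ hΔ hΔ1 W F hc hE) W F hW
  have e : (7.5 : ℝ) * (12 * Δ * q) = 90 * Δ * q := by ring
  rwa [e] at h

/-- passing from expected counts `≥ 1/2` at `p` to expected counts `≥ 1` at `2p` -/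
lemma hyp_double {H : SimpleGraph V} (n : ℕ) (p : ℝ) (hp : 0 ≤ p)
    (h : ∀ F : H.Subgraph, 1 / 2 ≤ expCopies n p F.coe) :
    ∀ I : H.Subgraph, 1 ≤ expCopies n (2 * p) I.coe := by
  intro I
  have h1 := h I
  rw [expCopies_eq] at h1 ⊢
  rcases Nat.eq_zero_or_pos I.coe.edgeSet.ncard with h0 | h0
  · rw [h0, pow_zero, mul_one] at h1 ⊢
    have : 0 < (⊤ : SimpleGraph (Fin n)).copyCount I.coe := by
      by_contra hcon
      have h2 : (⊤ : SimpleGraph (Fin n)).copyCount I.coe = 0 := by omega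
      rw [h2] at h1
      norm_num at h1
    exact_mod_cast this
  · rw [mul_pow]
    have h2 : (2 : ℝ) ≤ 2 ^ I.coe.edgeSet.ncard := by
      calc (2 : ℝ) = 2 ^ 1 := by norm_num
        _ ≤ 2 ^ I.coe.edgeSet.ncard := pow_le_pow_right₀ (by norm_num) h0
    have h3 : 0 ≤ ((⊤ : SimpleGraph (Fin n)).copyCount I.coe : ℝ) * p ^ I.coe.edgeSet.ncard := by
      positivity
    calc (1 : ℝ) = 2 * (1 / 2) := by norm_num
      _ ≤ 2 ^ I.coe.edgeSet.ncard *
          (((⊤ : SimpleGraph (Fin n)).copyCount I.coe : ℝ) * p ^ I.coe.edgeSet.ncard) :=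
          mul_le_mul h2 h1 (by norm_num) (by positivity)
      _ = _ := by ring

lemma pE_set_nonempty [Fintype V] (H : SimpleGraph V) (n : ℕ) (hcard : Fintype.card V ≤ n) :
    (1 : ℝ) ∈ {p : ℝ | 0 ≤ p ∧ p ≤ 1 ∧ ∀ F : H.Subgraph, 1 / 2 ≤ expCopies n p F.coe} := by
  refine ⟨by norm_num, le_refl _, fun F => ?_⟩
  rw [expCopies_eq, one_pow, mul_one]
  have h1 : 0 < (⊤ : SimpleGraph (Fin n)).copyCount F.coe := by
    rw [copyCount_pos]
    obtain ⟨e⟩ : Nonempty (V ↪ Fin n) :=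
      Function.Embedding.nonempty_of_card_le (by simpa using hcard)
    exact ⟨⟨⟨fun v => e v.1, fun {a b} h => by
      rw [top_adj]
      exact fun hab => h.ne (Subtype.ext (e.injective hab))⟩,
      fun a b hab => Subtype.ext (e.injective hab)⟩⟩
  have h2 : (1 : ℝ) ≤ ((⊤ : SimpleGraph (Fin n)).copyCount F.coe : ℝ) := by exact_mod_cast h1
  linarith

/-- General transfer principle from the deterministic inequality to the thresholds. -/
theorem pEtilde_le_of_forall [Fintype V] (H : SimpleGraph V) (n : ℕ) (hcard : Fintype.card V ≤ n)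
    (L : ℝ) (hL : 0 ≤ L)
    (hmain : ∀ q : ℝ, 0 ≤ q → (∀ I : H.Subgraph, 1 ≤ expCopies n q I.coe) →
      ∀ F : H.Subgraph, (H.copyCount F.coe : ℝ) ≤ expCopies n (min 1 (L * q)) F.coe) :
    pEtilde n H ≤ 2 * L * pE n H := by
  unfold pE
  have hne := pE_set_nonempty H n hcard
  have key : ∀ p ∈ {p : ℝ | 0 ≤ p ∧ p ≤ 1 ∧ ∀ F : H.Subgraph, 1 / 2 ≤ expCopies n p F.coe},
      pEtilde n H ≤ 2 * L * p := by
    rintro p ⟨hp0, _, hp⟩
    have h1 := hmain (2 * p) (by positivity) (hyp_double n p hp0 hp)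
    have hmem : min 1 (L * (2 * p)) ∈ {p : ℝ | 0 ≤ p ∧ p ≤ 1 ∧
        ∀ F : H.Subgraph, (H.copyCount F.coe : ℝ) / 2 ≤ expCopies n p F.coe} := by
      refine ⟨le_min (by norm_num) (by positivity), min_le_left _ _, fun F => ?_⟩
      have h2 := h1 F
      have h3 : (0 : ℝ) ≤ (H.copyCount F.coe : ℝ) := Nat.cast_nonneg _
      linarith
    have hbdd : BddBelow {p : ℝ | 0 ≤ p ∧ p ≤ 1 ∧
        ∀ F : H.Subgraph, (H.copyCount F.coe : ℝ) / 2 ≤ expCopies n p F.coe} :=
      ⟨0, fun p hp => hp.1⟩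
    calc pEtilde n H ≤ min 1 (L * (2 * p)) := csInf_le hbdd hmem
      _ ≤ L * (2 * p) := min_le_right _ _
      _ = 2 * L * p := by ring
  rcases eq_or_lt_of_le hL with hL0 | hLpos
  · have := key 1 hne
    rw [← hL0] at this ⊢
    simpa using this
  · have h2L : 0 < 2 * L := by positivity
    rw [← div_le_iff₀' h2L]
    apply le_csInf ⟨1, hne⟩
    intro p hp
    rw [div_le_iff₀' h2L]
    exact key p hp

open Classical in
/-- `ptilde_E(n,H) ≤ 180 Δ p_E(n,H)` for graphs of maximum degree at most `Δ`. -/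
theorem pEtilde_le_degree [Fintype V] (H : SimpleGraph V) (n : ℕ) (hcard : Fintype.card V ≤ n)
    (Δ : ℕ) (hΔ : ∀ y, H.degree y ≤ Δ) (hΔ1 : 1 ≤ Δ) :
    pEtilde n H ≤ 180 * Δ * pE n H := by
  have h := pEtilde_le_of_forall H n hcard (90 * Δ) (by positivity) (fun q hq hyp F => by
    have hF : Fintype.card F.verts ≤ n := (Fintype.card_subtype_le _).trans hcard
    exact degree_main H n hcard q hq hyp Δ hΔ hΔ1 F.verts F.coe hF)
  have e : (2 : ℝ) * (90 * Δ) = 180 * Δ := by ring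
  rwa [e] at h

end Vale.Agent.Lib.P064
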