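import Vale.Agent.Lib.P064.Stars

namespace Vale.Agent.Lib.P064

open SimpleGraph Finset

variable {V W : Type*}

instance finite_copy [Finite V] [Finite W] (F : SimpleGraph W) (G : SimpleGraph V) :
    Finite (Copy F G) :=
  Finite.of_injective (fun f : Copy F G => (f : W → V)) DFunLike.coe_injective

instance finite_iso [Finite W] (F : SimpleGraph W) : Finite (F ≃g F) :=
  Finite.of_injective (fun f : F ≃g F => (f : W → W)) DFunLike.coe_injective

/-- number of labelled copies (injective homomorphisms) of `F` in `G` -/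
noncomputable def inj (F : SimpleGraph W) (G : SimpleGraph V) : ℕ := Nat.card (Copy F G)

/-- Two copies with the same image subgraph differ by an automorphism. -/
lemma exists_aut_of_toSubgraph_eq [Finite W] {F : SimpleGraph W} {G : SimpleGraph V}
    (f0 f : Copy F G) (h : f.toSubgraph = f0.toSubgraph) :
    ∃ a : F ≃g F, ∀ w, f0 (a w) = f w := by
  have hv : ∀ w, ∃ w', f0 w' = f w := by
    intro w
    have h1 : f w ∈ f.toSubgraph.verts := by simp
    rw [h] at h1
    simpa using h1
  choose a ha using hv
  have hinj : Function.Injective a := by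
    intro u v huv
    apply f.injective
    show f u = f v
    rw [← ha u, ← ha v, huv]
  have hbij : Function.Bijective a := Finite.injective_iff_bijective.1 hinj
  have hadj : ∀ u v, F.Adj (a u) (a v) ↔ F.Adj u v := by
    intro u v
    constructor
    · intro huv
      have h1 : f0.toSubgraph.Adj (f0 (a u)) (f0 (a v)) := by
        simp only [Subgraph.map_adj, Subgraph.top_adj, Relation.map_apply]
        exact ⟨a u, a v, huv, rfl, rfl⟩
      rw [← h, ha, ha] at h1
      simp only [Subgraph.map_adj, Subgraph.top_adj, Relation.map_apply] at h1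
      obtain ⟨u', v', huv', hu', hv'⟩ := h1
      rw [← f.injective hu', ← f.injective hv']
      exact huv'
    · intro huv
      have h1 : f.toSubgraph.Adj (f u) (f v) := by
        simp only [Subgraph.map_adj, Subgraph.top_adj, Relation.map_apply]
        exact ⟨u, v, huv, rfl, rfl⟩
      rw [h, ← ha, ← ha] at h1
      simp only [Subgraph.map_adj, Subgraph.top_adj, Relation.map_apply] at h1
      obtain ⟨u', v', huv', hu', hv'⟩ := h1
      rw [← f0.injective hu', ← f0.injective hv']
      exact huv'
  exact ⟨⟨Equiv.ofBijective a hbij, fun {u v} => hadj u v⟩, ha⟩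

/-- `inj(F,G) = N(G,F) * aut(F)`. -/
lemma inj_eq_copyCount_mul [Fintype V] [Finite W] (F : SimpleGraph W) (G : SimpleGraph V) :
    inj F G = G.copyCount F * Nat.card (F ≃g F) := by
  classical
  haveI : Fintype (Copy F G) := Fintype.ofFinite _
  rw [inj, Nat.card_eq_fintype_card, copyCount_eq_card_copiesIn, ← Finset.card_univ]
  rw [Finset.card_eq_sum_card_fiberwise (f := fun f : Copy F G => f.toSubgraph)
    (t := copiesIn G F) (fun f _ => by
      rw [Finset.mem_coe, mem_copiesIn]; exact ⟨f.isoToSubgraph⟩)]
  rw [Finset.sum_const_nat (m := Nat.card (F ≃g F)), ]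
  intro T hT
  rw [mem_copiesIn] at hT
  obtain ⟨i⟩ := hT
  let f0 : Copy F G := ⟨T.hom.comp i.toHom, Subgraph.hom_injective.comp i.injective⟩
  have hf0 : f0.toSubgraph = T := by
    show Subgraph.map (T.hom.comp i.toHom) ⊤ = T
    simp [Subgraph.map_comp]
  haveI : Fintype (F ≃g F) := Fintype.ofFinite _
  rw [Nat.card_eq_fintype_card, ← Finset.card_univ]
  symm
  refine Finset.card_bij (fun a _ => f0.comp a.toCopy) ?_ ?_ ?_
  · intro a _
    simp only [Finset.mem_filter, Finset.mem_univ, true_and]
    rw [← hf0]
    show Subgraph.map (f0.toHom.comp a.toHom) ⊤ = Subgraph.map f0.toHom ⊤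
    rw [Subgraph.map_comp, Subgraph.map_iso_top]
  · intro a _ b _ hab
    ext w
    apply f0.injective
    have := DFunLike.congr_fun hab w
    simpa using this
  · intro f hf
    simp only [Finset.mem_filter, Finset.mem_univ, true_and] at hf
    obtain ⟨a, ha⟩ := exists_aut_of_toSubgraph_eq f0 f (hf.trans hf0.symm)
    refine ⟨a, Finset.mem_univ _, ?_⟩
    ext w
    simpa using ha w

/-- `inj(F,K_n) = n (n-1) ... (n-v(F)+1)`. -/
lemma inj_top [Fintype W] (F : SimpleGraph W) (n : ℕ) :
    inj F (⊤ : SimpleGraph (Fin n)) = n.descFactorial (Fintype.card W) := by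
  classical
  have e : Copy F (⊤ : SimpleGraph (Fin n)) ≃ (W ↪ Fin n) :=
    { toFun := fun f => f.toEmbedding
      invFun := fun e => ⟨⟨e, fun {a b} h => by rw [top_adj]; exact e.injective.ne h.ne⟩, e.injective⟩
      left_inv := fun f => by ext; rfl
      right_inv := fun e => by ext; rfl }
  rw [inj, Nat.card_congr e, Nat.card_eq_fintype_card, Fintype.card_embedding_eq, Fintype.card_fin]

/-- The basic ratio identity `N(H,F) (n)_{v(F)} = inj(F,H) N(K_n,F)`. -/
lemma copyCount_mul_descFactorial [Fintype V] [Fintype W] (F : SimpleGraph W) (H : SimpleGraph V)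
    (n : ℕ) :
    H.copyCount F * n.descFactorial (Fintype.card W)
      = inj F H * (⊤ : SimpleGraph (Fin n)).copyCount F := by
  rw [← inj_top F n, inj_eq_copyCount_mul F H, inj_eq_copyCount_mul F (⊤ : SimpleGraph (Fin n))]
  ring

end Vale.Agent.Lib.P064
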