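import Mathlib

/-!
# Number of permutations extending a partial injection (pure Mathlib, no project imports)

Suggested proof: existence of one extension `σ₀` via `Equiv.extendSubtype`
(`p = (· ∈ Set.range f)`, `q = (· ∈ Set.range g)`), then `σ ↦ σ₀⁻¹ * σ` maps the set bijectively
onto the permutations fixing `Set.range f` pointwise, which are counted by
`Equiv.Perm.subtypeEquivSubtypePerm (· ∉ Set.range f)` and `Fintype.card_perm`.
-/

namespace Vale.Agent.Lib.P064

open Finset Equiv

/-- some permutation extends the injection -/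
lemma exists_perm_extending {n : ℕ} {W : Type*} (f g : W → Fin n)
    (hf : Function.Injective f) (hg : Function.Injective g) :
    ∃ σ₀ : Perm (Fin n), ∀ w, σ₀ (f w) = g w := by
  classical
  let e : {x // x ∈ Set.range f} ≃ {x // x ∈ Set.range g} :=
    (Equiv.ofInjective f hf).symm.trans (Equiv.ofInjective g hg)
  refine ⟨e.extendSubtype, fun w => ?_⟩
  rw [Equiv.extendSubtype_apply_of_mem e (f w) ⟨w, rfl⟩]
  have h1 : (Equiv.ofInjective f hf).symm ⟨f w, ⟨w, rfl⟩⟩ = w := by
    apply (Equiv.ofInjective f hf).injective
    rw [Equiv.apply_symm_apply]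
    rfl
  show ((Equiv.ofInjective g hg) ((Equiv.ofInjective f hf).symm ⟨f w, ⟨w, rfl⟩⟩) : Fin n) = g w
  rw [h1]
  rfl

/-- number of permutations fixing the range of an injection pointwise -/
lemma card_perm_fixing {n : ℕ} {W : Type*} [Fintype W] (f : W → Fin n)
    (hf : Function.Injective f) :
    (univ.filter fun σ : Perm (Fin n) => ∀ w, σ (f w) = f w).card
      = (n - Fintype.card W).factorial := by
  classical
  have h1 : (univ.filter fun σ : Perm (Fin n) => ∀ w, σ (f w) = f w).card
      = Fintype.card {σ : Perm (Fin n) // ∀ a, ¬ (a ∉ Set.range f) → σ a = a} := by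
    rw [Fintype.card_subtype]
    congr 1
    ext σ
    simp only [Finset.mem_filter, Finset.mem_univ, true_and, not_not]
    constructor
    · rintro h a ⟨w, rfl⟩
      exact h w
    · intro h w
      exact h (f w) ⟨w, rfl⟩
  rw [h1, ← Fintype.card_congr (Equiv.Perm.subtypeEquivSubtypePerm (fun a => a ∉ Set.range f)),
    Fintype.card_perm]
  congr 1
  have h2 : Fintype.card {a : Fin n // a ∉ Set.range f}
      = Fintype.card (Fin n) - Fintype.card {a : Fin n // a ∈ Set.range f} :=
    Fintype.card_subtype_compl _
  rw [h2, Fintype.card_fin]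
  congr 1
  exact (Fintype.card_congr (Equiv.ofInjective f hf)).symm

lemma card_perm_extending {n : ℕ} {W : Type*} [Fintype W] (f g : W → Fin n)
    (hf : Function.Injective f) (hg : Function.Injective g) :
    (univ.filter fun σ : Perm (Fin n) => ∀ w, σ (f w) = g w).card
      = (n - Fintype.card W).factorial := by
  classical
  obtain ⟨σ₀, h0⟩ := exists_perm_extending f g hf hg
  rw [← card_perm_fixing f hf]
  refine Finset.card_bij (fun σ _ => σ₀⁻¹ * σ) ?_ ?_ ?_
  · intro σ hσ
    simp only [Finset.mem_filter, Finset.mem_univ, true_and] at hσ ⊢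
    intro w
    rw [Perm.mul_apply, hσ w, ← h0 w]; simp
  · intro a _ b _ h
    exact mul_left_cancel h
  · intro τ hτ
    simp only [Finset.mem_filter, Finset.mem_univ, true_and] at hτ
    refine ⟨σ₀ * τ, ?_, ?_⟩
    · simp only [Finset.mem_filter, Finset.mem_univ, true_and]
      intro w
      rw [Perm.mul_apply, hτ w, h0 w]
    · rw [inv_mul_cancel_left]

end Vale.Agent.Lib.P064
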