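import Vale.Agent.Lib.P064.PermCore
import Vale.Agent.Lib.P064.PermFibre
import Vale.Agent.Lib.P064.Labelled

/-!
# From labelled copies of graphs to permutation counts
-/

namespace Vale.Agent.Lib.P064

open SimpleGraph Finset Equiv

variable {n : ℕ}

/-- image of the edge set of a graph under a map of the vertices into `Fin n` -/
noncomputable def edgesImg {W : Type*} (F : SimpleGraph W) (a : W → Fin n) : ES n :=
  (Set.toFinite (Sym2.map a '' F.edgeSet)).toFinset

lemma mem_edgesImg {W : Type*} {F : SimpleGraph W} {a : W → Fin n} {e : Sym2 (Fin n)} :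
    e ∈ edgesImg F a ↔ ∃ e' ∈ F.edgeSet, Sym2.map a e' = e := by
  simp [edgesImg]

lemma card_edgesImg {W : Type*} (F : SimpleGraph W) (a : W → Fin n)
    (ha : Function.Injective a) : (edgesImg F a).card = F.edgeSet.ncard := by
  rw [edgesImg, ← Set.ncard_eq_toFinset_card, Set.ncard_image_of_injective _ (Sym2.map.injective ha)]

lemma act_edgesImg {W : Type*} (F : SimpleGraph W) (a : W → Fin n) (σ : Perm (Fin n)) :
    act σ (edgesImg F a) = edgesImg F (σ ∘ a) := by
  ext e
  simp only [act, Finset.mem_image, mem_edgesImg]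
  constructor
  · rintro ⟨_, ⟨e', he', rfl⟩, rfl⟩
    exact ⟨e', he', by rw [Sym2.map_comp]; rfl⟩
  · rintro ⟨e', he', rfl⟩
    exact ⟨_, ⟨e', he', rfl⟩, by rw [Sym2.map_comp]; rfl⟩

/-- the permutations inducing the labelled copy `φ` -/
noncomputable def permsOf {V W : Type*} {F : SimpleGraph W} {H : SimpleGraph V}
    (a : W → Fin n) (ι : V → Fin n) (φ : Copy F H) : Finset (Perm (Fin n)) := by
  classical
  exact univ.filter fun σ : Perm (Fin n) => ∀ w, σ (a w) = ι (φ w)

lemma mem_permsOf {V W : Type*} {F : SimpleGraph W} {H : SimpleGraph V}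
    {a : W → Fin n} {ι : V → Fin n} {φ : Copy F H} {σ : Perm (Fin n)} :
    σ ∈ permsOf a ι φ ↔ ∀ w, σ (a w) = ι (φ w) := by
  classical
  simp [permsOf]

lemma card_permsOf {V W : Type*} [Fintype W] {F : SimpleGraph W} {H : SimpleGraph V}
    (a : W → Fin n) (ha : Function.Injective a) (ι : V → Fin n) (hι : Function.Injective ι)
    (φ : Copy F H) : (permsOf a ι φ).card = (n - Fintype.card W).factorial := by
  classical
  have h := card_perm_extending a (fun w => ι (φ w)) ha (hι.comp φ.injective)
  rw [← h]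
  unfold permsOf
  congr 1
  ext σ
  simp

/-- the union of all the sets `permsOf` has `inj F H * (n - v(F))!` elements -/
lemma card_biUnion_permsOf {V W : Type*} [Fintype V] [Fintype W] (F : SimpleGraph W)
    (H : SimpleGraph V) [Fintype (Copy F H)]
    (a : W → Fin n) (ha : Function.Injective a) (ι : V → Fin n) (hι : Function.Injective ι) :
    ((univ : Finset (Copy F H)).biUnion (permsOf a ι)).card
      = inj F H * (n - Fintype.card W).factorial := by
  classical
  rw [Finset.card_biUnion]
  · rw [Finset.sum_congr rfl (fun φ _ => card_permsOf a ha ι hι φ), Finset.sum_const,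
      Finset.card_univ, smul_eq_mul, inj, Nat.card_eq_fintype_card]
  · intro φ _ ψ _ hne
    show Disjoint (permsOf a ι φ) (permsOf a ι ψ)
    rw [Finset.disjoint_left]
    intro σ h1 h2
    apply hne
    rw [mem_permsOf] at h1 h2
    ext w
    apply hι
    rw [← h1 w, ← h2 w]

lemma permsOf_subset {V W : Type*} (F : SimpleGraph W) (H : SimpleGraph V)
    (a : W → Fin n) (ι : V → Fin n) (φ : Copy F H) {σ : Perm (Fin n)} (hσ : σ ∈ permsOf a ι φ) :
    act σ (edgesImg F a) ⊆ edgesImg H ι := by
  rw [mem_permsOf] at hσ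
  rw [act_edgesImg]
  intro e he
  rw [mem_edgesImg] at he ⊢
  obtain ⟨e', he', rfl⟩ := he
  refine ⟨Sym2.map φ e', ?_, ?_⟩
  · induction e' using Sym2.ind with
    | _ u v =>
      rw [Sym2.map_mk, SimpleGraph.mem_edgeSet]
      exact φ.toHom.map_adj he'
  · induction e' using Sym2.ind with
    | _ u v =>
      simp only [Sym2.map_mk, Function.comp, hσ]

/-- every labelled copy `φ` of `F` in `H` gives `(n - v(F))!` permutations `σ` with
`σ ∘ a = ι ∘ φ`, all of which carry `edgesImg F a` into `edgesImg H ι`; the sets for different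
`φ` are disjoint. -/
lemma inj_mul_le_cnt {V W : Type*} [Fintype V] [Fintype W] (F : SimpleGraph W) (H : SimpleGraph V)
    (a : W → Fin n) (ha : Function.Injective a) (ι : V → Fin n) (hι : Function.Injective ι) :
    inj F H * (n - Fintype.card W).factorial ≤ cnt (edgesImg F a) (edgesImg H ι) := by
  classical
  let _ : Fintype (Copy F H) := Fintype.ofFinite _
  rw [← card_biUnion_permsOf F H a ha ι hι]
  unfold cnt
  refine Finset.card_le_card ?_
  intro σ hσ
  rw [Finset.mem_biUnion] at hσ
  obtain ⟨φ, _, hφ⟩ := hσ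
  simp only [Finset.mem_filter, Finset.mem_univ, true_and]
  exact permsOf_subset F H a ι φ hφ

/-- if `F` has no isolated vertex, every permutation carrying `edgesImg F a` into `edgesImg H ι`
arises in this way. -/
lemma cnt_le_inj_mul {V W : Type*} [Fintype V] [Fintype W] (F : SimpleGraph W) (H : SimpleGraph V)
    (a : W → Fin n) (ha : Function.Injective a) (ι : V → Fin n) (hι : Function.Injective ι)
    (hiso : ∀ w, ∃ w', F.Adj w w') :
    cnt (edgesImg F a) (edgesImg H ι) ≤ inj F H * (n - Fintype.card W).factorial := by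
  classical
  let _ : Fintype (Copy F H) := Fintype.ofFinite _
  rw [← card_biUnion_permsOf F H a ha ι hι]
  unfold cnt
  refine Finset.card_le_card ?_
  intro σ hσ
  simp only [Finset.mem_filter, Finset.mem_univ, true_and] at hσ
  rw [act_edgesImg] at hσ
  -- every edge of `F` is carried to the image of an edge of `H`
  have hedge : ∀ u v, F.Adj u v → ∃ x y, H.Adj x y ∧ s(ι x, ι y) = s(σ (a u), σ (a v)) := by
    intro u v huv
    have h1 : s(σ (a u), σ (a v)) ∈ edgesImg F (σ ∘ a) := by
      rw [mem_edgesImg]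
      exact ⟨s(u, v), huv, by simp [Sym2.map_mk]⟩
    have h2 := hσ h1
    rw [mem_edgesImg] at h2
    obtain ⟨e', he', h3⟩ := h2
    induction e' using Sym2.ind with
    | _ x y => exact ⟨x, y, he', by simpa [Sym2.map_mk] using h3⟩
  have hrange : ∀ w, ∃ x, ι x = σ (a w) := by
    intro w
    obtain ⟨w', hw'⟩ := hiso w
    obtain ⟨x, y, _, hxy⟩ := hedge w w' hw'
    rw [Sym2.eq_iff] at hxy
    rcases hxy with ⟨h, _⟩ | ⟨_, h⟩
    · exact ⟨x, h⟩
    · exact ⟨y, h⟩
  choose φ hφ using hrange
  have hφinj : Function.Injective φ := by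
    intro u v huv
    apply ha
    apply σ.injective
    rw [← hφ u, ← hφ v, huv]
  have hφadj : ∀ u v, F.Adj u v → H.Adj (φ u) (φ v) := by
    intro u v huv
    obtain ⟨x, y, hxy, h⟩ := hedge u v huv
    rw [← hφ u, ← hφ v, Sym2.eq_iff] at h
    rcases h with ⟨h1, h2⟩ | ⟨h1, h2⟩
    · rw [← hι h1, ← hι h2]
      exact hxy
    · rw [← hι h1, ← hι h2]
      exact hxy.symm
  rw [Finset.mem_biUnion]
  refine ⟨⟨⟨φ, fun {u v} h => hφadj u v h⟩, hφinj⟩, Finset.mem_univ _, ?_⟩
  rw [mem_permsOf]
  intro w
  exact (hφ w).symm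

end Vale.Agent.Lib.P064
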