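import Vale.Agent.Lib.P064.ProdMeasure
import Vale.Agent.Lib.P064.PermBridge

/-!
# `G(n,p)` as the product measure on the subsets of the edge set of `K_n`

`ef G` (file `Basic.lean`) is the edge finset of `G`; `G ↦ ef G` is a bijection from
`SimpleGraph (Fin n)` onto `(ef ⊤).powerset` (inverse `SimpleGraph.fromEdgeSet`, compare the proof of
`sum_gnpProb_ge` in `Basic.lean`), `card_ef`, `card_ef_top` identify `gnpProb n p G` with
`wt (ef ⊤) p (ef G)`.
-/

namespace Vale.Agent.Lib.P064

open SimpleGraph Finset Equiv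

variable {n : ℕ}

theorem sum_gnpProb_eq (p : ℝ) (f : Finset (Sym2 (Fin n)) → ℝ) :
    ∑ G : SimpleGraph (Fin n), gnpProb n p G * f (ef G)
      = ∑ W ∈ (ef (⊤ : SimpleGraph (Fin n))).powerset,
          wt (ef (⊤ : SimpleGraph (Fin n))) p W * f W := by
  refine Finset.sum_bij' (fun G _ => ef G)
    (fun S _ => SimpleGraph.fromEdgeSet ((S : Finset _) : Set (Sym2 (Fin n)))) ?_ ?_ ?_ ?_ ?_
  · intro G _
    rw [Finset.mem_powerset]
    exact ef_mono le_top
  · intro S _
    exact Finset.mem_univ _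
  · intro G _
    rw [coe_ef, fromEdgeSet_edgeSet]
  · intro S hS
    rw [Finset.mem_powerset] at hS
    ext e
    rw [mem_ef, edgeSet_fromEdgeSet]
    simp only [Set.mem_sdiff, Finset.mem_coe]
    constructor
    · rintro ⟨h, _⟩
      exact h
    · intro h
      refine ⟨h, ?_⟩
      have := hS h
      rw [mem_ef, edgeSet_top] at this
      exact this
  · intro G _
    unfold gnpProb wt
    rw [card_ef G, card_ef_top]

/-- `v ↦ σ (ι v)` is an injective homomorphism `H → G` -/
lemma copyCount_pos_of_act_subset {V : Type*} [Fintype V] (H : SimpleGraph V) (ι : V → Fin n)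
    (hι : Function.Injective ι) (σ : Perm (Fin n)) (G : SimpleGraph (Fin n))
    (h : act σ (edgesImg H ι) ⊆ ef G) : 0 < G.copyCount H := by
  rw [copyCount_pos]
  refine ⟨⟨⟨fun v => σ (ι v), fun {a b} hab => ?_⟩, σ.injective.comp hι⟩⟩
  have h1 : s(σ (ι a), σ (ι b)) ∈ act σ (edgesImg H ι) := by
    unfold act
    rw [Finset.mem_image]
    refine ⟨s(ι a, ι b), ?_, by simp⟩
    rw [mem_edgesImg]
    exact ⟨s(a, b), hab, by simp⟩
  have h2 := h h1
  rw [mem_ef, mem_edgeSet] at h2
  exact h2

lemma act_edgesImg_subset_top {V : Type*} (H : SimpleGraph V) (ι : V → Fin n)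
    (hι : Function.Injective ι) (σ : Perm (Fin n)) :
    act σ (edgesImg H ι) ⊆ ef (⊤ : SimpleGraph (Fin n)) := by
  intro e he
  unfold act at he
  rw [Finset.mem_image] at he
  obtain ⟨e1, he1, rfl⟩ := he
  rw [mem_edgesImg] at he1
  obtain ⟨e2, he2, rfl⟩ := he1
  induction e2 using Sym2.ind with
  | _ a b =>
    rw [mem_edgeSet] at he2
    simp only [Sym2.map_mk]
    rw [mem_ef, mem_edgeSet, top_adj]
    exact fun hab => he2.ne (hι (σ.injective hab))

end Vale.Agent.Lib.P064
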