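import Vale.Agent.Lib.P064.Basic

namespace Vale.Agent.Lib.P064

open SimpleGraph Finset

variable {α β γ : Type*}

lemma subgraph_map_sSup {A : SimpleGraph α} {B : SimpleGraph β} (g : A →g B)
    (s : Set A.Subgraph) : (sSup s).map g = sSup (Subgraph.map g '' s) := by
  have gc : GaloisConnection (Subgraph.map g) (Subgraph.comap g) :=
    fun H H' => Subgraph.map_le_iff_le_comap g H H'
  rw [gc.l_sSup, sSup_image]

/-- If `A` is the union of `k` distinct subgraphs, each isomorphic to `F`, then the number of copies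
of `A` in `B` is at most the number of `k`-sets of copies of `F` in `B`. -/
lemma copyCount_le_choose [Fintype β] {A : SimpleGraph α} {F : SimpleGraph γ} (B : SimpleGraph β)
    (D : Finset A.Subgraph) (hF : ∀ C ∈ D, Nonempty (F ≃g C.coe))
    (hsup : sSup (D : Set A.Subgraph) = ⊤) :
    B.copyCount A ≤ (B.copyCount F).choose D.card := by
  classical
  unfold copyCount
  rw [← Finset.card_powersetCard]
  have key : ∀ B' : B.Subgraph, Nonempty (A ≃g B'.coe) →
      ∃ S : Finset B.Subgraph, S ∈ Finset.powersetCard D.card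
        (Finset.univ.filter fun G' : B.Subgraph => Nonempty (F ≃g G'.coe)) ∧
        sSup (S : Set B.Subgraph) = B' := by
    rintro B' ⟨e⟩
    let g : Copy A B := ⟨B'.hom.comp e.toHom, Subgraph.hom_injective.comp e.injective⟩
    refine ⟨D.image (Subgraph.map g.toHom), ?_, ?_⟩
    · rw [Finset.mem_powersetCard]
      refine ⟨?_, ?_⟩
      · intro G' hG'
        rw [Finset.mem_image] at hG'
        obtain ⟨C, hC, rfl⟩ := hG'
        obtain ⟨i⟩ := hF C hC
        simp only [Finset.mem_filter, Finset.mem_univ, true_and]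
        exact ⟨(g.isoSubgraphMap C).comp i⟩
      · exact Finset.card_image_of_injective _ (subgraph_map_injective g.toHom g.injective)
    · rw [Finset.coe_image, ← subgraph_map_sSup, hsup]
      show Subgraph.map (B'.hom.comp e.toHom) ⊤ = B'
      simp [Subgraph.map_comp]
  choose! Φ hΦ1 hΦ2 using key
  refine Finset.card_le_card_of_injOn Φ ?_ ?_
  · intro B' hB'
    simp only [Finset.coe_filter, Finset.mem_univ, true_and, Set.mem_ofPred_eq] at hB'
    exact hΦ1 B' hB'
  · intro B₁ h₁ B₂ h₂ h
    simp only [Finset.coe_filter, Finset.mem_univ, true_and, Set.mem_ofPred_eq] at h₁ h₂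
    rw [← hΦ2 B₁ h₁, ← hΦ2 B₂ h₂, h]

/-- number of edges of the coercion of a subgraph -/
lemma ncard_edgeSet_coe {A : SimpleGraph α} (I : A.Subgraph) :
    I.coe.edgeSet.ncard = I.edgeSet.ncard := by
  rw [← Subgraph.image_coe_edgeSet_coe,
    Set.ncard_image_of_injective _ (Sym2.map.injective Subtype.coe_injective)]

lemma ncard_edgeSet_of_iso {A : SimpleGraph α} {B : SimpleGraph β} (i : A ≃g B) :
    A.edgeSet.ncard = B.edgeSet.ncard := by
  rw [← Nat.card_coe_set_eq, ← Nat.card_coe_set_eq]
  exact Nat.card_congr i.mapEdgeSet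

/-- edges of a union of pairwise edge-disjoint subgraphs with `m` edges each -/
lemma ncard_edgeSet_sSup [Finite α] {A : SimpleGraph α} (m : ℕ) (D : Finset A.Subgraph)
    (hm : ∀ C ∈ D, C.edgeSet.ncard = m)
    (hdisj : ∀ C₁ ∈ D, ∀ C₂ ∈ D, C₁ ≠ C₂ → Disjoint C₁.edgeSet C₂.edgeSet) :
    (sSup (D : Set A.Subgraph)).edgeSet.ncard = D.card * m := by
  classical
  induction D using Finset.induction_on with
  | empty => simp
  | insert C s hC ih =>
    rw [Finset.coe_insert, sSup_insert, Subgraph.edgeSet_sup, Finset.card_insert_of_notMem hC]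
    have hd : Disjoint C.edgeSet (sSup (s : Set A.Subgraph)).edgeSet := by
      rw [Subgraph.edgeSet_sSup]
      simp only [Set.disjoint_iUnion_right]
      intro C' hC'
      have hC's : C' ∈ s := by simpa using hC'
      exact hdisj C (Finset.mem_insert_self _ _) C' (Finset.mem_insert_of_mem hC's)
        (fun h => hC (h ▸ hC's))
    rw [Set.ncard_union_eq hd (Set.toFinite _) (Set.toFinite _),
      hm C (Finset.mem_insert_self _ _),
      ih (fun C' h => hm C' (Finset.mem_insert_of_mem h))
        (fun C₁ h₁ C₂ h₂ => hdisj C₁ (Finset.mem_insert_of_mem h₁) C₂ (Finset.mem_insert_of_mem h₂))]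
    ring

/-- Counting form of the packing lemma: if `D` is a family of pairwise edge-disjoint copies of `F`
in `H`, with union `I`, then `N(B,I) ≤ binom(N(B,F), |D|)` and `e(I) = |D| e(F)`. -/
lemma packing_count [Finite α] [Fintype β] {H : SimpleGraph α} {F : SimpleGraph γ}
    (B : SimpleGraph β) (D : Finset H.Subgraph) (hF : ∀ C ∈ D, Nonempty (F ≃g C.coe))
    (hdisj : ∀ C₁ ∈ D, ∀ C₂ ∈ D, C₁ ≠ C₂ → Disjoint C₁.edgeSet C₂.edgeSet) :
    B.copyCount (sSup (D : Set H.Subgraph)).coe ≤ (B.copyCount F).choose D.card ∧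
      (sSup (D : Set H.Subgraph)).coe.edgeSet.ncard = D.card * F.edgeSet.ncard := by
  classical
  set I : H.Subgraph := sSup (D : Set H.Subgraph) with hI
  have hle : ∀ C ∈ D, C ≤ I := fun C hC => le_sSup (by simpa using hC)
  have hcr : ∀ C ∈ D, Subgraph.coeSubgraph (Subgraph.restrict (G' := I) C) = C := by
    intro C hC
    rw [Subgraph.coeSubgraph_restrict_eq]
    exact inf_eq_right.2 (hle C hC)
  constructor
  · have hinj : Set.InjOn (Subgraph.restrict (G' := I)) (D : Set H.Subgraph) := by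
      intro C₁ h₁ C₂ h₂ h
      rw [← hcr C₁ h₁, ← hcr C₂ h₂, h]
    have hcard : (D.image (Subgraph.restrict (G' := I))).card = D.card :=
      Finset.card_image_of_injOn hinj
    rw [← hcard]
    apply copyCount_le_choose
    · intro C' hC'
      rw [Finset.mem_image] at hC'
      obtain ⟨C, hC, rfl⟩ := hC'
      obtain ⟨i⟩ := hF C hC
      have j := (Subgraph.coeCopy I).isoSubgraphMap (Subgraph.restrict (G' := I) C)
      have h2 : (Subgraph.restrict (G' := I) C).map (Subgraph.coeCopy I).toHom = C := hcr C hC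
      rw [h2] at j
      exact ⟨j.symm.comp i⟩
    · apply Subgraph.coeSubgraph_injective I
      show Subgraph.map I.hom _ = Subgraph.map I.hom ⊤
      rw [subgraph_map_sSup, Subgraph.map_hom_top, Finset.coe_image, Set.image_image]
      have : (fun C => Subgraph.map I.hom (Subgraph.restrict (G' := I) C)) '' (D : Set H.Subgraph)
          = (D : Set H.Subgraph) := by
        ext C
        constructor
        · rintro ⟨C', hC', rfl⟩
          have := hcr C' hC'
          simp only [Subgraph.coeSubgraph] at this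
          show Subgraph.map I.hom (Subgraph.restrict C') ∈ (D : Set H.Subgraph)
          rw [this]; exact hC'
        · intro hC
          exact ⟨C, hC, hcr C hC⟩
      rw [this]
  · rw [ncard_edgeSet_coe]
    apply ncard_edgeSet_sSup _ _ _ hdisj
    intro C hC
    obtain ⟨i⟩ := hF C hC
    rw [← ncard_edgeSet_coe, ncard_edgeSet_of_iso i]

/-- **Packing lemma.**  If every subgraph of `H` has expected count at least `c > 0` in `G(n,q)`,
then any family `D` of pairwise edge-disjoint copies of `F` in `H` satisfies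
`c * |D|! ≤ (E N(G(n,q),F))^|D|`. -/
lemma packing_factorial [Finite α] {H : SimpleGraph α} {F : SimpleGraph γ} (n : ℕ) (q c : ℝ)
    (hq : 0 ≤ q) (hyp : ∀ I : H.Subgraph, c ≤ expCopies n q I.coe)
    (D : Finset H.Subgraph) (hF : ∀ C ∈ D, Nonempty (F ≃g C.coe))
    (hdisj : ∀ C₁ ∈ D, ∀ C₂ ∈ D, C₁ ≠ C₂ → Disjoint C₁.edgeSet C₂.edgeSet) :
    c * (D.card.factorial : ℝ) ≤ (expCopies n q F) ^ D.card := by
  obtain ⟨h1, h2⟩ := packing_count (⊤ : SimpleGraph (Fin n)) D hF hdisj
  have h3 := hyp (sSup (D : Set H.Subgraph))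
  rw [expCopies_eq, h2] at h3
  rw [expCopies_eq, mul_pow, ← pow_mul, mul_comm F.edgeSet.ncard]
  have h4 : (((⊤ : SimpleGraph (Fin n)).copyCount (sSup (D : Set H.Subgraph)).coe : ℕ) : ℝ)
      ≤ (((⊤ : SimpleGraph (Fin n)).copyCount F : ℕ) : ℝ) ^ D.card / (D.card.factorial : ℝ) := by
    have h5 : (((⊤ : SimpleGraph (Fin n)).copyCount (sSup (D : Set H.Subgraph)).coe : ℕ) : ℝ)
        ≤ ((((⊤ : SimpleGraph (Fin n)).copyCount F).choose D.card : ℕ) : ℝ) := by
      exact_mod_cast h1
    exact h5.trans (Nat.choose_le_pow_div _ _)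
  have hfac : (0 : ℝ) < (D.card.factorial : ℝ) := by exact_mod_cast Nat.factorial_pos _
  have hqp : 0 ≤ q ^ (D.card * F.edgeSet.ncard) := pow_nonneg hq _
  calc c * (D.card.factorial : ℝ)
      ≤ ((((⊤ : SimpleGraph (Fin n)).copyCount F : ℕ) : ℝ) ^ D.card / (D.card.factorial : ℝ)
          * q ^ (D.card * F.edgeSet.ncard)) * (D.card.factorial : ℝ) := by
        apply mul_le_mul_of_nonneg_right _ hfac.le
        exact h3.trans (mul_le_mul_of_nonneg_right h4 hqp)
    _ = _ := by field_simp

/-- `k! ≤ x^k` implies `k ≤ e x`. -/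
lemma le_exp_mul_of_factorial_le (k : ℕ) (x : ℝ) (hx : 0 ≤ x)
    (h : (k.factorial : ℝ) ≤ x ^ k) : (k : ℝ) ≤ Real.exp 1 * x := by
  rcases Nat.eq_zero_or_pos k with rfl | hk
  · simpa using mul_nonneg (Real.exp_pos 1).le hx
  have h1 := Real.pow_div_factorial_le_exp (k : ℝ) (Nat.cast_nonneg k) k
  have hfac : (0 : ℝ) < (k.factorial : ℝ) := by exact_mod_cast Nat.factorial_pos _
  rw [div_le_iff₀ hfac] at h1
  have h2 : (k : ℝ) ^ k ≤ (Real.exp 1 * x) ^ k := by
    rw [mul_pow, ← Real.exp_nat_mul, mul_one]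
    exact h1.trans (mul_le_mul_of_nonneg_left h (Real.exp_pos _).le)
  exact le_of_pow_le_pow_left₀ hk.ne' (mul_nonneg (Real.exp_pos 1).le hx) h2

end Vale.Agent.Lib.P064
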