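import Vale.Agent.Lib.P064.PermChain

/-!
# Two rounds of the chain argument
-/

namespace Vale.Agent.Lib.P064

open Finset Equiv

variable {n : ℕ}

lemma term_le_trivial {q L : ℝ} (hq : 0 < q) (hL : 0 < L) {U : ES n} (hU : Adm q U) (J : ES n) :
    (cnt J U : ℝ) / (L * q) ^ J.card
      ≤ (n.factorial : ℝ) * ((U.card.choose J.card : ℝ) * (1 / L) ^ J.card) := by
  rw [div_le_iff₀ (by positivity)]
  refine (cnt_le_of_adm hq.le hU J).trans (le_of_eq ?_)
  rw [mul_pow, one_div, inv_pow]
  field_simp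

/-- **Level 1**: a `log²` bound in terms of the ratio of the sizes. -/
theorem level1 (q : ℝ) (hq : 0 < q) (w : ℕ) (G B : ES n) (hG : Adm q G)
    (hGB : G.card ≤ 2 ^ w * B.card) :
    (cnt B G : ℝ) ≤ (n.factorial : ℝ) * (Real.exp 2 * (8 * ((w : ℝ) + 1) ^ 2) * q) ^ B.card := by
  have hw : (0 : ℝ) < (w : ℝ) + 1 := by positivity
  have hL : (0 : ℝ) < 8 * ((w : ℝ) + 1) ^ 2 := by positivity
  refine chain' q (8 * ((w : ℝ) + 1) ^ 2) hq hL 2 (by norm_num) (1 / ((w : ℝ) + 1)) (by positivity)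
    ?_ w 2 ?_ G B hG hGB
  · intro B U hU hUc
    calc ∑ J ∈ B.powerset, (cnt J U : ℝ) / (8 * ((w : ℝ) + 1) ^ 2 * q) ^ J.card
        ≤ ∑ J ∈ B.powerset, (n.factorial : ℝ) *
            ((U.card.choose J.card : ℝ) * (1 / (8 * ((w : ℝ) + 1) ^ 2)) ^ J.card) :=
          Finset.sum_le_sum fun J _ => term_le_trivial hq hL hU J
      _ = (n.factorial : ℝ) * ∑ J ∈ B.powerset,
            ((U.card.choose J.card : ℝ) * (1 / (8 * ((w : ℝ) + 1) ^ 2)) ^ J.card) := by
          rw [Finset.mul_sum]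
      _ ≤ (n.factorial : ℝ) * Real.exp (2 * (1 / (2 * ((w : ℝ) + 1))) * B.card) := by
          refine mul_le_mul_of_nonneg_left ?_ (Nat.cast_nonneg _)
          refine level1_sum B U.card hUc (1 / (2 * ((w : ℝ) + 1))) _ (by positivity)
            (by positivity) (le_of_eq ?_)
          field_simp
          ring
      _ = _ := by
          congr 2
          field_simp
  · have h1 : 1 / ((w : ℝ) + 1) * w ≤ 1 := by
      rw [div_mul_eq_mul_div, one_mul, div_le_one hw]
      linarith
    have h2 : 1 / (8 * ((w : ℝ) + 1) ^ 2) ≤ 1 := by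
      rw [div_le_one hL]
      have : (0 : ℝ) ≤ (w : ℝ) := Nat.cast_nonneg _
      nlinarith
    linarith

/-- **Level 2.** -/
theorem level2 (q : ℝ) (hq : 0 < q) (k w : ℕ) (hw : 1 ≤ w) (hkw : (3 * k + 2) * w ≤ 2 ^ k)
    (G B : ES n) (hG : Adm q G) (hGB : G.card ≤ (2 ^ k) ^ w * B.card) :
    (cnt B G : ℝ) ≤ (n.factorial : ℝ) *
      (Real.exp 3 * (Real.exp 2 * (8 * (2 * (k : ℝ) + 1) ^ 2) * w) * q) ^ B.card := by
  set lam : ℝ := Real.exp 2 * (8 * (2 * (k : ℝ) + 1) ^ 2) with hlam
  have hk0 : (0 : ℝ) ≤ (k : ℝ) := Nat.cast_nonneg _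
  have hw1 : (1 : ℝ) ≤ (w : ℝ) := by exact_mod_cast hw
  have hw0 : (0 : ℝ) < (w : ℝ) := by linarith
  have hlam1 : 1 ≤ lam := by
    have h1 : (1 : ℝ) ≤ Real.exp 2 := Real.one_le_exp (by norm_num)
    have h2 : (1 : ℝ) ≤ 8 * (2 * (k : ℝ) + 1) ^ 2 := by nlinarith
    rw [hlam]
    nlinarith
  have hlam0 : 0 < lam := by linarith
  have hL1 : 1 ≤ lam * w := by nlinarith
  have hL : 0 < lam * w := by linarith
  have hK : (0 : ℝ) < (2 : ℝ) ^ k := by positivity
  set γ : ℝ := (3 * (k : ℝ) + 2) / 2 ^ k with hγ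
  have hγ0 : 0 ≤ γ := by positivity
  refine chain' q (lam * w) hq hL (2 ^ k) Nat.one_le_two_pow (1 / (w : ℝ) + γ) (by positivity)
    ?_ w 3 ?_ G B hG hGB
  · intro B U hU hUc
    set m : ℕ := B.card / 2 ^ k with hm
    have hm1 : 2 ^ k * m ≤ B.card := Nat.mul_div_le _ _
    have hm2 : B.card < 2 ^ k * (m + 1) := Nat.lt_mul_div_succ _ (by positivity)
    rw [← Finset.sum_filter_add_sum_filter_not B.powerset (fun J => J.card ≤ m)]
    -- small sets
    have hsmall : ∑ J ∈ B.powerset.filter (fun J => J.card ≤ m),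
        (cnt J U : ℝ) / (lam * w * q) ^ J.card ≤ (n.factorial : ℝ) * Real.exp (γ * B.card) := by
      calc ∑ J ∈ B.powerset.filter (fun J => J.card ≤ m), (cnt J U : ℝ) / (lam * w * q) ^ J.card
          ≤ ∑ J ∈ B.powerset.filter (fun J => J.card ≤ m),
              (n.factorial : ℝ) * (U.card.choose J.card : ℝ) := by
            refine Finset.sum_le_sum fun J _ => (term_le_trivial hq hL hU J).trans ?_
            refine mul_le_mul_of_nonneg_left ?_ (Nat.cast_nonneg _)
            refine mul_le_of_le_one_right (Nat.cast_nonneg _) ?_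
            exact pow_le_one₀ (by positivity) (by rw [div_le_one hL]; exact hL1)
        _ = (n.factorial : ℝ) * ∑ J ∈ B.powerset.filter (fun J => J.card ≤ m),
              (U.card.choose J.card : ℝ) := by rw [Finset.mul_sum]
        _ ≤ _ := mul_le_mul_of_nonneg_left (level2_small_sum B U.card k m hUc hm1)
              (Nat.cast_nonneg _)
    -- large sets
    have hlarge : ∑ J ∈ B.powerset.filter (fun J => ¬ J.card ≤ m),
        (cnt J U : ℝ) / (lam * w * q) ^ J.card
          ≤ (n.factorial : ℝ) * ((1 + 1 / (w : ℝ)) ^ B.card - 1) := by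
      have h1 : ∀ J ∈ B.powerset.filter (fun J => ¬ J.card ≤ m),
          (cnt J U : ℝ) / (lam * w * q) ^ J.card ≤ (n.factorial : ℝ) * (1 / (w : ℝ)) ^ J.card := by
        intro J hJ
        rw [Finset.mem_filter] at hJ
        have hJm : m + 1 ≤ J.card := by omega
        have hUJ : U.card ≤ 2 ^ (2 * k) * J.card := by
          calc U.card ≤ 2 ^ k * B.card := hUc
            _ ≤ 2 ^ k * (2 ^ k * (m + 1)) := Nat.mul_le_mul_left _ hm2.le
            _ ≤ 2 ^ k * (2 ^ k * J.card) :=
                Nat.mul_le_mul_left _ (Nat.mul_le_mul_left _ hJm)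
            _ = 2 ^ (2 * k) * J.card := by rw [two_mul, pow_add]; ring
        have h2 := level1 q hq (2 * k) U J hU hUJ
        have e : Real.exp 2 * (8 * (((2 * k : ℕ) : ℝ) + 1) ^ 2) = lam := by
          rw [hlam]; push_cast; ring
        rw [e] at h2
        rw [div_le_iff₀ (by positivity)]
        refine h2.trans (le_of_eq ?_)
        have e2 : (1 / (w : ℝ)) ^ J.card * (lam * w * q) ^ J.card = (lam * q) ^ J.card := by
          rw [← mul_pow]
          congr 1
          field_simp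
        rw [mul_assoc (n.factorial : ℝ), e2]
      refine (Finset.sum_le_sum h1).trans ?_
      rw [← Finset.mul_sum]
      refine mul_le_mul_of_nonneg_left ?_ (Nat.cast_nonneg _)
      have h3 := Finset.sum_filter_add_sum_filter_not B.powerset (fun J => J.card ≤ m)
        (fun J => (1 / (w : ℝ)) ^ J.card)
      rw [sum_powerset_pow] at h3
      have h4 : (1 : ℝ) ≤ ∑ J ∈ B.powerset.filter (fun J => J.card ≤ m), (1 / (w : ℝ)) ^ J.card := by
        have hmem : (∅ : ES n) ∈ B.powerset.filter (fun J => J.card ≤ m) := by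
          simp
        have := Finset.single_le_sum (f := fun J : ES n => (1 / (w : ℝ)) ^ J.card)
          (fun J _ => by positivity) hmem
        simpa using this
      linarith
    have hA1 : (1 : ℝ) ≤ (1 + 1 / (w : ℝ)) ^ B.card :=
      one_le_pow₀ (by have : (0 : ℝ) ≤ 1 / (w : ℝ) := by positivity
                      linarith)
    have hA2 : (1 + 1 / (w : ℝ)) ^ B.card ≤ Real.exp (1 / (w : ℝ) * B.card) := by
      rw [mul_comm, Real.exp_nat_mul]
      refine pow_le_pow_left₀ (by positivity) ?_ _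
      rw [add_comm]
      exact Real.add_one_le_exp _
    have hC1 : (1 : ℝ) ≤ Real.exp (γ * B.card) := Real.one_le_exp (by positivity)
    have hf : (0 : ℝ) ≤ (n.factorial : ℝ) := Nat.cast_nonneg _
    calc _ ≤ (n.factorial : ℝ) * Real.exp (γ * B.card)
          + (n.factorial : ℝ) * ((1 + 1 / (w : ℝ)) ^ B.card - 1) := add_le_add hsmall hlarge
      _ = (n.factorial : ℝ) * (((1 + 1 / (w : ℝ)) ^ B.card - 1) + Real.exp (γ * B.card)) := by ring
      _ ≤ (n.factorial : ℝ) * ((1 + 1 / (w : ℝ)) ^ B.card * Real.exp (γ * B.card)) := by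
          refine mul_le_mul_of_nonneg_left ?_ hf
          nlinarith
      _ ≤ (n.factorial : ℝ) * (Real.exp (1 / (w : ℝ) * B.card) * Real.exp (γ * B.card)) := by
          refine mul_le_mul_of_nonneg_left ?_ hf
          exact mul_le_mul_of_nonneg_right hA2 (Real.exp_pos _).le
      _ = _ := by rw [← Real.exp_add]; congr 2; ring
  · have h1 : 1 / (w : ℝ) * w = 1 := by field_simp
    have h2 : γ * w ≤ 1 := by
      rw [hγ, div_mul_eq_mul_div, div_le_one hK]
      exact_mod_cast hkw
    have h3 : 1 / (lam * w) ≤ 1 := by rw [div_le_one hL]; exact hL1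
    calc (1 / (w : ℝ) + γ) * w + 1 / (lam * w) = 1 / (w : ℝ) * w + γ * w + 1 / (lam * w) := by ring
      _ ≤ 3 := by linarith

end Vale.Agent.Lib.P064
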