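import Mathlib

/-!
# Choice of parameters for the P064 chain argument (pure Mathlib, no project imports)

Suggested choice: `a = Nat.clog 2 n`, `k = Nat.clog 2 a + 5`, `w = (2 * a + k - 1) / k`.
Then `n ≤ 2^a`, `k w ≥ 2a`, `w ≤ 2a/k + 1`, `(3k+2) w ≤ 10 a + 3k + 2 ≤ 32 a ≤ 2^k`
(as `k ≤ a + 5`), `(2k+1)² w ≤ 9k² (2a/k+1) = 18ka + 9k² ≤ 72 k a`, `a ≤ 3 log n`,
`k ≤ 9 log (log n + 3)`; so `C = 1944` works.  Any other constant is fine.
-/

namespace Vale.Agent.Lib.P064

lemma clog_two_le_real (m : ℕ) (hm : 1 ≤ m) :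
    (Nat.clog 2 m : ℝ) ≤ 1 + Real.log m / Real.log 2 := by
  have hl2 : 0 < Real.log 2 := Real.log_pos (by norm_num)
  rcases Nat.lt_or_ge 1 m with h | h
  · have h1 := Nat.pow_pred_clog_lt_self (b := 2) (by norm_num) h
    have hpos : 0 < Nat.clog 2 m := Nat.clog_pos (by norm_num) h
    have h2 : ((2 : ℝ) ^ (Nat.clog 2 m).pred) < (m : ℝ) := by exact_mod_cast h1
    have h3 : Real.log ((2 : ℝ) ^ (Nat.clog 2 m).pred) < Real.log m :=
      Real.log_lt_log (by positivity) h2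
    rw [Real.log_pow] at h3
    have h4 : (((Nat.clog 2 m).pred : ℕ) : ℝ) = (Nat.clog 2 m : ℝ) - 1 := by
      have : (Nat.clog 2 m).pred + 1 = Nat.clog 2 m := Nat.succ_pred_eq_of_pos hpos
      have h5 : (((Nat.clog 2 m).pred + 1 : ℕ) : ℝ) = (Nat.clog 2 m : ℝ) := by rw [this]
      push_cast at h5
      linarith
    rw [h4] at h3
    have : (Nat.clog 2 m : ℝ) - 1 < Real.log m / Real.log 2 := by
      rw [lt_div_iff₀ hl2]
      exact h3
    linarith
  · have : m = 1 := le_antisymm h hm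
    subst this
    simp

theorem exists_params : ∃ C : ℝ, 0 < C ∧ ∀ n : ℕ, 2 ≤ n → ∃ k w : ℕ, 1 ≤ w ∧
    (3 * k + 2) * w ≤ 2 ^ k ∧ n ^ 2 ≤ (2 ^ k) ^ w ∧
    (2 * (k : ℝ) + 1) ^ 2 * (w : ℝ) ≤ C * Real.log n * Real.log (Real.log n + 3) := by
  refine ⟨1944, by norm_num, ?_⟩
  intro n hn
  set a := Nat.clog 2 n with ha
  set k := Nat.clog 2 a + 5 with hk
  set w := (2 * a + k - 1) / k with hw
  have ha1 : 1 ≤ a := Nat.clog_pos (by norm_num) hn
  have hna : n ≤ 2 ^ a := Nat.le_pow_clog (by norm_num) n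
  have hk5 : 5 ≤ k := by omega
  have hkpos : 0 < k := by omega
  have hca : Nat.clog 2 a ≤ a := Nat.clog_le_of_le_pow (Nat.lt_two_pow_self).le
  have hk6 : k ≤ 6 * a := by omega
  have ha2 : a ≤ 2 ^ Nat.clog 2 a := Nat.le_pow_clog (by norm_num) a
  have h2k : 32 * a ≤ 2 ^ k := by
    rw [hk, pow_add]
    nlinarith
  -- k * w bounds
  have hkw1 : k * w ≤ 2 * a + k - 1 := Nat.mul_div_le _ _
  have hkw2 : 2 * a ≤ k * w := by
    have := Nat.div_add_mod (2 * a + k - 1) k
    have hmod : (2 * a + k - 1) % k < k := Nat.mod_lt _ hkpos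
    rw [← hw] at this
    omega
  have hw1 : 1 ≤ w := by
    rw [hw]
    apply (Nat.one_le_div_iff hkpos).2
    omega
  refine ⟨k, w, hw1, ?_, ?_, ?_⟩
  · have h1 : (3 * k + 2) * w ≤ 4 * (k * w) := by nlinarith
    omega
  · calc n ^ 2 ≤ (2 ^ a) ^ 2 := Nat.pow_le_pow_left hna 2
      _ = 2 ^ (2 * a) := by rw [← pow_mul, mul_comm]
      _ ≤ 2 ^ (k * w) := Nat.pow_le_pow_right (by norm_num) hkw2
      _ = (2 ^ k) ^ w := by rw [pow_mul]
  · -- natural number bound
    have hN : (2 * k + 1) ^ 2 * w ≤ 72 * (k * a) := by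
      have h1 : (2 * k + 1) ^ 2 ≤ 9 * (k * k) := by nlinarith
      have h2 : k * w ≤ 8 * a := by omega
      calc (2 * k + 1) ^ 2 * w ≤ 9 * (k * k) * w := Nat.mul_le_mul_right _ h1
        _ = 9 * k * (k * w) := by ring
        _ ≤ 9 * k * (8 * a) := Nat.mul_le_mul_left _ h2
        _ = 72 * (k * a) := by ring
    have hNR : (2 * (k : ℝ) + 1) ^ 2 * (w : ℝ) ≤ 72 * ((k : ℝ) * (a : ℝ)) := by exact_mod_cast hN
    -- real bounds
    have hl2 : (0.6931 : ℝ) < Real.log 2 := by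
      have := Real.log_two_gt_d9
      linarith
    have hl2pos : 0 < Real.log 2 := by linarith
    set Lg := Real.log n with hLg
    have hLg2 : Real.log 2 ≤ Lg := by
      apply Real.log_le_log (by norm_num)
      exact_mod_cast hn
    have hLpos : 0 < Lg := by linarith
    have haR : (a : ℝ) ≤ 3 * Lg := by
      have h1 := clog_two_le_real n (by omega)
      rw [← ha, ← hLg] at h1
      have h2 : Lg / Real.log 2 ≤ 1.4429 * Lg := by
        rw [div_le_iff₀ hl2pos]
        nlinarith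
      have h3 : (1 : ℝ) ≤ 1.4429 * Lg := by nlinarith
      linarith
    set x := Real.log (Lg + 3) with hx
    have hx3 : Real.log 3 ≤ x := Real.log_le_log (by norm_num) (by linarith)
    have hx1 : 1 ≤ x := by
      have h3 : (1 : ℝ) ≤ Real.log 3 := by
        rw [Real.le_log_iff_exp_le (by norm_num)]
        have := Real.exp_one_lt_d9
        linarith
      linarith
    have hkR : (k : ℝ) ≤ 9 * x := by
      have h1 := clog_two_le_real a ha1
      have h2 : Real.log a ≤ 2 * x := by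
        have haposR : (0 : ℝ) < a := by exact_mod_cast ha1
        calc Real.log a ≤ Real.log (3 * (Lg + 3)) := by
              apply Real.log_le_log haposR
              linarith
          _ = Real.log 3 + x := by rw [Real.log_mul (by norm_num) (by linarith)]
          _ ≤ 2 * x := by linarith
      have h3 : Real.log a / Real.log 2 ≤ 3 * x := by
        rw [div_le_iff₀ hl2pos]
        nlinarith
      have h4 : (k : ℝ) = (Nat.clog 2 a : ℝ) + 5 := by rw [hk]; push_cast; ring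
      rw [h4]
      linarith
    have hk0 : (0 : ℝ) ≤ k := Nat.cast_nonneg k
    have ha0 : (0 : ℝ) ≤ a := Nat.cast_nonneg a
    calc (2 * (k : ℝ) + 1) ^ 2 * (w : ℝ) ≤ 72 * ((k : ℝ) * (a : ℝ)) := hNR
      _ ≤ 72 * ((9 * x) * (3 * Lg)) := by gcongr
      _ = 1944 * Lg * x := by ring

end Vale.Agent.Lib.P064
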