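import Vale.Agent.Lib.P064.PermAdm
import Vale.Agent.Lib.P064.PermLevels
import Vale.Agent.Lib.P064.PermParams
import Vale.Agent.Lib.P064.DegreeMain

/-!
# `ptilde_E ≤ C log n loglog n p_E`
-/

namespace Vale.Agent.Lib.P064

open SimpleGraph Finset Equiv

universe u

lemma card_ES_le {n : ℕ} (G : ES n) : G.card ≤ n ^ 2 := by
  refine (Finset.card_le_univ G).trans ?_
  rw [Sym2.card, Fintype.card_fin, Nat.choose_two_right]
  apply Nat.div_le_of_le_mul
  simp only [Nat.add_sub_cancel]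
  nlinarith [Nat.zero_le n]

lemma q_pos_of_hyp {V : Type*} [Finite V] (H : SimpleGraph V) (n : ℕ) (hne : H.edgeSet.Nonempty)
    (q : ℝ) (hq : 0 ≤ q) (hyp : ∀ I : H.Subgraph, 1 ≤ expCopies n q I.coe) : 0 < q := by
  rcases eq_or_lt_of_le hq with h0 | h0
  · exfalso
    have h1 := hyp ⊤
    rw [expCopies_eq, ncard_edgeSet_coe, Subgraph.edgeSet_top, ← h0,
      zero_pow ((Set.ncard_pos (Set.toFinite _)).2 hne).ne', mul_zero] at h1
    linarith
  · exact h0

/-- the labelled count bound obtained from two rounds of the chain argument -/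
theorem inj_le_level2 {V : Type u} [Fintype V] (H : SimpleGraph V) (n : ℕ)
    (hcard : Fintype.card V ≤ n) (q : ℝ) (hq : 0 ≤ q)
    (hyp : ∀ I : H.Subgraph, 1 ≤ expCopies n q I.coe)
    (k w : ℕ) (hw : 1 ≤ w) (hkw : (3 * k + 2) * w ≤ 2 ^ k) (hn : n ^ 2 ≤ (2 ^ k) ^ w)
    (W : Type u) [Finite W] (F : SimpleGraph W) (hE : F.edgeSet.Nonempty) (hFH : F ⊑ H) :
    (inj F H : ℝ) ≤ (n : ℝ) ^ (Nat.card W) *
      (Real.exp 3 * (Real.exp 2 * (8 * (2 * (k : ℝ) + 1) ^ 2) * w) * q) ^ F.edgeSet.ncard := by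
  classical
  have : Fintype W := Fintype.ofFinite W
  obtain ⟨ι⟩ : Nonempty (V ↪ Fin n) :=
    Function.Embedding.nonempty_of_card_le (by simpa using hcard)
  obtain ⟨φ₀⟩ := hFH
  have hHne : H.edgeSet.Nonempty := by
    obtain ⟨e, he⟩ := hE
    exact ⟨Sym2.map φ₀ e, φ₀.toHom.map_mem_edgeSet he⟩
  have hq0 : 0 < q := q_pos_of_hyp H n hHne q hq hyp
  have ha : Function.Injective (fun x : W => ι (φ₀ x)) := ι.injective.comp φ₀.injective
  have hG : Adm q (edgesImg H ι) := adm_of_hyp H ι ι.injective q hq hyp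
  have hA : (edgesImg F (fun x : W => ι (φ₀ x))).card = F.edgeSet.ncard := card_edgesImg F _ ha
  have hApos : 1 ≤ F.edgeSet.ncard := (Set.ncard_pos (Set.toFinite _)).2 hE
  have hGA : (edgesImg H ι).card ≤ (2 ^ k) ^ w * (edgesImg F (fun x : W => ι (φ₀ x))).card := by
    rw [hA]
    calc (edgesImg H ι).card ≤ n ^ 2 := card_ES_le _
      _ ≤ (2 ^ k) ^ w * 1 := by rw [mul_one]; exact hn
      _ ≤ _ := Nat.mul_le_mul_left _ hApos
  have h1 := level2 q hq0 k w hw hkw _ _ hG hGA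
  rw [hA] at h1
  have h2 := inj_mul_le_cnt F H _ ha ι ι.injective
  have hv : Fintype.card W ≤ n := by simpa using Fintype.card_le_of_injective _ ha
  set x : ℝ := Real.exp 3 * (Real.exp 2 * (8 * (2 * (k : ℝ) + 1) ^ 2) * w) * q with hx
  have hx0 : 0 ≤ x := by positivity
  have hfpos : (0 : ℝ) < ((n - Fintype.card W).factorial : ℝ) := by
    exact_mod_cast Nat.factorial_pos _
  have h3 : (inj F H : ℝ) * ((n - Fintype.card W).factorial : ℝ)
      ≤ ((n.descFactorial (Fintype.card W) : ℝ) * x ^ F.edgeSet.ncard)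
        * ((n - Fintype.card W).factorial : ℝ) := by
    calc (inj F H : ℝ) * ((n - Fintype.card W).factorial : ℝ)
        = ((inj F H * (n - Fintype.card W).factorial : ℕ) : ℝ) := by push_cast; ring
      _ ≤ (cnt (edgesImg F (fun x : W => ι (φ₀ x))) (edgesImg H ι) : ℝ) := by exact_mod_cast h2
      _ ≤ (n.factorial : ℝ) * x ^ F.edgeSet.ncard := h1
      _ = _ := by
          rw [← Nat.factorial_mul_descFactorial hv]; push_cast; ring
  have h4 := le_of_mul_le_mul_right h3 hfpos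
  refine h4.trans (mul_le_mul_of_nonneg_right ?_ (by positivity))
  rw [Nat.card_eq_fintype_card]
  exact_mod_cast Nat.descFactorial_le_pow n (Fintype.card W)

lemma pE_nonneg (n : ℕ) {V : Type*} (H : SimpleGraph V) : 0 ≤ pE n H :=
  Real.sInf_nonneg (fun _ hp => hp.1)

/-- **Main theorem.** -/
theorem pEtilde_le_log_loglog : ∃ C : ℝ, 0 < C ∧ ∀ n : ℕ, 2 ≤ n →
    ∀ (V : Type u) [Fintype V] (H : SimpleGraph V), Fintype.card V ≤ n →
      pEtilde n H ≤ C * Real.log n * Real.log (Real.log n + 3) * pE n H := by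
  classical
  obtain ⟨C₀, hC₀, hpar⟩ := exists_params
  refine ⟨2 * (7.5 * (Real.exp 3 * (Real.exp 2 * 8))) * C₀, by positivity, ?_⟩
  intro n hn V _ H hcard
  obtain ⟨k, w, hw, hkw, hnk, hC⟩ := hpar n hn
  set lam : ℝ := Real.exp 3 * (Real.exp 2 * (8 * (2 * (k : ℝ) + 1) ^ 2) * w) with hlam
  have hlam0 : 0 ≤ lam := by positivity
  have h := pEtilde_le_of_forall H n hcard (7.5 * lam) (by positivity) (fun q hq hyp F => by
    have hF : Fintype.card F.verts ≤ n := (Fintype.card_subtype_le _).trans hcard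
    have := copyCount_le_expCopies_of_connected H n hcard (lam * q) (by positivity)
      (fun W _ F' _ hE hFH => inj_le_level2 H n hcard q hq hyp k w hw hkw hnk W F' hE hFH)
      F.verts F.coe hF
    have e : (7.5 : ℝ) * (lam * q) = 7.5 * lam * q := by ring
    rwa [e] at this)
  refine h.trans (mul_le_mul_of_nonneg_right ?_ (pE_nonneg n H))
  calc 2 * (7.5 * lam)
      = 2 * (7.5 * (Real.exp 3 * (Real.exp 2 * 8))) * ((2 * (k : ℝ) + 1) ^ 2 * w) := by
        rw [hlam]; ring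
    _ ≤ 2 * (7.5 * (Real.exp 3 * (Real.exp 2 * 8))) *
          (C₀ * Real.log n * Real.log (Real.log n + 3)) :=
        mul_le_mul_of_nonneg_left hC (by positivity)
    _ = _ := by ring

end Vale.Agent.Lib.P064
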