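import Vale.Agent.Lib.P064.PermMax
import Vale.Agent.Lib.P064.PermMain

/-!
# `ptilde_E ≤ 347 log n p_E`
-/

namespace Vale.Agent.Lib.P064

open SimpleGraph Finset Equiv

universe u

/-- the labelled count bound obtained from the maximum principle -/
theorem inj_le_log {V : Type u} [Fintype V] (H : SimpleGraph V) (n : ℕ)
    (hcard : Fintype.card V ≤ n) (q : ℝ) (hq : 0 ≤ q)
    (hyp : ∀ I : H.Subgraph, 1 ≤ expCopies n q I.coe)
    (k : ℕ) (hn : n ^ 2 < 2 ^ k)
    (W : Type u) [Finite W] (F : SimpleGraph W) (hE : F.edgeSet.Nonempty) (hFH : F ⊑ H) :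
    (inj F H : ℝ) ≤ (n : ℝ) ^ (Nat.card W) * (4 * (k : ℝ) * q) ^ F.edgeSet.ncard := by
  classical
  have : Fintype W := Fintype.ofFinite W
  obtain ⟨ι⟩ : Nonempty (V ↪ Fin n) :=
    Function.Embedding.nonempty_of_card_le (by simpa using hcard)
  obtain ⟨φ₀⟩ := hFH
  have hHne : H.edgeSet.Nonempty := by
    obtain ⟨e, he⟩ := hE
    exact ⟨Sym2.map φ₀ e, φ₀.toHom.map_mem_edgeSet he⟩
  have hq0 : 0 < q := q_pos_of_hyp H n hHne q hq hyp
  have ha : Function.Injective (fun x : W => ι (φ₀ x)) := ι.injective.comp φ₀.injective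
  have hG : Adm q (edgesImg H ι) := adm_of_hyp H ι ι.injective q hq hyp
  have hA : (edgesImg F (fun x : W => ι (φ₀ x))).card = F.edgeSet.ncard := card_edgesImg F _ ha
  have h1 := cnt_le_log q hq0 k (edgesImg H ι) hG ((card_ES_le _).trans_lt hn)
    (edgesImg F (fun x : W => ι (φ₀ x)))
  rw [hA] at h1
  have h2 := inj_mul_le_cnt F H _ ha ι ι.injective
  have hv : Fintype.card W ≤ n := by simpa using Fintype.card_le_of_injective _ ha
  set x : ℝ := 4 * (k : ℝ) * q with hx
  have hx0 : 0 ≤ x := by positivity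
  have hfpos : (0 : ℝ) < ((n - Fintype.card W).factorial : ℝ) := by
    exact_mod_cast Nat.factorial_pos _
  have h3 : (inj F H : ℝ) * ((n - Fintype.card W).factorial : ℝ)
      ≤ ((n.descFactorial (Fintype.card W) : ℝ) * x ^ F.edgeSet.ncard)
        * ((n - Fintype.card W).factorial : ℝ) := by
    calc (inj F H : ℝ) * ((n - Fintype.card W).factorial : ℝ)
        = ((inj F H * (n - Fintype.card W).factorial : ℕ) : ℝ) := by push_cast; ring
      _ ≤ (cnt (edgesImg F (fun x : W => ι (φ₀ x))) (edgesImg H ι) : ℝ) := by exact_mod_cast h2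
      _ ≤ (n.factorial : ℝ) * x ^ F.edgeSet.ncard := h1
      _ = _ := by
          rw [← Nat.factorial_mul_descFactorial hv]; push_cast; ring
  have h4 := le_of_mul_le_mul_right h3 hfpos
  refine h4.trans (mul_le_mul_of_nonneg_right ?_ (by positivity))
  rw [Nat.card_eq_fintype_card]
  exact_mod_cast Nat.descFactorial_le_pow n (Fintype.card W)

/-- the deterministic inequality with `L = 30 k`, `n² < 2^k` -/
theorem copyCount_le_expCopies_log {V : Type u} [Fintype V] (H : SimpleGraph V) (n : ℕ)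
    (hcard : Fintype.card V ≤ n) (q : ℝ) (hq : 0 ≤ q)
    (hyp : ∀ I : H.Subgraph, 1 ≤ expCopies n q I.coe)
    (k : ℕ) (hn : n ^ 2 < 2 ^ k)
    (W : Type u) [Fintype W] (F : SimpleGraph W) (hW : Fintype.card W ≤ n) :
    (H.copyCount F : ℝ) ≤ expCopies n (min 1 (30 * (k : ℝ) * q)) F := by
  have := copyCount_le_expCopies_of_connected H n hcard (4 * (k : ℝ) * q) (by positivity)
    (fun W _ F' _ hE hFH => inj_le_log H n hcard q hq hyp k hn W F' hE hFH) W F hW
  have e : (7.5 : ℝ) * (4 * (k : ℝ) * q) = 30 * (k : ℝ) * q := by ring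
  rwa [e] at this

lemma exists_k_log (n : ℕ) (hn : 2 ≤ n) :
    ∃ k : ℕ, n ^ 2 < 2 ^ k ∧ (k : ℝ) * Real.log 2 ≤ 4 * Real.log n := by
  refine ⟨2 * (Nat.log 2 n + 1), ?_, ?_⟩
  · have h1 : n < 2 ^ (Nat.log 2 n + 1) := Nat.lt_pow_succ_log_self (by norm_num) n
    calc n ^ 2 < (2 ^ (Nat.log 2 n + 1)) ^ 2 := Nat.pow_lt_pow_left h1 (by norm_num)
      _ = 2 ^ (2 * (Nat.log 2 n + 1)) := by rw [← pow_mul]; ring_nf
  · have h1 : 2 ^ Nat.log 2 n ≤ n := Nat.pow_log_le_self 2 (by omega)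
    have h2 : ((Nat.log 2 n : ℕ) : ℝ) * Real.log 2 ≤ Real.log n := by
      rw [← Real.log_pow]
      apply Real.log_le_log (by positivity)
      exact_mod_cast h1
    have h3 : Real.log 2 ≤ Real.log n := by
      apply Real.log_le_log (by norm_num)
      exact_mod_cast hn
    push_cast
    nlinarith

/-- **Main theorem**: `ptilde_E(n,H) ≤ 347 log n p_E(n,H)`. -/
theorem pEtilde_le_log (n : ℕ) (hn : 2 ≤ n) (V : Type u) [Fintype V] (H : SimpleGraph V)
    (hcard : Fintype.card V ≤ n) :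
    pEtilde n H ≤ 347 * Real.log n * pE n H := by
  classical
  obtain ⟨k, hk, hkl⟩ := exists_k_log n hn
  have h := pEtilde_le_of_forall H n hcard (30 * (k : ℝ)) (by positivity) (fun q hq hyp F => by
    have hF : Fintype.card F.verts ≤ n := (Fintype.card_subtype_le _).trans hcard
    exact copyCount_le_expCopies_log H n hcard q hq hyp k hk F.verts F.coe hF)
  refine h.trans (mul_le_mul_of_nonneg_right ?_ (pE_nonneg n H))
  have hl2 := Real.log_two_gt_d9
  have hln : 0 ≤ Real.log n := Real.log_natCast_nonneg n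
  have hk0 : (0 : ℝ) ≤ (k : ℝ) := Nat.cast_nonneg _
  nlinarith

end Vale.Agent.Lib.P064
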