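import Vale.Agent.Lib.P064.SpreadMain
import Vale.Agent.Lib.P064.GnpLink
import Vale.Agent.Lib.P064.PermMaxMain
import Vale.Agent.Lib.P064.ThresholdPc

/-!
# `p_c(n,H) ≤ C (log n)^2 p_E(n,H)`
-/

namespace Vale.Agent.Lib.P064

open SimpleGraph Finset Equiv

universe u

lemma gnpProb_nonneg (n : ℕ) {p : ℝ} (hp0 : 0 ≤ p) (hp1 : p ≤ 1) (G : SimpleGraph (Fin n)) :
    0 ≤ gnpProb n p G := by
  unfold gnpProb
  have : 0 ≤ 1 - p := by linarith
  positivity

lemma copyCount_top_pos {V : Type u} [Fintype V] (H : SimpleGraph V) (n : ℕ)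
    (hcard : Fintype.card V ≤ n) : 0 < (⊤ : SimpleGraph (Fin n)).copyCount H := by
  rw [copyCount_pos]
  obtain ⟨e⟩ : Nonempty (V ↪ Fin n) :=
    Function.Embedding.nonempty_of_card_le (by simpa using hcard)
  exact ⟨⟨⟨fun v => e v, fun {a b} h => by
    rw [top_adj]
    exact fun hab => h.ne (e.injective hab)⟩, e.injective⟩⟩

lemma probContains_one {V : Type u} [Fintype V] (H : SimpleGraph V) (n : ℕ)
    (hcard : Fintype.card V ≤ n) : 1 / 2 ≤ probContains n 1 H := by
  unfold probContains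
  have h1 : gnpProb n 1 (⊤ : SimpleGraph (Fin n))
      * (if 0 < (⊤ : SimpleGraph (Fin n)).copyCount H then (1 : ℝ) else 0)
      ≤ ∑ G : SimpleGraph (Fin n), gnpProb n 1 G * (if 0 < G.copyCount H then (1 : ℝ) else 0) := by
    refine Finset.single_le_sum (f := fun G : SimpleGraph (Fin n) =>
      gnpProb n 1 G * (if 0 < G.copyCount H then (1 : ℝ) else 0)) (fun G _ => ?_)
      (Finset.mem_univ _)
    refine mul_nonneg (gnpProb_nonneg n (by norm_num) le_rfl G) ?_
    split_ifs <;> norm_num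
  refine le_trans ?_ h1
  rw [if_pos (copyCount_top_pos H n hcard)]
  unfold gnpProb
  rw [← card_ef, card_ef_top]
  norm_num

/-- the probabilistic statement: under the expectation hypothesis at `q`, the random graph of
density `64 k² q` contains `H` with probability at least `1/2` (`n² < 2^k`) -/
theorem probContains_ge {V : Type u} [Fintype V] (H : SimpleGraph V) (n : ℕ)
    (hcard : Fintype.card V ≤ n) (hne : H.edgeSet.Nonempty) (q : ℝ) (hq : 0 ≤ q)
    (hyp : ∀ I : H.Subgraph, 1 ≤ expCopies n q I.coe)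
    (k : ℕ) (hn : n ^ 2 < 2 ^ k) :
    1 / 2 ≤ probContains n (min 1 (64 * (k : ℝ) ^ 2 * q)) H := by
  classical
  obtain ⟨ι⟩ : Nonempty (V ↪ Fin n) :=
    Function.Embedding.nonempty_of_card_le (by simpa using hcard)
  have hq0 : 0 < q := q_pos_of_hyp H n hne q hq hyp
  have hG : Adm q (edgesImg H ι) := adm_of_hyp H ι ι.injective q hq hyp
  have hGc : (edgesImg H ι).card < 2 ^ k := (card_ES_le _).trans_lt hn
  have hk : 1 ≤ k := by
    rcases Nat.eq_zero_or_pos k with h0 | h0
    · exfalso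
      rw [h0, pow_zero, Nat.lt_one_iff, card_edgesImg H ι ι.injective] at hGc
      have := (Set.ncard_pos (Set.toFinite _)).2 hne
      omega
    · exact h0
  have hk1 : (1 : ℝ) ≤ (k : ℝ) := by exact_mod_cast hk
  set κ : ℝ := 4 * (k : ℝ) * q with hκ
  have hκ0 : 0 < κ := by positivity
  have e1 : 64 * (k : ℝ) ^ 2 * q = 16 * κ * k := by rw [hκ]; ring
  rw [e1]
  by_cases hκ1 : 16 * κ ≤ 1
  · set X : Finset (Sym2 (Fin n)) := ef (⊤ : SimpleGraph (Fin n)) with hX
    set A : Perm (Fin n) → Finset (Sym2 (Fin n)) := fun σ => act σ (edgesImg H ι) with hA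
    have hspread : ∀ T : Finset (Sym2 (Fin n)),
        (((univ : Finset (Perm (Fin n))).filter fun S => T ⊆ A S).card : ℝ)
          ≤ κ ^ T.card * ((univ : Finset (Perm (Fin n))).card : ℝ) := by
      intro T
      have h1 := cnt_le_log q hq0 k (edgesImg H ι) hG hGc T
      have h2 : ((univ : Finset (Perm (Fin n))).filter fun S => T ⊆ A S).card
          = cnt T (edgesImg H ι) := card_filter_subset_act T (edgesImg H ι)
      rw [h2, Finset.card_univ, Fintype.card_perm, Fintype.card_fin, mul_comm]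
      exact h1
    have h3 := spread_lemma X (univ : Finset (Perm (Fin n))) ⟨1, Finset.mem_univ _⟩ A κ hκ0 hκ1
      hspread k (fun σ _ => act_edgesImg_subset_top H ι ι.injective σ)
      (fun σ _ => by
        show (act σ (edgesImg H ι)).card < 2 ^ k
        rw [card_act]; exact hGc)
    have hb0 : 0 ≤ 1 - 16 * κ := by linarith
    have hb1 : 1 - 16 * κ ≤ 1 := by linarith
    have hp0 : 0 ≤ 1 - (1 - 16 * κ) ^ k := by
      have := pow_le_one₀ hb0 hb1 (n := k)
      linarith
    have hpp : 1 - (1 - 16 * κ) ^ k ≤ min 1 (16 * κ * k) := by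
      refine le_min ?_ ?_
      · have : 0 ≤ (1 - 16 * κ) ^ k := pow_nonneg hb0 k
        linarith
      · have := one_add_mul_le_pow (a := -(16 * κ)) (by linarith) k
        have e2 : (1 : ℝ) + -(16 * κ) = 1 - 16 * κ := by ring
        rw [e2] at this
        linarith
    have h4 := ex_mono X hp0 hpp (min_le_left _ _) (hit (univ : Finset (Perm (Fin n))) A)
      (fun W W' h => hit_mono _ _ h)
    rw [← sum_gnpProb_eq (min 1 (16 * κ * k))] at h4
    refine h3.trans (h4.trans ?_)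
    unfold probContains
    refine Finset.sum_le_sum fun G _ => ?_
    refine mul_le_mul_of_nonneg_left ?_
      (gnpProb_nonneg n (le_min (by norm_num) (by positivity)) (min_le_left _ _) G)
    unfold hit
    by_cases h5 : ∃ S ∈ (univ : Finset (Perm (Fin n))), A S ⊆ ef G
    · obtain ⟨σ, _, hσ⟩ := h5
      rw [if_pos (copyCount_pos_of_act_subset H ι ι.injective σ G hσ)]
      split_ifs <;> norm_num
    · rw [if_neg h5]
      split_ifs <;> norm_num
  · have h6 : min 1 (16 * κ * k) = 1 := by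
      apply min_eq_left
      have : 1 < 16 * κ := not_le.1 hκ1
      nlinarith
    rw [h6]
    exact probContains_one H n hcard

/-- **Main theorem**: `p_c(n,H) ≤ 4300 (log n)^2 p_E(n,H)`. -/
theorem pc_le_log_sq (n : ℕ) (hn : 2 ≤ n) (V : Type u) [Fintype V] (H : SimpleGraph V)
    (hcard : Fintype.card V ≤ n) (hne : H.edgeSet.Nonempty) :
    pc n H ≤ 4300 * Real.log n ^ 2 * pE n H := by
  classical
  obtain ⟨k, hk, hkl⟩ := exists_k_log n hn
  have hne1 := pE_set_nonempty H n hcard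
  have hl2 := Real.log_two_gt_d9
  have hln : 0 < Real.log n := Real.log_pos (by exact_mod_cast hn)
  have hk0 : (0 : ℝ) ≤ (k : ℝ) := Nat.cast_nonneg _
  have hkk : 128 * (k : ℝ) ^ 2 ≤ 4300 * Real.log n ^ 2 := by
    have h1 : (k : ℝ) * 0.6931471803 ≤ 4 * Real.log n := by nlinarith
    have h2 : ((k : ℝ) * 0.6931471803) ^ 2 ≤ (4 * Real.log n) ^ 2 :=
      pow_le_pow_left₀ (by positivity) h1 2
    nlinarith
  have key : ∀ p ∈ {p : ℝ | 0 ≤ p ∧ p ≤ 1 ∧ ∀ F : H.Subgraph, 1 / 2 ≤ expCopies n p F.coe},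
      pc n H ≤ 4300 * Real.log n ^ 2 * p := by
    rintro p ⟨hp0, _, hp⟩
    have h1 := probContains_ge H n hcard hne (2 * p) (by positivity) (hyp_double n p hp0 hp) k hk
    have hmem : min 1 (64 * (k : ℝ) ^ 2 * (2 * p)) ∈
        {p : ℝ | 0 ≤ p ∧ p ≤ 1 ∧ 1 / 2 ≤ probContains n p H} :=
      ⟨le_min (by norm_num) (by positivity), min_le_left _ _, h1⟩
    have hbdd : BddBelow {p : ℝ | 0 ≤ p ∧ p ≤ 1 ∧ 1 / 2 ≤ probContains n p H} :=
      ⟨0, fun p hp => hp.1⟩
    calc pc n H ≤ min 1 (64 * (k : ℝ) ^ 2 * (2 * p)) := csInf_le hbdd hmem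
      _ ≤ 64 * (k : ℝ) ^ 2 * (2 * p) := min_le_right _ _
      _ = 128 * (k : ℝ) ^ 2 * p := by ring
      _ ≤ _ := mul_le_mul_of_nonneg_right hkk hp0
  have hC : 0 < 4300 * Real.log n ^ 2 := by positivity
  unfold pE
  rw [← div_le_iff₀' hC]
  apply le_csInf ⟨1, hne1⟩
  intro p hp
  rw [div_le_iff₀' hC]
  exact key p hp

end Vale.Agent.Lib.P064
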