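import Vale.Agent.Lib.P064.PcMain

/-!
# Refined bounds for `p_c`: `log (2 e(H))` instead of `log n`, and bounded degree
-/

namespace Vale.Agent.Lib.P064

open SimpleGraph Finset Equiv

universe u

/-- from the counting inequality `N(H,F) ≤ E N(G(n,κ),F)` to spreadness of the copies of `H` -/
theorem cnt_le_of_copyCount {n : ℕ} {V : Type u} [Fintype V] (H : SimpleGraph V) (ι : V → Fin n)
    (hι : Function.Injective ι) (κ : ℝ) (hκ : 0 ≤ κ)
    (hyp : ∀ F : H.Subgraph, (H.copyCount F.coe : ℝ) ≤ expCopies n κ F.coe) (T : ES n) :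
    (cnt T (edgesImg H ι) : ℝ) ≤ (n.factorial : ℝ) * κ ^ T.card := by
  classical
  rcases Nat.eq_zero_or_pos (cnt T (edgesImg H ι)) with h0 | hpos
  · rw [h0]; simp only [Nat.cast_zero]; positivity
  · -- move `T` inside the host
    have : ∃ σ : Perm (Fin n), act σ T ⊆ edgesImg H ι := by
      unfold cnt at hpos
      obtain ⟨σ, hσ⟩ := Finset.card_pos.1 hpos
      exact ⟨σ, (Finset.mem_filter.1 hσ).2⟩
    obtain ⟨σ, hσ⟩ := this
    set A := act σ T with hA
    have hcA : A.card = T.card := card_act σ T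
    rw [← cnt_act_left σ T, ← hcA]
    set I := spanSub H ι A with hI
    set F := I.coe with hF
    have ha : Function.Injective (fun x : I.verts => ι x.1) := hι.comp Subtype.val_injective
    have hAe : edgesImg F (fun x : I.verts => ι x.1) = A := edgesImg_spanSub H ι A hσ
    have hcardA : A.card = F.edgeSet.ncard := by
      rw [← hAe, card_edgesImg F _ ha]
    have hv : Fintype.card I.verts ≤ n := by
      simpa using Fintype.card_le_of_injective _ ha
    have h1 : cnt A (edgesImg H ι) ≤ inj F H * (n - Fintype.card I.verts).factorial := by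
      have := cnt_le_inj_mul F H _ ha ι hι (spanSub_no_isolated H ι A)
      rwa [hAe] at this
    have h2 := copyCount_mul_descFactorial F H n
    have h4 := hyp I
    rw [expCopies_eq] at h4
    have htop : 0 < (⊤ : SimpleGraph (Fin n)).copyCount F := copyCount_top_pos F n hv
    have htop' : (0 : ℝ) < ((⊤ : SimpleGraph (Fin n)).copyCount F : ℝ) := by exact_mod_cast htop
    have h5 : (inj F H : ℝ) ≤ (n.descFactorial (Fintype.card I.verts) : ℝ) * κ ^ A.card := by
      have h6 : (inj F H : ℝ) * ((⊤ : SimpleGraph (Fin n)).copyCount F : ℝ)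
          ≤ ((n.descFactorial (Fintype.card I.verts) : ℝ) * κ ^ A.card)
            * ((⊤ : SimpleGraph (Fin n)).copyCount F : ℝ) := by
        calc (inj F H : ℝ) * ((⊤ : SimpleGraph (Fin n)).copyCount F : ℝ)
            = ((H.copyCount F * n.descFactorial (Fintype.card I.verts) : ℕ) : ℝ) := by
              rw [h2]; push_cast; ring
          _ = (H.copyCount F : ℝ) * (n.descFactorial (Fintype.card I.verts) : ℝ) := by push_cast; ring
          _ ≤ (((⊤ : SimpleGraph (Fin n)).copyCount F : ℝ) * κ ^ F.edgeSet.ncard)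
                * (n.descFactorial (Fintype.card I.verts) : ℝ) :=
              mul_le_mul_of_nonneg_right h4 (Nat.cast_nonneg _)
          _ = _ := by rw [hcardA]; ring
      exact le_of_mul_le_mul_right h6 htop'
    calc (cnt A (edgesImg H ι) : ℝ)
        ≤ ((inj F H * (n - Fintype.card I.verts).factorial : ℕ) : ℝ) := by exact_mod_cast h1
      _ = (inj F H : ℝ) * ((n - Fintype.card I.verts).factorial : ℝ) := by push_cast; ring
      _ ≤ (n.descFactorial (Fintype.card I.verts) : ℝ) * κ ^ A.card *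
            ((n - Fintype.card I.verts).factorial : ℝ) :=
          mul_le_mul_of_nonneg_right h5 (Nat.cast_nonneg _)
      _ = (((n - Fintype.card I.verts).factorial * n.descFactorial (Fintype.card I.verts) : ℕ) : ℝ)
            * κ ^ A.card := by push_cast; ring
      _ = _ := by rw [Nat.factorial_mul_descFactorial hv]

/-- the spread lemma for copies of `H` -/
theorem probContains_ge_of_cnt {V : Type u} [Fintype V] (H : SimpleGraph V) (n : ℕ)
    (hcard : Fintype.card V ≤ n) (ι : V ↪ Fin n) (κ : ℝ) (hκ0 : 0 < κ)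
    (hs : ∀ T : ES n, (cnt T (edgesImg H ι) : ℝ) ≤ (n.factorial : ℝ) * κ ^ T.card)
    (k : ℕ) (hk : 1 ≤ k) (hGc : (edgesImg H ι).card < 2 ^ k) :
    1 / 2 ≤ probContains n (min 1 (16 * κ * k)) H := by
  classical
  have hk1 : (1 : ℝ) ≤ (k : ℝ) := by exact_mod_cast hk
  by_cases hκ1 : 16 * κ ≤ 1
  · set X : Finset (Sym2 (Fin n)) := ef (⊤ : SimpleGraph (Fin n)) with hX
    set A : Perm (Fin n) → Finset (Sym2 (Fin n)) := fun σ => act σ (edgesImg H ι) with hA
    have hspread : ∀ T : Finset (Sym2 (Fin n)),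
        (((univ : Finset (Perm (Fin n))).filter fun S => T ⊆ A S).card : ℝ)
          ≤ κ ^ T.card * ((univ : Finset (Perm (Fin n))).card : ℝ) := by
      intro T
      have h1 := hs T
      have h2 : ((univ : Finset (Perm (Fin n))).filter fun S => T ⊆ A S).card
          = cnt T (edgesImg H ι) := card_filter_subset_act T (edgesImg H ι)
      rw [h2, Finset.card_univ, Fintype.card_perm, Fintype.card_fin, mul_comm]
      exact h1
    have h3 := spread_lemma X (univ : Finset (Perm (Fin n))) ⟨1, Finset.mem_univ _⟩ A κ hκ0 hκ1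
      hspread k (fun σ _ => act_edgesImg_subset_top H ι ι.injective σ)
      (fun σ _ => by
        show (act σ (edgesImg H ι)).card < 2 ^ k
        rw [card_act]; exact hGc)
    have hb0 : 0 ≤ 1 - 16 * κ := by linarith
    have hb1 : 1 - 16 * κ ≤ 1 := by linarith
    have hp0 : 0 ≤ 1 - (1 - 16 * κ) ^ k := by
      have := pow_le_one₀ hb0 hb1 (n := k)
      linarith
    have hpp : 1 - (1 - 16 * κ) ^ k ≤ min 1 (16 * κ * k) := by
      refine le_min ?_ ?_
      · have : 0 ≤ (1 - 16 * κ) ^ k := pow_nonneg hb0 k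
        linarith
      · have := one_add_mul_le_pow (a := -(16 * κ)) (by linarith) k
        have e2 : (1 : ℝ) + -(16 * κ) = 1 - 16 * κ := by ring
        rw [e2] at this
        linarith
    have h4 := ex_mono X hp0 hpp (min_le_left _ _) (hit (univ : Finset (Perm (Fin n))) A)
      (fun W W' h => hit_mono _ _ h)
    rw [← sum_gnpProb_eq (min 1 (16 * κ * k))] at h4
    refine h3.trans (h4.trans ?_)
    unfold probContains
    refine Finset.sum_le_sum fun G _ => ?_
    refine mul_le_mul_of_nonneg_left ?_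
      (gnpProb_nonneg n (le_min (by norm_num) (by positivity)) (min_le_left _ _) G)
    unfold hit
    by_cases h5 : ∃ S ∈ (univ : Finset (Perm (Fin n))), A S ⊆ ef G
    · obtain ⟨σ, _, hσ⟩ := h5
      rw [if_pos (copyCount_pos_of_act_subset H ι ι.injective σ G hσ)]
      split_ifs <;> norm_num
    · rw [if_neg h5]
      split_ifs <;> norm_num
  · have h6 : min 1 (16 * κ * k) = 1 := by
      apply min_eq_left
      have : 1 < 16 * κ := not_le.1 hκ1
      nlinarith
    rw [h6]
    exact probContains_one H n hcard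

/-- the number `k = ⌊log₂ e(H)⌋ + 1` of rounds -/
lemma exists_k_edges (m : ℕ) (hm : 1 ≤ m) :
    ∃ k : ℕ, 1 ≤ k ∧ m < 2 ^ k ∧ (k : ℝ) * Real.log 2 ≤ Real.log (2 * m) := by
  refine ⟨Nat.log 2 m + 1, by omega, Nat.lt_pow_succ_log_self (by norm_num) m, ?_⟩
  have h1 : 2 ^ Nat.log 2 m ≤ m := Nat.pow_log_le_self 2 (by omega)
  have hm0 : (0 : ℝ) < (m : ℝ) := by exact_mod_cast hm
  have h2 : ((Nat.log 2 m : ℕ) : ℝ) * Real.log 2 ≤ Real.log m := by
    rw [← Real.log_pow]
    apply Real.log_le_log (by positivity)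
    exact_mod_cast h1
  rw [Real.log_mul (by norm_num) hm0.ne']
  push_cast
  linarith

/-- transfer to the thresholds -/
theorem pc_le_of_forall {V : Type u} [Fintype V] (H : SimpleGraph V) (n : ℕ)
    (hcard : Fintype.card V ≤ n) (L : ℝ) (hL : 0 < L)
    (hmain : ∀ q : ℝ, 0 ≤ q → (∀ I : H.Subgraph, 1 ≤ expCopies n q I.coe) →
      1 / 2 ≤ probContains n (min 1 (L * q)) H) :
    pc n H ≤ 2 * L * pE n H := by
  have hne1 := pE_set_nonempty H n hcard
  have key : ∀ p ∈ {p : ℝ | 0 ≤ p ∧ p ≤ 1 ∧ ∀ F : H.Subgraph, 1 / 2 ≤ expCopies n p F.coe},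
      pc n H ≤ 2 * L * p := by
    rintro p ⟨hp0, _, hp⟩
    have h1 := hmain (2 * p) (by positivity) (hyp_double n p hp0 hp)
    have hmem : min 1 (L * (2 * p)) ∈
        {p : ℝ | 0 ≤ p ∧ p ≤ 1 ∧ 1 / 2 ≤ probContains n p H} :=
      ⟨le_min (by norm_num) (by positivity), min_le_left _ _, h1⟩
    have hbdd : BddBelow {p : ℝ | 0 ≤ p ∧ p ≤ 1 ∧ 1 / 2 ≤ probContains n p H} :=
      ⟨0, fun p hp => hp.1⟩
    calc pc n H ≤ min 1 (L * (2 * p)) := csInf_le hbdd hmem
      _ ≤ L * (2 * p) := min_le_right _ _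
      _ = 2 * L * p := by ring
  have hC : 0 < 2 * L := by positivity
  unfold pE
  rw [← div_le_iff₀' hC]
  apply le_csInf ⟨1, hne1⟩
  intro p hp
  rw [div_le_iff₀' hC]
  exact key p hp

/-- `p_c(n,H) ≤ 267 (log (2 e(H)))^2 p_E(n,H)` -/
theorem pc_le_log_edges_sq (n : ℕ) (V : Type u) [Fintype V] (H : SimpleGraph V)
    (hcard : Fintype.card V ≤ n) (hne : H.edgeSet.Nonempty) :
    pc n H ≤ 267 * Real.log (2 * H.edgeSet.ncard) ^ 2 * pE n H := by
  classical
  have hm : 1 ≤ H.edgeSet.ncard := (Set.ncard_pos (Set.toFinite _)).2 hne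
  obtain ⟨k, hk1, hk, hkl⟩ := exists_k_edges H.edgeSet.ncard hm
  obtain ⟨ι⟩ : Nonempty (V ↪ Fin n) :=
    Function.Embedding.nonempty_of_card_le (by simpa using hcard)
  have hk1' : (1 : ℝ) ≤ (k : ℝ) := by exact_mod_cast hk1
  have hGc : (edgesImg H ι).card < 2 ^ k := by rw [card_edgesImg H ι ι.injective]; exact hk
  have h := pc_le_of_forall H n hcard (64 * (k : ℝ) ^ 2) (by positivity) (fun q hq hyp => by
    have hq0 : 0 < q := q_pos_of_hyp H n hne q hq hyp
    have hG : Adm q (edgesImg H ι) := adm_of_hyp H ι ι.injective q hq hyp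
    have := probContains_ge_of_cnt H n hcard ι (4 * (k : ℝ) * q) (by positivity)
      (fun T => cnt_le_log q hq0 k (edgesImg H ι) hG hGc T) k hk1 hGc
    have e1 : 16 * (4 * (k : ℝ) * q) * k = 64 * (k : ℝ) ^ 2 * q := by ring
    rwa [e1] at this)
  refine h.trans (mul_le_mul_of_nonneg_right ?_ (pE_nonneg n H))
  have hl2 := Real.log_two_gt_d9
  have hk0 : (0 : ℝ) ≤ (k : ℝ) := Nat.cast_nonneg _
  have h1 : (k : ℝ) * 0.6931471803 ≤ Real.log (2 * H.edgeSet.ncard) := by nlinarith
  have h2 : ((k : ℝ) * 0.6931471803) ^ 2 ≤ Real.log (2 * H.edgeSet.ncard) ^ 2 :=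
    pow_le_pow_left₀ (by positivity) h1 2
  nlinarith

open Classical in
/-- `p_c(n,H) ≤ 4200 Δ log (2 e(H)) p_E(n,H)` for graphs of maximum degree at most `Δ` -/
theorem pc_le_degree (n : ℕ) (V : Type u) [Fintype V] (H : SimpleGraph V)
    (hcard : Fintype.card V ≤ n) (hne : H.edgeSet.Nonempty)
    (Δ : ℕ) (hΔ : ∀ y, H.degree y ≤ Δ) :
    pc n H ≤ 4200 * Δ * Real.log (2 * H.edgeSet.ncard) * pE n H := by
  have hm : 1 ≤ H.edgeSet.ncard := (Set.ncard_pos (Set.toFinite _)).2 hne
  obtain ⟨k, hk1, hk, hkl⟩ := exists_k_edges H.edgeSet.ncard hm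
  obtain ⟨ι⟩ : Nonempty (V ↪ Fin n) :=
    Function.Embedding.nonempty_of_card_le (by simpa using hcard)
  have hk1' : (1 : ℝ) ≤ (k : ℝ) := by exact_mod_cast hk1
  have hGc : (edgesImg H ι).card < 2 ^ k := by rw [card_edgesImg H ι ι.injective]; exact hk
  have hΔ1 : 1 ≤ Δ := by
    obtain ⟨e, he⟩ := hne
    induction e using Sym2.ind with
    | _ a b =>
      rw [mem_edgeSet] at he
      have h1 : 0 < H.degree a := by
        rw [SimpleGraph.degree_pos_iff_exists_adj]
        exact ⟨b, he⟩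
      exact h1.trans_le (hΔ a)
  have hΔ1' : (1 : ℝ) ≤ (Δ : ℝ) := by exact_mod_cast hΔ1
  have h := pc_le_of_forall H n hcard (1440 * (Δ : ℝ) * k) (by positivity) (fun q hq hyp => by
    have hq0 : 0 < q := q_pos_of_hyp H n hne q hq hyp
    have hs := cnt_le_of_copyCount H ι ι.injective (min 1 (90 * Δ * q))
      (le_min (by norm_num) (by positivity)) (fun F => by
        have hF : Fintype.card F.verts ≤ n := (Fintype.card_subtype_le _).trans hcard
        exact degree_main H n hcard q hq hyp Δ hΔ hΔ1 F.verts F.coe hF)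
    have hs' : ∀ T : ES n, (cnt T (edgesImg H ι) : ℝ)
        ≤ (n.factorial : ℝ) * (90 * Δ * q) ^ T.card := by
      intro T
      refine (hs T).trans (mul_le_mul_of_nonneg_left ?_ (Nat.cast_nonneg _))
      exact pow_le_pow_left₀ (le_min (by norm_num) (by positivity)) (min_le_right _ _) _
    have := probContains_ge_of_cnt H n hcard ι (90 * Δ * q) (by positivity) hs' k hk1 hGc
    have e1 : 16 * (90 * (Δ : ℝ) * q) * k = 1440 * (Δ : ℝ) * k * q := by ring
    rwa [e1] at this)
  refine h.trans (mul_le_mul_of_nonneg_right ?_ (pE_nonneg n H))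
  have hl2 := Real.log_two_gt_d9
  have hk0 : (0 : ℝ) ≤ (k : ℝ) := Nat.cast_nonneg _
  have h1 : (k : ℝ) * 0.6931471803 ≤ Real.log (2 * H.edgeSet.ncard) := by nlinarith
  have h3 : 2 * (1440 * (Δ : ℝ) * k) = (Δ : ℝ) * (2880 * k) := by ring
  have h4 : 4200 * (Δ : ℝ) * Real.log (2 * H.edgeSet.ncard)
      = (Δ : ℝ) * (4200 * Real.log (2 * H.edgeSet.ncard)) := by ring
  rw [h3, h4]
  refine mul_le_mul_of_nonneg_left ?_ (by positivity)
  nlinarith

/-- `log (2 e(H)) ≤ 2 log n` -/
lemma log_two_edges_le (n : ℕ) (V : Type u) [Fintype V] (H : SimpleGraph V)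
    (hcard : Fintype.card V ≤ n) (hne : H.edgeSet.Nonempty) :
    Real.log (2 * H.edgeSet.ncard) ≤ 2 * Real.log n := by
  classical
  have hm : 1 ≤ H.edgeSet.ncard := (Set.ncard_pos (Set.toFinite _)).2 hne
  obtain ⟨ι⟩ : Nonempty (V ↪ Fin n) :=
    Function.Embedding.nonempty_of_card_le (by simpa using hcard)
  have h1 : (edgesImg H ι).card ≤ n.choose 2 := by
    have := Finset.card_le_card (act_edgesImg_subset_top H ι ι.injective 1)
    rwa [card_act, card_ef_top] at this
  rw [card_edgesImg H ι ι.injective] at h1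
  have h2 : 2 * H.edgeSet.ncard ≤ n ^ 2 := by
    have h3 : 2 * n.choose 2 ≤ n ^ 2 := by
      rw [Nat.choose_two_right]
      have := Nat.mul_div_le (n * (n - 1)) 2
      have h4 : n * (n - 1) ≤ n ^ 2 := by
        rw [pow_two]; exact Nat.mul_le_mul_left _ (Nat.sub_le _ _)
      omega
    omega
  have hm0 : (0 : ℝ) < 2 * (H.edgeSet.ncard : ℝ) := by
    have : (0 : ℝ) < (H.edgeSet.ncard : ℝ) := by exact_mod_cast hm
    positivity
  calc Real.log (2 * H.edgeSet.ncard) ≤ Real.log ((n : ℝ) ^ 2) := by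
        apply Real.log_le_log hm0
        exact_mod_cast h2
    _ = 2 * Real.log n := by rw [Real.log_pow]; norm_num

end Vale.Agent.Lib.P064
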