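import Mathlib

/-!
# Elementary binomial sums used in the P064 chain argument (pure Mathlib, no project imports)
-/

namespace Vale.Agent.Lib.P064

open Finset

lemma choose_mul_pow_le_add_pow (M b : ℕ) (y : ℝ) (hy : 0 ≤ y) :
    (M.choose b : ℝ) * y ^ b ≤ (1 + y) ^ M := by
  by_cases hb : b ≤ M
  · rw [add_comm 1 y, add_pow]
    have h := Finset.single_le_sum (f := fun m => y ^ m * 1 ^ (M - m) * (M.choose m : ℝ))
      (s := range (M + 1)) (fun i _ => by positivity) (mem_range.2 (Nat.lt_succ_of_le hb))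
    simpa [mul_comm] using h
  · rw [Nat.choose_eq_zero_of_lt (not_le.1 hb)]
    simp only [Nat.cast_zero, zero_mul]
    positivity

lemma one_add_pow_le_exp (M : ℕ) (y : ℝ) (hy : 0 ≤ y) :
    (1 + y) ^ M ≤ Real.exp (M * y) := by
  rw [Real.exp_nat_mul]
  exact pow_le_pow_left₀ (by positivity) (by linarith [Real.add_one_le_exp y]) M

lemma choose_mul_pow_le_exp (M b : ℕ) (y : ℝ) (hy : 0 ≤ y) :
    (M.choose b : ℝ) * y ^ b ≤ Real.exp (M * y) :=
  (choose_mul_pow_le_add_pow M b y hy).trans (one_add_pow_le_exp M y hy)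

lemma sum_powerset_pow {α : Type*} [DecidableEq α] (B : Finset α) (y : ℝ) :
    ∑ J ∈ B.powerset, y ^ J.card = (1 + y) ^ B.card := by
  rw [Finset.sum_powerset_apply_card (fun j => y ^ j), add_comm 1 y, add_pow]
  refine sum_congr rfl fun m _ => ?_
  simp [mul_comm]

/-- `∑_j C(b,j) C(u,j) y^j ≤ exp(2 t b)` if `u ≤ 2b` and `2y ≤ t²`
(use `C(N,j) ≤ N^j/j!`, `∑ a_j² ≤ (∑ a_j)²`, `Real.sum_le_exp_of_nonneg`,
`Finset.sum_powerset_apply_card`). -/
lemma level1_sum {α : Type*} [DecidableEq α] (B : Finset α) (u : ℕ) (hu : u ≤ 2 * B.card)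
    (t y : ℝ) (ht : 0 ≤ t) (hy : 0 ≤ y) (hyt : 2 * y ≤ t ^ 2) :
    ∑ J ∈ B.powerset, (u.choose J.card : ℝ) * y ^ J.card ≤ Real.exp (2 * t * B.card) := by
  rw [Finset.sum_powerset_apply_card (fun j => (u.choose j : ℝ) * y ^ j)]
  set b := B.card with hb
  have hx : (0 : ℝ) ≤ t * b := by positivity
  have hterm : ∀ j ∈ range (b + 1), b.choose j • ((u.choose j : ℝ) * y ^ j)
      ≤ ((t * b) ^ j / (j.factorial : ℝ)) ^ 2 := by
    intro j _
    have h1 : (b.choose j : ℝ) ≤ (b : ℝ) ^ j / (j.factorial : ℝ) := Nat.choose_le_pow_div j b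
    have h2 : (u.choose j : ℝ) ≤ (u : ℝ) ^ j / (j.factorial : ℝ) := Nat.choose_le_pow_div j u
    have hu' : (u : ℝ) ≤ 2 * b := by exact_mod_cast hu
    have hf : (0 : ℝ) < (j.factorial : ℝ) := by exact_mod_cast j.factorial_pos
    have h3 : (u : ℝ) ^ j / (j.factorial : ℝ) ≤ (2 * b : ℝ) ^ j / (j.factorial : ℝ) := by
      gcongr
    have h4 : ((2 * b : ℝ) * b * y) ^ j ≤ ((t * b) ^ 2) ^ j := by
      apply pow_le_pow_left₀ (by positivity)
      have : (0 : ℝ) ≤ (b : ℝ) * b := by positivity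
      nlinarith
    rw [nsmul_eq_mul]
    calc (b.choose j : ℝ) * ((u.choose j : ℝ) * y ^ j)
        ≤ ((b : ℝ) ^ j / (j.factorial : ℝ)) * (((2 * b : ℝ) ^ j / (j.factorial : ℝ)) * y ^ j) := by
          gcongr
          exact h2.trans h3
      _ = ((2 * b : ℝ) * b * y) ^ j / (j.factorial : ℝ) ^ 2 := by
          rw [mul_pow, mul_pow]; ring
      _ ≤ ((t * b) ^ 2) ^ j / (j.factorial : ℝ) ^ 2 := by gcongr
      _ = ((t * b) ^ j / (j.factorial : ℝ)) ^ 2 := by
          rw [div_pow, ← pow_mul, ← pow_mul, mul_comm 2 j]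
  calc ∑ j ∈ range (b + 1), b.choose j • ((u.choose j : ℝ) * y ^ j)
      ≤ ∑ j ∈ range (b + 1), ((t * b) ^ j / (j.factorial : ℝ)) ^ 2 := sum_le_sum hterm
    _ ≤ (∑ j ∈ range (b + 1), (t * b) ^ j / (j.factorial : ℝ)) ^ 2 :=
        sum_sq_le_sq_sum_of_nonneg fun j _ => by positivity
    _ ≤ (Real.exp (t * b)) ^ 2 := by
        apply pow_le_pow_left₀ (sum_nonneg fun j _ => by positivity)
        exact Real.sum_le_exp_of_nonneg hx _
    _ = Real.exp (2 * t * b) := by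
        rw [← Real.exp_nat_mul]; congr 1; push_cast; ring

lemma level2_aux (K c : ℝ) (hK : 0 < K) (j : ℕ) :
    c = K ^ (3 * j) * (c * (1 / K ^ 2) ^ j) * (1 / K) ^ j := by
  have h : K ^ (3 * j) * (1 / K ^ 2) ^ j * (1 / K) ^ j = 1 := by
    rw [pow_mul, ← mul_pow, ← mul_pow]
    have : K ^ 3 * (1 / K ^ 2) * (1 / K) = 1 := by field_simp
    rw [this, one_pow]
  calc c = c * (K ^ (3 * j) * (1 / K ^ 2) ^ j * (1 / K) ^ j) := by rw [h, mul_one]
    _ = _ := by ring

/-- With `K = 2^k`: for `|J| ≤ m`, `1 ≤ K^(3m) (1/K²)^|J| (1/K)^|J|`,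
`C(u,j) (1/K²)^j ≤ exp(u/K²) ≤ exp(b/K)`, `∑_J (1/K)^|J| = (1+1/K)^b ≤ exp(b/K)`,
`K^(3m) = 2^(3km) ≤ exp(3km) ≤ exp(3k b/K)`. -/
lemma level2_small_sum {α : Type*} [DecidableEq α] (B : Finset α) (u k m : ℕ)
    (hu : u ≤ 2 ^ k * B.card) (hm : 2 ^ k * m ≤ B.card) :
    ∑ J ∈ B.powerset.filter (fun J => J.card ≤ m), (u.choose J.card : ℝ)
      ≤ Real.exp ((3 * k + 2) / 2 ^ k * B.card) := by
  set b := B.card with hb
  set K : ℝ := 2 ^ k with hK
  have hK0 : 0 < K := by positivity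
  have hK1 : 1 ≤ K := one_le_pow₀ (by norm_num)
  have hu' : (u : ℝ) ≤ K * b := by rw [hK]; exact_mod_cast hu
  have hm' : K * m ≤ b := by rw [hK]; exact_mod_cast hm
  -- termwise bound
  have hterm : ∀ J ∈ B.powerset.filter (fun J => J.card ≤ m), (u.choose J.card : ℝ)
      ≤ K ^ (3 * m) * Real.exp (b / K) * (1 / K) ^ J.card := by
    intro J hJ
    have hJm : J.card ≤ m := (mem_filter.1 hJ).2
    set j := J.card
    have h1 : (u.choose j : ℝ) * (1 / K ^ 2) ^ j ≤ Real.exp (u * (1 / K ^ 2)) :=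
      choose_mul_pow_le_exp u j _ (by positivity)
    have h2 : Real.exp (u * (1 / K ^ 2)) ≤ Real.exp (b / K) := by
      apply Real.exp_le_exp.2
      rw [mul_one_div, div_le_div_iff₀ (by positivity) hK0]
      nlinarith
    have h3 : K ^ (3 * j) ≤ K ^ (3 * m) := pow_le_pow_right₀ hK1 (by omega)
    have h4 : (u.choose j : ℝ) = K ^ (3 * j) * ((u.choose j : ℝ) * (1 / K ^ 2) ^ j) * (1 / K) ^ j := by
      exact level2_aux K _ hK0 j
    rw [h4]
    gcongr
    exact h1.trans h2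
  have hsum : ∑ J ∈ B.powerset.filter (fun J => J.card ≤ m), (1 / K) ^ J.card
      ≤ Real.exp (b / K) := by
    calc ∑ J ∈ B.powerset.filter (fun J => J.card ≤ m), (1 / K) ^ J.card
        ≤ ∑ J ∈ B.powerset, (1 / K) ^ J.card :=
          sum_le_sum_of_subset_of_nonneg (filter_subset _ _) fun J _ _ => by positivity
      _ = (1 + 1 / K) ^ b := sum_powerset_pow B _
      _ ≤ Real.exp (b * (1 / K)) := one_add_pow_le_exp b _ (by positivity)
      _ = Real.exp (b / K) := by rw [mul_one_div]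
  have hKm : K ^ (3 * m) ≤ Real.exp (3 * k * (b / K)) := by
    have h2e : (2 : ℝ) ≤ Real.exp 1 := by
      have := Real.add_one_le_exp 1; linarith
    calc K ^ (3 * m) = 2 ^ (k * (3 * m)) := by rw [hK, ← pow_mul]
      _ ≤ (Real.exp 1) ^ (k * (3 * m)) := pow_le_pow_left₀ (by norm_num) h2e _
      _ = Real.exp (((k * (3 * m) : ℕ) : ℝ) * 1) := by rw [Real.exp_nat_mul]
      _ ≤ Real.exp (3 * k * (b / K)) := by
          apply Real.exp_le_exp.2
          have : (m : ℝ) ≤ b / K := by rw [le_div_iff₀ hK0]; linarith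
          push_cast
          have hk : (0 : ℝ) ≤ 3 * k := by positivity
          nlinarith
  calc ∑ J ∈ B.powerset.filter (fun J => J.card ≤ m), (u.choose J.card : ℝ)
      ≤ ∑ J ∈ B.powerset.filter (fun J => J.card ≤ m),
          K ^ (3 * m) * Real.exp (b / K) * (1 / K) ^ J.card := sum_le_sum hterm
    _ = K ^ (3 * m) * Real.exp (b / K) *
          ∑ J ∈ B.powerset.filter (fun J => J.card ≤ m), (1 / K) ^ J.card := by rw [mul_sum]
    _ ≤ Real.exp (3 * k * (b / K)) * Real.exp (b / K) * Real.exp (b / K) := by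
        gcongr
    _ = Real.exp ((3 * k + 2) / K * b) := by
        rw [← Real.exp_add, ← Real.exp_add]; congr 1; field_simp; ring

end Vale.Agent.Lib.P064
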