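import Vale.Agent.Lib.P064.PermCore
import Vale.Agent.Lib.P064.PermSums

/-!
# The chain argument
-/

namespace Vale.Agent.Lib.P064

open Finset Equiv

variable {n : ℕ}

/-- `G` is `q`-admissible if every sub-edge-set `A` has at most `n! q^|A|` automorphisms. -/
def Adm (q : ℝ) (G : ES n) : Prop :=
  ∀ A, A ⊆ G → (cnt A A : ℝ) ≤ (n.factorial : ℝ) * q ^ A.card

lemma Adm.mono {q : ℝ} {G G' : ES n} (h : Adm q G) (hs : G' ⊆ G) : Adm q G' :=
  fun A hA => h A (hA.trans hs)

lemma Adm.perm {q : ℝ} {G : ES n} (h : Adm q G) (σ : Perm (Fin n)) : Adm q (act σ G) := by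
  intro A hA
  have h1 : act σ⁻¹ A ⊆ G := by
    rw [act_subset_iff, inv_inv]; exact hA
  have h2 := h _ h1
  rw [cnt_act_left, cnt_act_right, card_act] at h2
  exact h2

lemma Adm.of_cnt_pos {q : ℝ} {U G : ES n} (h : Adm q G) (hpos : 0 < cnt U G) : Adm q U := by
  unfold cnt at hpos
  obtain ⟨σ, hσ⟩ := Finset.card_pos.1 hpos
  simp only [mem_filter, mem_univ, true_and] at hσ
  have := (h.mono hσ).perm σ⁻¹
  rwa [act_inv_act] at this

/-- trivial bound for admissible hosts -/
lemma cnt_le_of_adm {q : ℝ} (hq : 0 ≤ q) {U : ES n} (h : Adm q U) (J : ES n) :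
    (cnt J U : ℝ) ≤ (U.card.choose J.card : ℝ) * ((n.factorial : ℝ) * q ^ J.card) := by
  rcases Nat.eq_zero_or_pos (cnt J U) with h0 | hpos
  · rw [h0, Nat.cast_zero]; positivity
  · have h1 := (h.of_cnt_pos hpos) J (Subset.refl _)
    have h2 : (cnt J U : ℝ) ≤ (U.card.choose J.card : ℝ) * (cnt J J : ℝ) := by
      exact_mod_cast cnt_le_choose_mul J U
    exact h2.trans (mul_le_mul_of_nonneg_left h1 (Nat.cast_nonneg _))

lemma sum_pow_union_le (p : ℝ) (hp : 0 < p) (B U : ES n) :
    ∑ τ : Perm (Fin n), p ^ (B ∪ act τ U).card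
      ≤ p ^ (B.card + U.card) * ∑ J ∈ B.powerset, (cnt J U : ℝ) / p ^ J.card := by
  have h1 : ∀ τ : Perm (Fin n), p ^ (B ∪ act τ U).card
      = p ^ (B.card + U.card) * (1 / p ^ (B ∩ act τ U).card) := by
    intro τ
    have := Finset.card_union_add_card_inter B (act τ U)
    rw [card_act] at this
    rw [← this, pow_add]
    field_simp
  rw [Finset.sum_congr rfl (fun τ _ => h1 τ), ← Finset.mul_sum]
  refine mul_le_mul_of_nonneg_left ?_ (by positivity)
  refine (sum_inter_le B U (fun J => 1 / p ^ J.card) (fun J => by positivity)).trans (le_of_eq ?_)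
  refine Finset.sum_congr rfl fun J _ => ?_
  ring

lemma step_aux (q p : ℝ) (hp : 0 < p) (G B : ES n) (hG : Adm q G) (I : ℕ) (Sb E : ℝ)
    (hSb : 0 ≤ Sb) (hE : 0 ≤ E)
    (hS : ∀ U : ES n, Adm q U → U.card ≤ I * B.card →
      ∑ J ∈ B.powerset, (cnt J U : ℝ) / p ^ J.card ≤ (n.factorial : ℝ) * Sb)
    (hEb : ∀ U : ES n, U.card ≤ I * B.card →
      (cnt U G : ℝ) ≤ (n.factorial : ℝ) * p ^ U.card * E) :
    ∀ (i : ℕ) (U : ES n), U.card + i * B.card ≤ I * B.card →
      (cnt B G : ℝ) ^ i * (cnt U G : ℝ)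
        ≤ ((n.factorial : ℝ) * p ^ B.card * Sb) ^ i * ((n.factorial : ℝ) * p ^ U.card * E) := by
  intro i
  induction i with
  | zero =>
    intro U hU
    simpa using hEb U (by simpa using hU)
  | succ i ih =>
    intro U hU
    have hU' : U.card + B.card + i * B.card ≤ I * B.card := by
      have : (i + 1) * B.card = B.card + i * B.card := by ring
      omega
    rcases Nat.eq_zero_or_pos (cnt U G) with h0 | hpos
    · rw [h0]
      simp only [Nat.cast_zero, mul_zero]
      positivity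
    · have hUadm : Adm q U := hG.of_cnt_pos hpos
      have hSU := hS U hUadm (by omega)
      set X : ℝ := (n.factorial : ℝ) * p ^ B.card * Sb with hX
      have hX0 : 0 ≤ X := by positivity
      calc (cnt B G : ℝ) ^ (i + 1) * (cnt U G : ℝ)
          = (cnt B G : ℝ) ^ i * ((cnt B G * cnt U G : ℕ) : ℝ) := by push_cast; ring
        _ = ∑ τ : Perm (Fin n), (cnt B G : ℝ) ^ i * (cnt (B ∪ act τ U) G : ℝ) := by
            rw [cnt_mul_cnt, Nat.cast_sum, Finset.mul_sum]
        _ ≤ ∑ τ : Perm (Fin n), X ^ i * ((n.factorial : ℝ) * p ^ (B ∪ act τ U).card * E) := by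
            refine Finset.sum_le_sum fun τ _ => ih _ ?_
            have := Finset.card_union_le B (act τ U)
            rw [card_act] at this
            omega
        _ = X ^ i * (n.factorial : ℝ) * E * ∑ τ : Perm (Fin n), p ^ (B ∪ act τ U).card := by
            rw [Finset.mul_sum]
            refine Finset.sum_congr rfl fun τ _ => ?_
            ring
        _ ≤ X ^ i * (n.factorial : ℝ) * E *
              (p ^ (B.card + U.card) * ((n.factorial : ℝ) * Sb)) := by
            refine mul_le_mul_of_nonneg_left ?_ (by positivity)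
            exact (sum_pow_union_le p hp B U).trans
              (mul_le_mul_of_nonneg_left hSU (by positivity))
        _ = X ^ (i + 1) * ((n.factorial : ℝ) * p ^ U.card * E) := by
            rw [hX, pow_add, pow_succ]; ring

/-- **Step lemma.** -/
lemma step (q p : ℝ) (hp : 0 < p) (G B : ES n) (hG : Adm q G) (I : ℕ) (Sb E : ℝ)
    (hSb : 0 ≤ Sb) (hE : 0 ≤ E)
    (hS : ∀ U : ES n, Adm q U → U.card ≤ I * B.card →
      ∑ J ∈ B.powerset, (cnt J U : ℝ) / p ^ J.card ≤ (n.factorial : ℝ) * Sb)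
    (hEb : ∀ U : ES n, U.card ≤ I * B.card →
      (cnt U G : ℝ) ≤ (n.factorial : ℝ) * p ^ U.card * E) :
    (cnt B G : ℝ) ^ I ≤ ((n.factorial : ℝ) * p ^ B.card * Sb) ^ I * E := by
  have h := step_aux q p hp G B hG I Sb E hSb hE hS hEb I ∅ (by simp)
  rw [cnt_empty, Finset.card_empty, pow_zero, mul_one] at h
  have hf : (0 : ℝ) < (n.factorial : ℝ) := by exact_mod_cast n.factorial_pos
  have h2 : (cnt B G : ℝ) ^ I * (n.factorial : ℝ)
      ≤ (((n.factorial : ℝ) * p ^ B.card * Sb) ^ I * E) * (n.factorial : ℝ) := by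
    calc _ ≤ _ := h
      _ = _ := by ring
  exact le_of_mul_le_mul_right h2 hf

/-- **Chain lemma.** -/
theorem chain (q L : ℝ) (hq : 0 < q) (hL : 0 < L) (I : ℕ) (hI : 1 ≤ I) (s : ℝ) (hs : 0 ≤ s)
    (hS : ∀ B U : ES n, Adm q U → U.card ≤ I * B.card →
      ∑ J ∈ B.powerset, (cnt J U : ℝ) / (L * q) ^ J.card
        ≤ (n.factorial : ℝ) * Real.exp (s * B.card)) :
    ∀ (w : ℕ) (x : ℝ) (G B : ES n), Adm q G → (G.card : ℝ) ≤ (I : ℝ) ^ w * x → (B.card : ℝ) ≤ x →
      (cnt B G : ℝ) ≤ (n.factorial : ℝ) * (L * q) ^ B.card * Real.exp (x * (s * w + 1 / L)) := by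
  have hp : 0 < L * q := by positivity
  intro w
  induction w with
  | zero =>
    intro x G B hG hGx _
    simp only [pow_zero, one_mul] at hGx
    have h1 := cnt_le_of_adm hq.le hG B
    have h2 := choose_mul_pow_le_exp G.card B.card (1 / L) (by positivity)
    have h3 : Real.exp (G.card * (1 / L)) ≤ Real.exp (x * (s * (0 : ℕ) + 1 / L)) := by
      apply Real.exp_le_exp.2
      simp only [Nat.cast_zero, mul_zero, zero_add]
      exact mul_le_mul_of_nonneg_right hGx (by positivity)
    calc (cnt B G : ℝ) ≤ (G.card.choose B.card : ℝ) * ((n.factorial : ℝ) * q ^ B.card) := h1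
      _ = (n.factorial : ℝ) * (L * q) ^ B.card * ((G.card.choose B.card : ℝ) * (1 / L) ^ B.card) := by
          rw [mul_pow, one_div, inv_pow]
          field_simp
      _ ≤ _ := mul_le_mul_of_nonneg_left (h2.trans h3) (by positivity)
  | succ w ih =>
    intro x G B hG hGx hBx
    have hx0 : 0 ≤ x := le_trans (Nat.cast_nonneg _) hBx
    set y : ℝ := x * (s * w + 1 / L) with hy
    have hstep := step q (L * q) hp G B hG I (Real.exp (s * B.card)) (Real.exp (I * y))
      (Real.exp_pos _).le (Real.exp_pos _).le (fun U hU hUc => hS B U hU hUc)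
      (fun U hUc => by
        have hUx : (U.card : ℝ) ≤ I * x := by
          calc (U.card : ℝ) ≤ ((I * B.card : ℕ) : ℝ) := by exact_mod_cast hUc
            _ = I * (B.card : ℝ) := by push_cast; ring
            _ ≤ I * x := mul_le_mul_of_nonneg_left hBx (Nat.cast_nonneg _)
        have := ih (I * x) G U hG (by rw [pow_succ] at hGx; linarith [hGx]) hUx
        have e : (I : ℝ) * x * (s * w + 1 / L) = I * y := by rw [hy]; ring
        rwa [e] at this)
    have hI0 : I ≠ 0 := by omega
    rw [Real.exp_nat_mul, ← mul_pow] at hstep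
    have h4 := (pow_le_pow_iff_left₀ (Nat.cast_nonneg _) (by positivity) hI0).1 hstep
    refine h4.trans ?_
    rw [mul_assoc, ← Real.exp_add]
    refine mul_le_mul_of_nonneg_left (Real.exp_le_exp.2 ?_) (by positivity)
    have : s * (B.card : ℝ) ≤ s * x := mul_le_mul_of_nonneg_left hBx hs
    rw [hy]
    push_cast
    nlinarith

/-- Consequence of the chain lemma in multiplicative form. -/
theorem chain' (q L : ℝ) (hq : 0 < q) (hL : 0 < L) (I : ℕ) (hI : 1 ≤ I) (s : ℝ) (hs : 0 ≤ s)
    (hS : ∀ B U : ES n, Adm q U → U.card ≤ I * B.card →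
      ∑ J ∈ B.powerset, (cnt J U : ℝ) / (L * q) ^ J.card
        ≤ (n.factorial : ℝ) * Real.exp (s * B.card))
    (w : ℕ) (c : ℝ) (hc : s * w + 1 / L ≤ c) (G B : ES n) (hG : Adm q G)
    (hGB : G.card ≤ I ^ w * B.card) :
    (cnt B G : ℝ) ≤ (n.factorial : ℝ) * (Real.exp c * L * q) ^ B.card := by
  have h := chain q L hq hL I hI s hs hS w B.card G B hG (by exact_mod_cast hGB) le_rfl
  refine h.trans ?_
  rw [mul_assoc]
  refine mul_le_mul_of_nonneg_left ?_ (by positivity)
  have e : (Real.exp c * L * q) ^ B.card = (L * q) ^ B.card * Real.exp (B.card * c) := by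
    rw [Real.exp_nat_mul, ← mul_pow]; ring
  rw [e]
  refine mul_le_mul_of_nonneg_left (Real.exp_le_exp.2 ?_) (by positivity)
  exact mul_le_mul_of_nonneg_left hc (Nat.cast_nonneg _)

end Vale.Agent.Lib.P064
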