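import Vale.Agent.Lib.P064.PermBridge
import Vale.Agent.Lib.P064.PermChain

/-!
# Admissibility from the expectation hypothesis
-/

namespace Vale.Agent.Lib.P064

open SimpleGraph Finset Equiv

variable {n : ℕ}

lemma eq_top_of_iso {W : Type*} [Finite W] {F : SimpleGraph W} {T : F.Subgraph}
    (h : Nonempty (F ≃g T.coe)) : T = ⊤ := by
  obtain ⟨i⟩ := h
  have hinj : Function.Injective (fun w => (i w).1) :=
    Subtype.val_injective.comp i.injective
  have hsurj : Function.Surjective (fun w => (i w).1) := Finite.injective_iff_surjective.1 hinj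
  have hE : T.edgeSet = F.edgeSet := by
    refine Set.eq_of_subset_of_ncard_le T.edgeSet_subset ?_ (Set.toFinite _)
    rw [ncard_edgeSet_of_iso i, ncard_edgeSet_coe]
  ext x y
  · simp only [Subgraph.verts_top, Set.mem_univ, iff_true]
    obtain ⟨w, rfl⟩ := hsurj x
    exact (i w).2
  · rw [Subgraph.top_adj, ← Subgraph.mem_edgeSet, hE, mem_edgeSet]

lemma copyCount_self_le_one {W : Type*} [Fintype W] (F : SimpleGraph W) : F.copyCount F ≤ 1 := by
  rw [copyCount_eq_card_copiesIn, Finset.card_le_one]
  intro S hS T hT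
  rw [mem_copiesIn] at hS hT
  rw [eq_top_of_iso hS, eq_top_of_iso hT]

/-- the subgraph of `H` spanned by the edges whose image lies in `A` -/
def spanSub {V : Type*} (H : SimpleGraph V) (ι : V → Fin n) (A : ES n) : H.Subgraph where
  verts := {x | ∃ y, H.Adj x y ∧ s(ι x, ι y) ∈ A}
  Adj x y := H.Adj x y ∧ s(ι x, ι y) ∈ A
  adj_sub h := h.1
  edge_vert {x y} h := ⟨y, h⟩
  symm := ⟨fun x y h => ⟨h.1.symm, by rw [Sym2.eq_swap]; exact h.2⟩⟩

lemma edgesImg_spanSub {V : Type*} (H : SimpleGraph V) (ι : V → Fin n) (A : ES n)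
    (hA : A ⊆ edgesImg H ι) :
    edgesImg (spanSub H ι A).coe (fun x => ι x.1) = A := by
  ext e
  rw [mem_edgesImg]
  constructor
  · rintro ⟨e', he', rfl⟩
    induction e' with
    | _ x y =>
      rw [mem_edgeSet, Subgraph.coe_adj] at he'
      exact he'.2
  · intro he
    obtain ⟨e'', he'', rfl⟩ := mem_edgesImg.1 (hA he)
    induction e'' with
    | _ x y =>
      rw [mem_edgeSet] at he''
      have hxy : (spanSub H ι A).Adj x y := ⟨he'', he⟩
      refine ⟨s(⟨x, (spanSub H ι A).edge_vert hxy⟩, ⟨y, (spanSub H ι A).edge_vert hxy.symm⟩),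
        ?_, rfl⟩
      rw [mem_edgeSet, Subgraph.coe_adj]
      exact hxy

lemma spanSub_no_isolated {V : Type*} (H : SimpleGraph V) (ι : V → Fin n) (A : ES n)
    (x : (spanSub H ι A).verts) : ∃ y, (spanSub H ι A).coe.Adj x y := by
  obtain ⟨y, hy⟩ := x.2
  have hxy : (spanSub H ι A).Adj x.1 y := hy
  exact ⟨⟨y, (spanSub H ι A).edge_vert hxy.symm⟩, by rw [Subgraph.coe_adj]; exact hxy⟩

/-- the expectation hypothesis gives admissibility -/
theorem adm_of_hyp {V : Type*} [Fintype V] (H : SimpleGraph V) (ι : V → Fin n)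
    (hι : Function.Injective ι) (q : ℝ) (hq : 0 ≤ q)
    (hyp : ∀ I : H.Subgraph, 1 ≤ expCopies n q I.coe) : Adm q (edgesImg H ι) := by
  classical
  intro A hA
  set I := spanSub H ι A with hI
  set F := I.coe with hF
  have ha : Function.Injective (fun x : I.verts => ι x.1) := hι.comp Subtype.val_injective
  have hAe : edgesImg F (fun x : I.verts => ι x.1) = A := edgesImg_spanSub H ι A hA
  have hcardA : A.card = F.edgeSet.ncard := by
    rw [← hAe, card_edgesImg F _ ha]
  have hv : Fintype.card I.verts ≤ n := by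
    simpa using Fintype.card_le_of_injective _ ha
  have h1 : cnt A A ≤ inj F F * (n - Fintype.card I.verts).factorial := by
    have := cnt_le_inj_mul F F _ ha _ ha (spanSub_no_isolated H ι A)
    rwa [hAe] at this
  have h2 := copyCount_mul_descFactorial F F n
  have h3 : inj F F * (⊤ : SimpleGraph (Fin n)).copyCount F
      ≤ n.descFactorial (Fintype.card I.verts) := by
    rw [← h2]
    calc F.copyCount F * n.descFactorial (Fintype.card I.verts)
        ≤ 1 * n.descFactorial (Fintype.card I.verts) :=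
          Nat.mul_le_mul_right _ (copyCount_self_le_one F)
      _ = _ := one_mul _
  have h4 := hyp I
  rw [expCopies_eq] at h4
  have h5 : (inj F F : ℝ) ≤ (n.descFactorial (Fintype.card I.verts) : ℝ) * q ^ A.card := by
    calc (inj F F : ℝ) = (inj F F : ℝ) * 1 := (mul_one _).symm
      _ ≤ (inj F F : ℝ) * (((⊤ : SimpleGraph (Fin n)).copyCount F : ℝ) * q ^ F.edgeSet.ncard) :=
          mul_le_mul_of_nonneg_left h4 (Nat.cast_nonneg _)
      _ = ((inj F F * (⊤ : SimpleGraph (Fin n)).copyCount F : ℕ) : ℝ) * q ^ A.card := by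
          rw [hcardA]; push_cast; ring
      _ ≤ _ := mul_le_mul_of_nonneg_right (by exact_mod_cast h3) (by positivity)
  calc (cnt A A : ℝ) ≤ ((inj F F * (n - Fintype.card I.verts).factorial : ℕ) : ℝ) := by
        exact_mod_cast h1
    _ = (inj F F : ℝ) * ((n - Fintype.card I.verts).factorial : ℝ) := by push_cast; ring
    _ ≤ (n.descFactorial (Fintype.card I.verts) : ℝ) * q ^ A.card *
          ((n - Fintype.card I.verts).factorial : ℝ) :=
        mul_le_mul_of_nonneg_right h5 (Nat.cast_nonneg _)
    _ = (((n - Fintype.card I.verts).factorial * n.descFactorial (Fintype.card I.verts) : ℕ) : ℝ)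
          * q ^ A.card := by push_cast; ring
    _ = _ := by rw [Nat.factorial_mul_descFactorial hv]

end Vale.Agent.Lib.P064
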