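import Mathlib

/-!
# Counting placements of edge sets under the symmetric group

Graphs without isolated vertices on at most `n` vertices are represented by finite sets of
unordered pairs of elements of `Fin n`; `cnt A G` counts the permutations of `Fin n` carrying the
edge set `A` into the edge set `G`.
-/

namespace Vale.Agent.Lib.P064

open Finset Equiv

variable {n : ℕ}

/-- finite sets of unordered pairs -/
abbrev ES (n : ℕ) := Finset (Sym2 (Fin n))

/-- action of a permutation on an edge set -/
def act (σ : Perm (Fin n)) (A : ES n) : ES n := A.image (Sym2.map σ)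

lemma act_one (A : ES n) : act 1 A = A := by
  unfold act
  have : Sym2.map (⇑(1 : Perm (Fin n))) = id := by
    rw [Perm.coe_one, Sym2.map_id]
  rw [this, Finset.image_id]

lemma act_mul (σ τ : Perm (Fin n)) (A : ES n) : act (σ * τ) A = act σ (act τ A) := by
  unfold act
  rw [Finset.image_image, Perm.coe_mul, Sym2.map_comp]

lemma map_injective (σ : Perm (Fin n)) : Function.Injective (Sym2.map σ) :=
  Sym2.map.injective σ.injective

lemma card_act (σ : Perm (Fin n)) (A : ES n) : (act σ A).card = A.card :=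
  Finset.card_image_of_injective _ (map_injective σ)

lemma act_union (σ : Perm (Fin n)) (A B : ES n) : act σ (A ∪ B) = act σ A ∪ act σ B :=
  Finset.image_union _ _

lemma act_mono (σ : Perm (Fin n)) {A B : ES n} (h : A ⊆ B) : act σ A ⊆ act σ B :=
  Finset.image_subset_image h

lemma act_inv_act (σ : Perm (Fin n)) (A : ES n) : act σ⁻¹ (act σ A) = A := by
  rw [← act_mul, inv_mul_cancel, act_one]

lemma act_act_inv (σ : Perm (Fin n)) (A : ES n) : act σ (act σ⁻¹ A) = A := by
  rw [← act_mul, mul_inv_cancel, act_one]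

lemma act_subset_iff (σ : Perm (Fin n)) (A B : ES n) : act σ A ⊆ B ↔ A ⊆ act σ⁻¹ B := by
  constructor
  · intro h
    have := act_mono σ⁻¹ h
    rwa [act_inv_act] at this
  · intro h
    have := act_mono σ h
    rwa [act_act_inv] at this

lemma act_empty (σ : Perm (Fin n)) : act σ (∅ : ES n) = ∅ := Finset.image_empty _

/-- number of permutations carrying `A` into `G` -/
def cnt (A G : ES n) : ℕ := (univ.filter fun σ : Perm (Fin n) => act σ A ⊆ G).card

lemma cnt_eq_sum (A G : ES n) : cnt A G = ∑ σ : Perm (Fin n), if act σ A ⊆ G then 1 else 0 := by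
  unfold cnt
  rw [Finset.card_filter]

lemma cnt_empty (G : ES n) : cnt (∅ : ES n) G = n.factorial := by
  unfold cnt
  simp [act_empty, Fintype.card_perm]

lemma cnt_le_factorial (A G : ES n) : cnt A G ≤ n.factorial := by
  unfold cnt
  refine (Finset.card_le_univ _).trans ?_
  simp [Fintype.card_perm]

/-- **Pair identity.** -/
lemma cnt_mul_cnt (A B G : ES n) : cnt A G * cnt B G = ∑ τ : Perm (Fin n), cnt (A ∪ act τ B) G := by
  rw [cnt_eq_sum A G, cnt_eq_sum B G, Finset.sum_mul_sum]
  have h1 : ∀ σ : Perm (Fin n),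
      ∑ σ' : Perm (Fin n), (if act σ A ⊆ G then 1 else 0) * (if act σ' B ⊆ G then 1 else 0)
      = ∑ τ : Perm (Fin n), if act σ (A ∪ act τ B) ⊆ G then 1 else 0 := by
    intro σ
    refine (Fintype.sum_equiv (Equiv.mulLeft σ) _ _ fun τ => ?_).symm
    simp only [Equiv.coe_mulLeft, act_mul, act_union, Finset.union_subset_iff]
    by_cases h1 : act σ A ⊆ G <;> by_cases h2 : act σ (act τ B) ⊆ G <;> simp [h1, h2]
  rw [Finset.sum_congr rfl (fun σ _ => h1 σ), Finset.sum_comm]
  refine Finset.sum_congr rfl fun τ _ => ?_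
  rw [cnt_eq_sum]

lemma cnt_act_left (σ : Perm (Fin n)) (A G : ES n) : cnt (act σ A) G = cnt A G := by
  rw [cnt_eq_sum, cnt_eq_sum]
  refine Fintype.sum_equiv (Equiv.mulRight σ) _ _ fun τ => ?_
  simp only [Equiv.coe_mulRight, act_mul]

lemma cnt_act_right (σ : Perm (Fin n)) (A G : ES n) : cnt A (act σ G) = cnt A G := by
  rw [cnt_eq_sum, cnt_eq_sum]
  refine (Fintype.sum_equiv (Equiv.mulLeft σ) _ _ fun τ => ?_).symm
  simp only [Equiv.coe_mulLeft, act_mul]
  have : act σ (act τ A) ⊆ act σ G ↔ act τ A ⊆ G := by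
    rw [act_subset_iff, act_inv_act]
  simp only [this]

lemma card_filter_subset_act (J B : ES n) :
    (univ.filter fun τ : Perm (Fin n) => J ⊆ act τ B).card = cnt J B := by
  unfold cnt
  refine Finset.card_bij (fun τ _ => τ⁻¹) ?_ ?_ ?_
  · intro τ hτ
    simp only [Finset.mem_filter, Finset.mem_univ, true_and] at hτ ⊢
    rw [act_subset_iff, inv_inv]
    exact hτ
  · intro a _ b _ h
    exact inv_injective h
  · intro τ hτ
    simp only [Finset.mem_filter, Finset.mem_univ, true_and] at hτ
    refine ⟨τ⁻¹, ?_, inv_inv τ⟩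
    simp only [Finset.mem_filter, Finset.mem_univ, true_and]
    rwa [← act_subset_iff]

/-- grouping the translates of `B` by their intersection with `A` -/
lemma sum_inter_le (A B : ES n) (f : ES n → ℝ) (hf : ∀ J, 0 ≤ f J) :
    ∑ τ : Perm (Fin n), f (A ∩ act τ B) ≤ ∑ J ∈ A.powerset, f J * (cnt J B : ℝ) := by
  have h1 : ∀ τ : Perm (Fin n), f (A ∩ act τ B)
      ≤ ∑ J ∈ A.powerset, if J ⊆ act τ B then f J else 0 := by
    intro τ
    have hmem : A ∩ act τ B ∈ A.powerset := Finset.mem_powerset.2 Finset.inter_subset_left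
    refine le_trans ?_ (Finset.single_le_sum (f := fun J => if J ⊆ act τ B then f J else 0)
      (fun J _ => by split_ifs <;> simp [hf]) hmem)
    simp [Finset.inter_subset_right]
  refine (Finset.sum_le_sum fun τ _ => h1 τ).trans ?_
  rw [Finset.sum_comm]
  refine Finset.sum_le_sum fun J _ => ?_
  rw [← Finset.sum_filter, Finset.sum_const, card_filter_subset_act, nsmul_eq_mul, mul_comm]

/-- trivial bound -/
lemma cnt_le_choose_mul (J U : ES n) : cnt J U ≤ U.card.choose J.card * cnt J J := by
  classical
  unfold cnt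
  rw [Finset.card_eq_sum_card_fiberwise (f := fun σ : Perm (Fin n) => act σ J)
    (t := U.powersetCard J.card) (fun σ hσ => by
      simp only [Finset.coe_filter, Finset.mem_univ, true_and, Set.mem_ofPred_eq] at hσ
      rw [Finset.mem_coe, Finset.mem_powersetCard]
      exact ⟨hσ, card_act σ J⟩)]
  rw [← Finset.card_powersetCard, ← smul_eq_mul, ← Finset.sum_const]
  refine Finset.sum_le_sum fun B _ => ?_
  rcases Finset.eq_empty_or_nonempty
    (Finset.filter (fun σ : Perm (Fin n) => act σ J = B)
      (univ.filter fun σ : Perm (Fin n) => act σ J ⊆ U)) with h | ⟨σ0, h0⟩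
  · rw [h]; simp
  · simp only [Finset.mem_filter, Finset.mem_univ, true_and] at h0
    refine Finset.card_le_card_of_injOn (fun σ => σ0⁻¹ * σ) ?_ ?_
    · intro σ hσ
      simp only [Finset.coe_filter, Finset.mem_filter, Finset.mem_univ, true_and,
        Set.mem_ofPred_eq] at hσ ⊢
      rw [act_mul, hσ.2, ← h0.2, act_inv_act]
    · intro a _ b _ h
      exact mul_left_cancel h

end Vale.Agent.Lib.P064
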