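import Vale.Agent.Lib.P064.PermChain

/-!
# The maximum principle

For an admissible host `G` and `p = y q`, let `U` maximise `cnt U G / p ^ |U|`.  The pair identity
gives `cnt B G ≤ p ^ |B| * ∑_{J ⊆ B} cnt J U / p ^ |J|` for every `B`, and the trivial bound shows
`y ^ |U| ≤ C(|G|, |U|)`; for `y = 4` the new host `U` has at most half the size of `G`.
-/

namespace Vale.Agent.Lib.P064

open Finset Equiv

variable {n : ℕ}

lemma max_principle (q y : ℝ) (hq : 0 < q) (hy : 0 < y) (G : ES n) (hG : Adm q G) :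
    ∃ U : ES n, Adm q U ∧ y ^ U.card ≤ (G.card.choose U.card : ℝ) ∧
      ∀ B : ES n, (cnt B G : ℝ)
        ≤ (y * q) ^ B.card * ∑ J ∈ B.powerset, (cnt J U : ℝ) / (y * q) ^ J.card := by
  have hp : 0 < y * q := by positivity
  have hf : (0 : ℝ) < (n.factorial : ℝ) := by exact_mod_cast n.factorial_pos
  obtain ⟨U, -, hU⟩ := Finset.exists_max_image (univ : Finset (ES n))
    (fun U => (cnt U G : ℝ) / (y * q) ^ U.card) ⟨∅, mem_univ _⟩
  have h0 : (n.factorial : ℝ) ≤ (cnt U G : ℝ) / (y * q) ^ U.card := by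
    have := hU ∅ (mem_univ _)
    simpa [cnt_empty] using this
  have hpos : (0 : ℝ) < (cnt U G : ℝ) := by
    by_contra hcon
    have h1 : (cnt U G : ℝ) = 0 := le_antisymm (not_lt.1 hcon) (Nat.cast_nonneg _)
    rw [h1, zero_div] at h0
    linarith
  have hposN : 0 < cnt U G := by exact_mod_cast hpos
  have hUadm : Adm q U := hG.of_cnt_pos hposN
  refine ⟨U, hUadm, ?_, ?_⟩
  · have h1 := cnt_le_of_adm hq.le hG U
    rw [le_div_iff₀ (by positivity)] at h0
    have h2 : (n.factorial : ℝ) * q ^ U.card * y ^ U.card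
        ≤ (n.factorial : ℝ) * q ^ U.card * (G.card.choose U.card : ℝ) := by
      calc (n.factorial : ℝ) * q ^ U.card * y ^ U.card
          = (n.factorial : ℝ) * (y * q) ^ U.card := by rw [mul_pow]; ring
        _ ≤ (cnt U G : ℝ) := h0
        _ ≤ (G.card.choose U.card : ℝ) * ((n.factorial : ℝ) * q ^ U.card) := h1
        _ = _ := by ring
    exact le_of_mul_le_mul_left h2 (by positivity)
  · intro B
    have h1 : ∀ τ : Perm (Fin n), (cnt (B ∪ act τ U) G : ℝ)
        ≤ (cnt U G : ℝ) / (y * q) ^ U.card * (y * q) ^ (B ∪ act τ U).card := by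
      intro τ
      have := hU (B ∪ act τ U) (mem_univ _)
      rwa [div_le_iff₀ (by positivity)] at this
    have h2 : (cnt B G : ℝ) * (cnt U G : ℝ)
        ≤ ((y * q) ^ B.card * ∑ J ∈ B.powerset, (cnt J U : ℝ) / (y * q) ^ J.card)
          * (cnt U G : ℝ) := by
      calc (cnt B G : ℝ) * (cnt U G : ℝ) = ((cnt B G * cnt U G : ℕ) : ℝ) := by push_cast; ring
        _ = ∑ τ : Perm (Fin n), (cnt (B ∪ act τ U) G : ℝ) := by
            rw [cnt_mul_cnt, Nat.cast_sum]
        _ ≤ ∑ τ : Perm (Fin n),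
              (cnt U G : ℝ) / (y * q) ^ U.card * (y * q) ^ (B ∪ act τ U).card :=
            Finset.sum_le_sum fun τ _ => h1 τ
        _ = (cnt U G : ℝ) / (y * q) ^ U.card * ∑ τ : Perm (Fin n), (y * q) ^ (B ∪ act τ U).card := by
            rw [Finset.mul_sum]
        _ ≤ (cnt U G : ℝ) / (y * q) ^ U.card * ((y * q) ^ (B.card + U.card) *
              ∑ J ∈ B.powerset, (cnt J U : ℝ) / (y * q) ^ J.card) :=
            mul_le_mul_of_nonneg_left (sum_pow_union_le (y * q) hp B U) (by positivity)
        _ = _ := by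
            rw [pow_add]
            field_simp
    exact le_of_mul_le_mul_right h2 hpos

lemma cnt_empty_right (B : ES n) (hB : B.Nonempty) : cnt B (∅ : ES n) = 0 := by
  unfold cnt
  rw [Finset.card_eq_zero, Finset.filter_eq_empty_iff]
  intro σ _ h
  have h1 : (act σ B).card = 0 := by rw [Finset.subset_empty.1 h]; rfl
  rw [card_act] at h1
  exact hB.ne_empty (Finset.card_eq_zero.1 h1)

/-- **Logarithmic bound.** -/
theorem cnt_le_log (q : ℝ) (hq : 0 < q) :
    ∀ (k : ℕ) (G : ES n), Adm q G → G.card < 2 ^ k → ∀ B : ES n,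
      (cnt B G : ℝ) ≤ (n.factorial : ℝ) * (4 * (k : ℝ) * q) ^ B.card := by
  intro k
  induction k with
  | zero =>
    intro G _ hGc B
    have hG0 : G = ∅ := by
      rw [pow_zero, Nat.lt_one_iff, Finset.card_eq_zero] at hGc
      exact hGc
    subst hG0
    rcases B.eq_empty_or_nonempty with rfl | hB
    · simp [cnt_empty]
    · rw [cnt_empty_right B hB]
      simp only [Nat.cast_zero]
      positivity
  | succ k ih =>
    intro G hG hGc B
    obtain ⟨U, hU, hUc, hB⟩ := max_principle q 4 hq (by norm_num) G hG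
    have hUk : U.card < 2 ^ k := by
      have h1 : (4 : ℝ) ^ U.card ≤ (2 : ℝ) ^ G.card := by
        refine hUc.trans ?_
        exact_mod_cast Nat.choose_le_two_pow _ _
      have h2 : (2 : ℕ) ^ (2 * U.card) ≤ 2 ^ G.card := by
        have : (4 : ℝ) ^ U.card = (2 : ℝ) ^ (2 * U.card) := by
          rw [pow_mul]; norm_num
        rw [this] at h1
        exact_mod_cast h1
      have h3 : 2 * U.card ≤ G.card := (Nat.pow_le_pow_iff_right (by norm_num)).1 h2
      rw [pow_succ] at hGc
      omega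
    refine (hB B).trans ?_
    have h4 : ∀ J ∈ B.powerset, (cnt J U : ℝ) / (4 * q) ^ J.card
        ≤ (n.factorial : ℝ) * (k : ℝ) ^ J.card := by
      intro J _
      rw [div_le_iff₀ (by positivity)]
      refine (ih U hU hUk J).trans (le_of_eq ?_)
      rw [mul_assoc (n.factorial : ℝ), ← mul_pow]
      congr 2
      ring
    calc (4 * q) ^ B.card * ∑ J ∈ B.powerset, (cnt J U : ℝ) / (4 * q) ^ J.card
        ≤ (4 * q) ^ B.card * ∑ J ∈ B.powerset, (n.factorial : ℝ) * (k : ℝ) ^ J.card :=
          mul_le_mul_of_nonneg_left (Finset.sum_le_sum h4) (by positivity)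
      _ = (n.factorial : ℝ) * ((4 * q) ^ B.card * (1 + (k : ℝ)) ^ B.card) := by
          rw [← Finset.mul_sum, sum_powerset_pow]; ring
      _ = _ := by
          rw [← mul_pow]
          congr 2
          push_cast
          ring

end Vale.Agent.Lib.P064
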