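import Mathlib

/-!
# The product measure on the subsets of a finite set (pure Mathlib, no project imports)

`wt X p W = p^|W| (1-p)^(|X|-|W|)` is the probability that the `p`-random subset of `X` equals `W`.
-/

namespace Vale.Agent.Lib.P064

open Finset

variable {α : Type*} [DecidableEq α]

/-- probability that the `p`-random subset of `X` equals `W` -/
noncomputable def wt (X : Finset α) (p : ℝ) (W : Finset α) : ℝ :=
  p ^ W.card * (1 - p) ^ (X.card - W.card)

lemma wt_nonneg (X : Finset α) {p : ℝ} (hp0 : 0 ≤ p) (hp1 : p ≤ 1) (W : Finset α) :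
    0 ≤ wt X p W := by
  have h : 0 ≤ 1 - p := by linarith
  unfold wt
  positivity

/-- use `Finset.sum_pow_mul_eq_add_pow` -/
lemma sum_wt (X : Finset α) (p : ℝ) : ∑ W ∈ X.powerset, wt X p W = 1 := by
  unfold wt
  rw [Finset.sum_pow_mul_eq_add_pow]
  simp

lemma wt_sdiff (X : Finset α) {p : ℝ} (hp : p ≠ 0) {T Z : Finset α} (hT : T ⊆ Z) (hZ : Z ⊆ X) :
    wt X p (Z \ T) = wt X p Z * ((1 - p) / p) ^ T.card := by
  unfold wt
  rw [Finset.card_sdiff_of_subset hT]
  obtain ⟨a, ha⟩ := Nat.exists_eq_add_of_le (Finset.card_le_card hT)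
  obtain ⟨b, hb⟩ := Nat.exists_eq_add_of_le (Finset.card_le_card hZ)
  rw [hb, ha]
  have e1 : T.card + a - T.card = a := by omega
  have e2 : T.card + a + b - a = b + T.card := by omega
  have e3 : T.card + a + b - (T.card + a) = b := by omega
  rw [e1, e2, e3, div_pow, pow_add, pow_add]
  field_simp

/-- one-element recursion for expectations -/
lemma sum_wt_insert {a : α} {s : Finset α} (ha : a ∉ s) (p : ℝ) (g : Finset α → ℝ) :
    ∑ W ∈ (insert a s).powerset, wt (insert a s) p W * g W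
      = ∑ W ∈ s.powerset, wt s p W * ((1 - p) * g W + p * g (insert a W)) := by
  rw [Finset.sum_powerset_insert ha, ← Finset.sum_add_distrib]
  refine Finset.sum_congr rfl fun W hW => ?_
  have hWs : W ⊆ s := Finset.mem_powerset.1 hW
  have haW : a ∉ W := fun h => ha (hWs h)
  have hc : W.card ≤ s.card := Finset.card_le_card hWs
  unfold wt
  rw [Finset.card_insert_of_notMem ha, Finset.card_insert_of_notMem haW]
  have e1 : s.card + 1 - W.card = (s.card - W.card) + 1 := by omega
  have e2 : s.card + 1 - (W.card + 1) = s.card - W.card := by omega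
  rw [e1, e2, pow_succ, pow_succ]
  ring

/-- The union of independent `p₁`- and `p₂`-random subsets is `1-(1-p₁)(1-p₂)`-random.
Proof: for fixed `W`, the pairs with union `W` are `W₁ ⊆ W`, `W₂ = (W \ W₁) ∪ W₃`, `W₃ ⊆ W₁`;
sum over `W₃` (binomial theorem, total 1), then over `W₁` (binomial theorem). Alternatively
induction on `X`. -/
lemma ex_union (X : Finset α) (p₁ p₂ : ℝ) (f : Finset α → ℝ) :
    ∑ W₁ ∈ X.powerset, ∑ W₂ ∈ X.powerset, wt X p₁ W₁ * wt X p₂ W₂ * f (W₁ ∪ W₂)
      = ∑ W ∈ X.powerset, wt X (1 - (1 - p₁) * (1 - p₂)) W * f W := by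
  induction X using Finset.induction_on generalizing f with
  | empty => simp [wt]
  | insert a s ha ih =>
    have step1 : ∀ W₁ : Finset α,
        ∑ W₂ ∈ (insert a s).powerset, wt (insert a s) p₁ W₁ * wt (insert a s) p₂ W₂ * f (W₁ ∪ W₂)
        = wt (insert a s) p₁ W₁ * ∑ W₂ ∈ s.powerset, wt s p₂ W₂ *
            ((1 - p₂) * f (W₁ ∪ W₂) + p₂ * f (W₁ ∪ insert a W₂)) := by
      intro W₁
      rw [← sum_wt_insert ha p₂ (fun W₂ => f (W₁ ∪ W₂)), Finset.mul_sum]
      refine Finset.sum_congr rfl fun W₂ _ => ?_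
      ring
    rw [Finset.sum_congr rfl (fun W₁ _ => step1 W₁)]
    rw [sum_wt_insert ha p₁ (fun W₁ => ∑ W₂ ∈ s.powerset, wt s p₂ W₂ *
            ((1 - p₂) * f (W₁ ∪ W₂) + p₂ * f (W₁ ∪ insert a W₂)))]
    rw [sum_wt_insert ha]
    have ih1 := ih f
    have ih2 := ih (fun W => f (insert a W))
    have : ∑ W ∈ s.powerset, wt s (1 - (1 - p₁) * (1 - p₂)) W *
        ((1 - (1 - (1 - p₁) * (1 - p₂))) * f W + (1 - (1 - p₁) * (1 - p₂)) * f (insert a W))
        = (1 - p₁) * (1 - p₂) * ∑ W ∈ s.powerset, wt s (1 - (1 - p₁) * (1 - p₂)) W * f W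
          + (1 - (1 - p₁) * (1 - p₂)) *
            ∑ W ∈ s.powerset, wt s (1 - (1 - p₁) * (1 - p₂)) W * f (insert a W) := by
      rw [Finset.mul_sum, Finset.mul_sum, ← Finset.sum_add_distrib]
      refine Finset.sum_congr rfl fun W _ => ?_
      ring
    rw [this, ← ih1, ← ih2, Finset.mul_sum, Finset.mul_sum, ← Finset.sum_add_distrib]
    refine Finset.sum_congr rfl fun W₁ _ => ?_
    rw [Finset.mul_sum, Finset.mul_sum, ← Finset.sum_add_distrib, Finset.mul_sum,
      Finset.mul_sum, Finset.mul_sum, ← Finset.sum_add_distrib]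
    refine Finset.sum_congr rfl fun W₂ _ => ?_
    have u1 : W₁ ∪ insert a W₂ = insert a (W₁ ∪ W₂) := Finset.union_insert a W₁ W₂
    have u2 : insert a W₁ ∪ W₂ = insert a (W₁ ∪ W₂) := Finset.insert_union a W₁ W₂
    have u3 : insert a W₁ ∪ insert a W₂ = insert a (W₁ ∪ W₂) := by
      rw [Finset.insert_union, Finset.union_insert, Finset.insert_idem]
    rw [u1, u2, u3]
    ring

/-- monotonicity in `p` of the expectation of a monotone function
(write `p' = 1 - (1-p)(1-r)` and use `ex_union`, `sum_wt`, `wt_nonneg`) -/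
lemma ex_mono (X : Finset α) {p p' : ℝ} (hp0 : 0 ≤ p) (hpp : p ≤ p') (hp1 : p' ≤ 1)
    (f : Finset α → ℝ) (hf : ∀ W W' : Finset α, W ⊆ W' → f W ≤ f W') :
    ∑ W ∈ X.powerset, wt X p W * f W ≤ ∑ W ∈ X.powerset, wt X p' W * f W := by
  rcases eq_or_lt_of_le (hpp.trans hp1) with h1 | h1
  · have : p' = p := le_antisymm (by rw [h1]; exact hp1) hpp
    rw [this]
  · have hq : 0 < 1 - p := by linarith
    set r : ℝ := 1 - (1 - p') / (1 - p) with hr
    have hr0 : 0 ≤ r := by
      rw [hr, sub_nonneg, div_le_one hq]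
      linarith
    have hr1 : r ≤ 1 := by
      rw [hr]
      have : 0 ≤ (1 - p') / (1 - p) := div_nonneg (by linarith) hq.le
      linarith
    have hp' : p' = 1 - (1 - p) * (1 - r) := by
      rw [hr]
      field_simp
      ring
    rw [hp', ← ex_union]
    calc ∑ W ∈ X.powerset, wt X p W * f W
        = ∑ W₁ ∈ X.powerset, ∑ W₂ ∈ X.powerset, wt X p W₁ * wt X r W₂ * f W₁ := by
          refine Finset.sum_congr rfl fun W₁ _ => ?_
          have : ∑ W₂ ∈ X.powerset, wt X p W₁ * wt X r W₂ * f W₁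
              = (wt X p W₁ * f W₁) * ∑ W₂ ∈ X.powerset, wt X r W₂ := by
            rw [Finset.mul_sum]
            refine Finset.sum_congr rfl fun W₂ _ => ?_
            ring
          rw [this, sum_wt, mul_one]
      _ ≤ ∑ W₁ ∈ X.powerset, ∑ W₂ ∈ X.powerset, wt X p W₁ * wt X r W₂ * f (W₁ ∪ W₂) := by
          refine Finset.sum_le_sum fun W₁ _ => Finset.sum_le_sum fun W₂ _ => ?_
          refine mul_le_mul_of_nonneg_left (hf _ _ Finset.subset_union_left) ?_
          exact mul_nonneg (wt_nonneg X hp0 (hpp.trans hp1) _) (wt_nonneg X hr0 hr1 _)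

end Vale.Agent.Lib.P064
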