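import Vale.Agent.Lib.P064.Labelled

namespace Vale.Agent.Lib.P064

open SimpleGraph Finset

universe u

variable {V W : Type*}

/-- restriction to a set and its complement is injective on copies -/
lemma inj_le_mul_induce [Finite V] [Finite W] (F : SimpleGraph W) (H : SimpleGraph V) (A : Set W) :
    inj F H ≤ inj (F.induce A) H * inj (F.induce Aᶜ) H := by
  unfold inj
  rw [← Nat.card_prod]
  refine Nat.card_le_card_of_injective
    (fun f : Copy F H => (f.comp (Copy.induce F A), f.comp (Copy.induce F Aᶜ))) ?_
  intro f g hfg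
  ext w
  simp only [Prod.mk.injEq] at hfg
  by_cases hw : w ∈ A
  · exact DFunLike.congr_fun hfg.1 ⟨w, hw⟩
  · exact DFunLike.congr_fun hfg.2 ⟨w, hw⟩

lemma ncard_edgeSet_induce_image (F : SimpleGraph W) (A : Set W) :
    (F.induce A).edgeSet.ncard = (Sym2.map (Subtype.val : A → W) '' (F.induce A).edgeSet).ncard :=
  (Set.ncard_image_of_injective _ (Sym2.map.injective Subtype.coe_injective)).symm

/-- if there are no edges between `A` and its complement, the edges split -/
lemma ncard_edgeSet_split [Finite W] (F : SimpleGraph W) (A : Set W)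
    (hA : ∀ a b, F.Adj a b → a ∈ A → b ∈ A) :
    F.edgeSet.ncard = (F.induce A).edgeSet.ncard + (F.induce Aᶜ).edgeSet.ncard := by
  rw [ncard_edgeSet_induce_image F A, ncard_edgeSet_induce_image F Aᶜ]
  rw [← Set.ncard_union_eq _ (Set.toFinite _) (Set.toFinite _)]
  · congr 1
    ext e
    induction e using Sym2.ind with
    | _ a b =>
      simp only [mem_edgeSet, Set.mem_union, Set.mem_image]
      constructor
      · intro hab
        by_cases ha : a ∈ A
        · left
          exact ⟨s(⟨a, ha⟩, ⟨b, hA a b hab ha⟩), by simpa using hab, rfl⟩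
        · right
          have hb : b ∉ A := fun hb => ha (hA b a hab.symm hb)
          exact ⟨s(⟨a, ha⟩, ⟨b, hb⟩), by simpa using hab, rfl⟩
      · rintro (⟨e, he, hmap⟩ | ⟨e, he, hmap⟩)
        · induction e using Sym2.ind with
          | _ x y =>
            rw [Sym2.map_mk] at hmap
            have : F.Adj x.1 y.1 := by simpa using he
            rw [← mem_edgeSet, hmap] at this
            exact this
        · induction e using Sym2.ind with
          | _ x y =>
            rw [Sym2.map_mk] at hmap
            have : F.Adj x.1 y.1 := by simpa using he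
            rw [← mem_edgeSet, hmap] at this
            exact this
  · rw [Set.disjoint_left]
    rintro e ⟨e1, _, h1⟩ ⟨e2, _, h2⟩
    induction e1 using Sym2.ind with
    | _ x y =>
      induction e2 using Sym2.ind with
      | _ x' y' =>
        rw [Sym2.map_mk] at h1 h2
        rw [← h2] at h1
        have hx : x.1 ∈ s(x'.1, y'.1) := by rw [← h1]; simp
        rw [Sym2.mem_iff] at hx
        rcases hx with hx | hx
        · exact x'.2 (hx ▸ x.2)
        · exact y'.2 (hx ▸ x.2)

/-- **Step A.** A multiplicative bound for labelled copies of connected graphs extends to all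
graphs. -/
theorem inj_le_of_connected [Fintype V] (H : SimpleGraph V) (n : ℕ) (hcard : Fintype.card V ≤ n)
    (x : ℝ) (hx : 0 ≤ x)
    (hconn : ∀ (W : Type u) [Finite W] (F : SimpleGraph W), F.Connected → F.edgeSet.Nonempty →
      F ⊑ H → (inj F H : ℝ) ≤ (n : ℝ) ^ (Nat.card W) * x ^ F.edgeSet.ncard) :
    ∀ (W : Type u) [Finite W] (F : SimpleGraph W),
      (inj F H : ℝ) ≤ (n : ℝ) ^ (Nat.card W) * x ^ F.edgeSet.ncard := by
  intro W _ F
  induction hm : Nat.card W using Nat.strong_induction_on generalizing W with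
  | _ m ih =>
  by_cases hc : F.Connected
  · by_cases hE : F.edgeSet.Nonempty
    · by_cases hsub : F ⊑ H
      · rw [← hm]; exact hconn W F hc hE hsub
      · have : IsEmpty (Copy F H) := not_nonempty_iff.1 hsub
        have h0 : inj F H = 0 := by unfold inj; exact Nat.card_of_isEmpty
        rw [h0, Nat.cast_zero]
        positivity
    · rw [Set.not_nonempty_iff_eq_empty] at hE
      have hbot : F = ⊥ := edgeSet_eq_empty.1 hE
      have hsub : Subsingleton W := by
        have := hc.preconnected
        rw [hbot] at this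
        exact preconnected_bot_iff_subsingleton.1 this
      obtain ⟨w0⟩ := hc.nonempty
      have hm1 : m = 1 := by
        rw [← hm]
        exact Nat.card_eq_one_iff_unique.2 ⟨hsub, ⟨w0⟩⟩
      have h1 : inj F H ≤ Fintype.card V := by
        unfold inj
        rw [← Nat.card_eq_fintype_card]
        refine Nat.card_le_card_of_injective (fun f : Copy F H => f w0) ?_
        intro f g hfg
        ext w
        rw [Subsingleton.elim w w0]
        exact hfg
      rw [hE, hm1]
      simp only [Set.ncard_empty, pow_zero, mul_one, pow_one]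
      exact_mod_cast h1.trans hcard
  · by_cases hW : IsEmpty W
    · have h1 : inj F H ≤ 1 := by
        unfold inj
        have : Subsingleton (Copy F H) := ⟨fun f g => by ext w; exact isEmptyElim w⟩
        exact Finite.card_le_one_iff_subsingleton.2 this
      have hm0 : m = 0 := by rw [← hm]; exact Nat.card_of_isEmpty
      have hE : F.edgeSet = ∅ := by
        ext e
        induction e using Sym2.ind with
        | _ a b => exact isEmptyElim a
      rw [hE, hm0]
      simp only [Set.ncard_empty, pow_zero, mul_one]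
      exact_mod_cast h1
    · rw [not_isEmpty_iff] at hW
      have hpre : ¬ F.Preconnected := fun h => hc ⟨h⟩
      unfold Preconnected at hpre
      push Not at hpre
      obtain ⟨u, v, huv⟩ := hpre
      set A : Set W := {w | F.Reachable u w} with hA
      have hAadj : ∀ a b, F.Adj a b → a ∈ A → b ∈ A := by
        intro a b hab ha
        exact Reachable.trans ha hab.reachable
      have huA : u ∈ A := Reachable.refl u
      have hvA : v ∈ Aᶜ := huv
      have hsum : A.ncard + Aᶜ.ncard = Nat.card W := Set.ncard_add_ncard_compl A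
      have hApos : 0 < A.ncard := (Set.ncard_pos (Set.toFinite _)).2 ⟨u, huA⟩
      have hAcpos : 0 < Aᶜ.ncard := (Set.ncard_pos (Set.toFinite _)).2 ⟨v, hvA⟩
      have ih1 := ih A.ncard (by omega) A (F.induce A) (Nat.card_coe_set_eq A)
      have ih2 := ih Aᶜ.ncard (by omega) (Aᶜ : Set W) (F.induce Aᶜ) (Nat.card_coe_set_eq Aᶜ)
      have h3 : (inj F H : ℝ) ≤ (inj (F.induce A) H : ℝ) * (inj (F.induce Aᶜ) H : ℝ) := by
        exact_mod_cast inj_le_mul_induce F H A
      rw [ncard_edgeSet_split F A hAadj, ← hm, ← hsum, pow_add, pow_add]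
      calc (inj F H : ℝ) ≤ (inj (F.induce A) H : ℝ) * (inj (F.induce Aᶜ) H : ℝ) := h3
        _ ≤ ((n : ℝ) ^ A.ncard * x ^ (F.induce A).edgeSet.ncard) *
            ((n : ℝ) ^ Aᶜ.ncard * x ^ (F.induce Aᶜ).edgeSet.ncard) :=
            mul_le_mul ih1 ih2 (Nat.cast_nonneg _) (by positivity)
        _ = _ := by ring

/-- **Step B.** Isolated vertices: a labelled copy of `F` is a labelled copy of the graph induced
on the non-isolated vertices together with an injection of the isolated vertices into the rest. -/
lemma inj_le_support [Fintype V] [Finite W] (F : SimpleGraph W) (H : SimpleGraph V) :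
    inj F H ≤ inj (F.induce F.support) H *
      (Fintype.card V - F.support.ncard).descFactorial (F.supportᶜ.ncard) := by
  classical
  set S := F.support with hS
  have : Fintype (Copy F H) := Fintype.ofFinite _
  have : Fintype (Copy (F.induce S) H) := Fintype.ofFinite _
  have : Fintype W := Fintype.ofFinite _
  unfold inj
  rw [Nat.card_eq_fintype_card, Nat.card_eq_fintype_card, ← Finset.card_univ,
    ← Finset.card_univ (α := Copy (F.induce S) H)]
  rw [Finset.card_eq_sum_card_fiberwise (f := fun f : Copy F H => f.comp (Copy.induce F S))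
    (t := Finset.univ) (fun f _ => by simp)]
  rw [← smul_eq_mul]
  refine Finset.sum_le_card_nsmul _ _ _ ?_
  intro f' _
  have hcard1 : Fintype.card {x // x ∉ Set.range f'} = Fintype.card V - S.ncard := by
    rw [Fintype.card_subtype_compl]
    congr 1
    have h1 : Fintype.card {x // x ∈ Set.range f'} = Fintype.card S := by
      rw [← Nat.card_eq_fintype_card, ← Nat.card_eq_fintype_card]
      exact (Nat.card_congr (Equiv.ofInjective f' f'.injective)).symm
    rw [h1, ← Nat.card_eq_fintype_card, Nat.card_coe_set_eq]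
  have hcard2 : Fintype.card (Sᶜ : Set W) = Sᶜ.ncard := by
    rw [← Nat.card_eq_fintype_card, Nat.card_coe_set_eq]
  rw [← hcard1, ← hcard2, ← Fintype.card_embedding_eq, ← Fintype.card_subtype]
  have key : ∀ f : Copy F H, f.comp (Copy.induce F S) = f' → ∀ w : (Sᶜ : Set W),
      f w.1 ∉ Set.range f' := by
    rintro f hf w ⟨s, hs⟩
    rw [← hf] at hs
    have h2 : f s.1 = f w.1 := hs
    have h3 : s.1 = w.1 := f.injective h2
    exact w.2 (h3 ▸ s.2)
  refine Fintype.card_le_of_injective
    (fun f : {f : Copy F H // f.comp (Copy.induce F S) = f'} =>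
      (⟨fun w => ⟨f.1 w.1, key f.1 f.2 w⟩, fun a b hab => by
        have h1 : f.1 a.1 = f.1 b.1 := congrArg Subtype.val hab
        exact Subtype.ext (f.1.injective h1)⟩ : (Sᶜ : Set W) ↪ {x // x ∉ Set.range f'})) ?_
  rintro ⟨f, hf⟩ ⟨g, hg⟩ hfg
  apply Subtype.ext
  ext w
  by_cases hw : w ∈ S
  · have h1 : (f.comp (Copy.induce F S)) ⟨w, hw⟩ = (g.comp (Copy.induce F S)) ⟨w, hw⟩ := by
      rw [hf, hg]
    exact h1
  · have h1 := DFunLike.congr_fun hfg ⟨w, hw⟩
    exact congrArg Subtype.val h1

lemma support_ncard_le [Finite W] (F : SimpleGraph W) :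
    F.support.ncard ≤ 2 * F.edgeSet.ncard := by
  classical
  have hsub : (Set.toFinite F.support).toFinset ⊆
      (Set.toFinite F.edgeSet).toFinset.biUnion Sym2.toFinset := by
    intro v hv
    rw [Set.Finite.mem_toFinset, mem_support] at hv
    obtain ⟨w, hw⟩ := hv
    rw [Finset.mem_biUnion]
    exact ⟨s(v, w), by simpa using hw, by simp⟩
  rw [Set.ncard_eq_toFinset_card F.support (Set.toFinite _),
    Set.ncard_eq_toFinset_card F.edgeSet (Set.toFinite _), mul_comm]
  refine (Finset.card_le_card hsub).trans ?_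
  apply Finset.card_biUnion_le_card_mul
  intro e _
  rw [Sym2.card_toFinset]
  split_ifs <;> omega

lemma ncard_edgeSet_induce_support [Finite W] (F : SimpleGraph W) :
    (F.induce F.support).edgeSet.ncard = F.edgeSet.ncard := by
  have h1 := ncard_edgeSet_split F F.support
    (fun a b hab _ => (mem_support F).2 ⟨a, hab.symm⟩)
  have h2 : (F.induce F.supportᶜ).edgeSet = ∅ := by
    ext e
    induction e using Sym2.ind with
    | _ a b =>
      simp only [mem_edgeSet, comap_adj, Function.Embedding.subtype_apply, Set.mem_empty_iff_false,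
        iff_false]
      intro hab
      exact a.2 ((mem_support F).2 ⟨b, hab⟩)
  rw [h2, Set.ncard_empty, add_zero] at h1
  exact h1.symm

lemma pow_le_exp_mul_descFactorial {n v : ℕ} (h : v ≤ n) :
    (n : ℝ) ^ v ≤ Real.exp v * (n.descFactorial v : ℝ) := by
  have h1 := choose_mul_pow_le h v
  rw [Nat.choose_self, one_mul] at h1
  have h2 := Real.pow_div_factorial_le_exp (v : ℝ) (Nat.cast_nonneg v) v
  have hfac : (0 : ℝ) < (v.factorial : ℝ) := by exact_mod_cast Nat.factorial_pos _
  rw [div_le_iff₀ hfac] at h2
  have h3 : (n : ℝ) ^ v ≤ (n.choose v : ℝ) * (v : ℝ) ^ v := by exact_mod_cast h1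
  rw [Nat.descFactorial_eq_factorial_mul_choose]
  push_cast
  calc (n : ℝ) ^ v ≤ (n.choose v : ℝ) * (v : ℝ) ^ v := h3
    _ ≤ (n.choose v : ℝ) * (Real.exp v * (v.factorial : ℝ)) :=
        mul_le_mul_of_nonneg_left h2 (Nat.cast_nonneg _)
    _ = _ := by ring

/-- **Reduction to connected graphs.**  If `inj(F,H) ≤ n^{v(F)} x^{e(F)}` for all connected `F ⊆ H`
with at least one edge, then `N(H,F) ≤ N(K_n,F) (e^2 x)^{e(F)}` for every graph `F` on at most `n`
vertices. -/
theorem reduction [Fintype V] (H : SimpleGraph V) (n : ℕ) (hcard : Fintype.card V ≤ n)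
    (x : ℝ) (hx : 0 ≤ x)
    (hconn : ∀ (W : Type u) [Finite W] (F : SimpleGraph W), F.Connected → F.edgeSet.Nonempty →
      F ⊑ H → (inj F H : ℝ) ≤ (n : ℝ) ^ (Nat.card W) * x ^ F.edgeSet.ncard)
    (W : Type u) [Fintype W] (F : SimpleGraph W) (hW : Fintype.card W ≤ n) :
    (H.copyCount F : ℝ) ≤ ((⊤ : SimpleGraph (Fin n)).copyCount F : ℝ)
      * (Real.exp 2 * x) ^ F.edgeSet.ncard := by
  set S := F.support with hS
  set v' := S.ncard with hv'
  set z := Sᶜ.ncard with hz
  set e := F.edgeSet.ncard with he
  have hsum : v' + z = Fintype.card W := by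
    rw [← Nat.card_eq_fintype_card]; exact Set.ncard_add_ncard_compl S
  have h1 : ((H.copyCount F : ℕ) : ℝ) * (n.descFactorial (Fintype.card W) : ℝ)
      = (inj F H : ℝ) * ((⊤ : SimpleGraph (Fin n)).copyCount F : ℝ) := by
    exact_mod_cast copyCount_mul_descFactorial F H n
  have h2 : (inj F H : ℝ) ≤ (inj (F.induce S) H : ℝ) * ((n - v').descFactorial z : ℝ) := by
    have ha := inj_le_support F H
    have hb : (Fintype.card V - v').descFactorial z ≤ (n - v').descFactorial z :=
      Nat.descFactorial_le z (by omega)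
    exact_mod_cast ha.trans (Nat.mul_le_mul_left _ hb)
  have h3 : (inj (F.induce S) H : ℝ) ≤ (n : ℝ) ^ v' * x ^ e := by
    have := inj_le_of_connected H n hcard x hx hconn S (F.induce S)
    rwa [Nat.card_coe_set_eq, ncard_edgeSet_induce_support] at this
  have h4 : (n : ℝ) ^ v' ≤ Real.exp v' * (n.descFactorial v' : ℝ) :=
    pow_le_exp_mul_descFactorial (by omega)
  have h5 : ((n - v').descFactorial z : ℝ) * (n.descFactorial v' : ℝ)
      = (n.descFactorial (Fintype.card W) : ℝ) := by
    have := Nat.descFactorial_mul_descFactorial (n := n) (k := v') (m := Fintype.card W) (by omega)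
    have hz' : Fintype.card W - v' = z := by omega
    rw [hz'] at this
    exact_mod_cast this
  have h6 : v' ≤ 2 * e := support_ncard_le F
  have h7 : Real.exp v' ≤ Real.exp 2 ^ e := by
    rw [← Real.exp_nat_mul]
    apply Real.exp_le_exp.2
    have : (v' : ℝ) ≤ ((2 * e : ℕ) : ℝ) := by exact_mod_cast h6
    push_cast at this
    linarith
  have hpos : (0 : ℝ) < (n.descFactorial (Fintype.card W) : ℝ) := by
    exact_mod_cast Nat.descFactorial_pos.2 hW
  have hxe : 0 ≤ x ^ e := pow_nonneg hx _
  have hN : (0 : ℝ) ≤ ((⊤ : SimpleGraph (Fin n)).copyCount F : ℝ) := Nat.cast_nonneg _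
  have hmain : ((H.copyCount F : ℕ) : ℝ) * (n.descFactorial (Fintype.card W) : ℝ)
      ≤ (((⊤ : SimpleGraph (Fin n)).copyCount F : ℝ) * (Real.exp 2 * x) ^ e)
        * (n.descFactorial (Fintype.card W) : ℝ) := by
    rw [h1]
    calc (inj F H : ℝ) * ((⊤ : SimpleGraph (Fin n)).copyCount F : ℝ)
        ≤ ((inj (F.induce S) H : ℝ) * ((n - v').descFactorial z : ℝ))
            * ((⊤ : SimpleGraph (Fin n)).copyCount F : ℝ) := mul_le_mul_of_nonneg_right h2 hN
      _ ≤ (((Real.exp 2 ^ e * (n.descFactorial v' : ℝ)) * x ^ e) * ((n - v').descFactorial z : ℝ))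
            * ((⊤ : SimpleGraph (Fin n)).copyCount F : ℝ) := by
          apply mul_le_mul_of_nonneg_right _ hN
          apply mul_le_mul_of_nonneg_right _ (Nat.cast_nonneg _)
          refine h3.trans ?_
          apply mul_le_mul_of_nonneg_right _ hxe
          exact h4.trans (mul_le_mul_of_nonneg_right h7 (Nat.cast_nonneg _))
      _ = (((⊤ : SimpleGraph (Fin n)).copyCount F : ℝ) * (Real.exp 2 * x) ^ e)
            * (((n - v').descFactorial z : ℝ) * (n.descFactorial v' : ℝ)) := by
          rw [mul_pow]; ring
      _ = _ := by rw [h5]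
  exact le_of_mul_le_mul_right hmain hpos

end Vale.Agent.Lib.P064
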