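import Mathlib

/-!
# A numerical estimate for the fragment argument (pure Mathlib)

`C(2^(k+1), t) ≤ 2^(2^(k+1)) = 4^(2^k)`, geometric series `∑_{t ≥ 2^k} 16^(-t) = 16^(-2^k) 16/15`,
`4^(-2^k) ≤ 4^(-(k+1))` as `k + 1 ≤ 2^k`.
-/

namespace Vale.Agent.Lib.P064

open Finset

lemma geom_range (d : ℕ) :
    ∑ t ∈ Finset.range d, (1 / 16 : ℝ) ^ t = 16 / 15 * (1 - (1 / 16 : ℝ) ^ d) := by
  induction d with
  | zero => simp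
  | succ d ih =>
    rw [Finset.sum_range_succ, ih, pow_succ]
    ring

lemma geom_tail_le (a b : ℕ) :
    ∑ t ∈ Finset.Icc a b, (1 / 16 : ℝ) ^ t ≤ 16 / 15 * (1 / 16 : ℝ) ^ a := by
  have h : Finset.Icc a b = Finset.Ico a (b + 1) := by
    ext t
    simp only [Finset.mem_Icc, Finset.mem_Ico]
    omega
  rw [h, Finset.sum_Ico_eq_sum_range]
  simp only [pow_add]
  rw [← Finset.mul_sum, geom_range]
  have h1 : (0 : ℝ) ≤ (1 / 16 : ℝ) ^ a := by positivity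
  have h2 : (0 : ℝ) ≤ (1 / 16 : ℝ) ^ (b + 1 - a) := by positivity
  nlinarith [mul_nonneg h1 h2]

lemma fail_sum_le (k : ℕ) :
    ∑ t ∈ Finset.Icc (2 ^ k) (2 ^ (k + 1)), ((2 ^ (k + 1)).choose t : ℝ) * (1 / 16 : ℝ) ^ t
      ≤ 16 / 15 * (1 / 4 : ℝ) ^ (k + 1) := by
  have h1 : ∀ t ∈ Finset.Icc (2 ^ k) (2 ^ (k + 1)),
      ((2 ^ (k + 1)).choose t : ℝ) * (1 / 16 : ℝ) ^ t ≤ (4 : ℝ) ^ (2 ^ k) * (1 / 16 : ℝ) ^ t := by
    intro t _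
    refine mul_le_mul_of_nonneg_right ?_ (by positivity)
    have h2 : (2 ^ (k + 1)).choose t ≤ 2 ^ (2 ^ (k + 1)) := Nat.choose_le_two_pow _ _
    have h3 : (2 : ℝ) ^ (2 ^ (k + 1)) = (4 : ℝ) ^ (2 ^ k) := by
      rw [pow_succ 2 k, mul_comm, pow_mul]
      norm_num
    rw [← h3]
    exact_mod_cast h2
  refine (Finset.sum_le_sum h1).trans ?_
  rw [← Finset.mul_sum]
  have h4 := geom_tail_le (2 ^ k) (2 ^ (k + 1))
  have h5 : (4 : ℝ) ^ (2 ^ k) * (16 / 15 * (1 / 16 : ℝ) ^ (2 ^ k)) = 16 / 15 * (1 / 4 : ℝ) ^ (2 ^ k) := by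
    have : (4 : ℝ) ^ (2 ^ k) * (1 / 16 : ℝ) ^ (2 ^ k) = (1 / 4 : ℝ) ^ (2 ^ k) := by
      rw [← mul_pow]; norm_num
    rw [← this]; ring
  calc (4 : ℝ) ^ (2 ^ k) * ∑ t ∈ Finset.Icc (2 ^ k) (2 ^ (k + 1)), (1 / 16 : ℝ) ^ t
      ≤ (4 : ℝ) ^ (2 ^ k) * (16 / 15 * (1 / 16 : ℝ) ^ (2 ^ k)) :=
        mul_le_mul_of_nonneg_left h4 (by positivity)
    _ = 16 / 15 * (1 / 4 : ℝ) ^ (2 ^ k) := h5
    _ ≤ 16 / 15 * (1 / 4 : ℝ) ^ (k + 1) := by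
        refine mul_le_mul_of_nonneg_left ?_ (by norm_num)
        refine pow_le_pow_of_le_one (by norm_num) (by norm_num) ?_
        exact Nat.lt_two_pow_self

end Vale.Agent.Lib.P064
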