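import Vale.Agent.Lib.P064.SpreadRound
import Vale.Agent.Lib.P064.SpreadNum

/-!
# The spread lemma: a `κ`-spread family of sets of size `< 2^k` is hit by the random set of density
`1 - (1 - 16 κ)^k` with probability at least `1/2`.
-/

namespace Vale.Agent.Lib.P064

open Finset

variable {α ι : Type*} [DecidableEq α]

open Classical in
/-- indicator of the event that `W` contains one of the fragments -/
noncomputable def hit (Ω' : Finset ι) (F : ι → Finset α) (W : Finset α) : ℝ :=
  if ∃ S ∈ Ω', F S ⊆ W then 1 else 0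

lemma hit_nonneg (Ω' : Finset ι) (F : ι → Finset α) (W : Finset α) : 0 ≤ hit Ω' F W := by
  unfold hit; split_ifs <;> norm_num

lemma hit_le_one (Ω' : Finset ι) (F : ι → Finset α) (W : Finset α) : hit Ω' F W ≤ 1 := by
  unfold hit; split_ifs <;> norm_num

lemma hit_mono (Ω' : Finset ι) (F : ι → Finset α) {W W' : Finset α} (h : W ⊆ W') :
    hit Ω' F W ≤ hit Ω' F W' := by
  unfold hit
  by_cases h1 : ∃ S ∈ Ω', F S ⊆ W
  · have h2 : ∃ S ∈ Ω', F S ⊆ W' := by
      obtain ⟨S, hS, hSW⟩ := h1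
      exact ⟨S, hS, hSW.trans h⟩
    rw [if_pos h1, if_pos h2]
  · rw [if_neg h1]
    split_ifs <;> norm_num

/-- the error after `k` rounds -/
noncomputable def errK (k : ℕ) : ℝ := 16 / 45 * (1 - (1 / 4 : ℝ) ^ k)

lemma errK_succ (k : ℕ) : errK (k + 1) = errK k + 16 / 15 * (1 / 4 : ℝ) ^ (k + 1) := by
  unfold errK
  rw [pow_succ]
  ring

lemma errK_le (k : ℕ) : errK k ≤ 1 / 2 := by
  unfold errK
  have : (0 : ℝ) ≤ (1 / 4 : ℝ) ^ k := by positivity
  nlinarith

theorem spread_rounds [DecidableEq ι] (X : Finset α) (Ω : Finset ι) (A : ι → Finset α) (κ : ℝ) (hκ : 0 < κ)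
    (hκ1 : 16 * κ ≤ 1)
    (hspread : ∀ T : Finset α, ((Ω.filter fun S => T ⊆ A S).card : ℝ) ≤ κ ^ T.card * Ω.card) :
    ∀ (k : ℕ) (Ω' : Finset ι), Ω' ⊆ Ω → ∀ F : ι → Finset α, (∀ S ∈ Ω', F S ⊆ A S) →
      (∀ S ∈ Ω', F S ⊆ X) → (∀ S ∈ Ω', (F S).card < 2 ^ k) →
      (Ω'.card : ℝ) * (1 - ∑ W ∈ X.powerset, wt X (1 - (1 - 16 * κ) ^ k) W * hit Ω' F W)
        ≤ Ω.card * errK k := by
  have hp : 0 < 16 * κ := by positivity
  intro k
  induction k with
  | zero =>
    intro Ω' _ F _ _ hF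
    rcases Ω'.eq_empty_or_nonempty with rfl | ⟨S0, hS0⟩
    · simp [errK]
    · have hhit : ∀ W : Finset α, hit Ω' F W = 1 := by
        intro W
        unfold hit
        rw [if_pos]
        refine ⟨S0, hS0, ?_⟩
        have := hF S0 hS0
        rw [pow_zero, Nat.lt_one_iff, Finset.card_eq_zero] at this
        rw [this]
        exact Finset.empty_subset _
      simp only [hhit, mul_one, sum_wt, sub_self, mul_zero]
      unfold errK
      simp
  | succ k ih =>
    intro Ω' hΩ F hFA hFX hF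
    obtain ⟨T, hT1, hT2⟩ := spread_round X Ω A κ hκ.le hspread (16 * κ) hp hκ1 Ω' hΩ F hFA hFX
      (2 ^ (k + 1)) (fun S hS => (hF S hS).le)
    have hTsub : ∀ W, ∀ S ∈ Ω', T W S ⊆ F S := by
      intro W S hS
      obtain ⟨S', _, h1, h2⟩ := hT1 W S hS
      rw [h1]
      intro x hx
      rw [Finset.mem_sdiff] at hx
      rcases Finset.mem_union.1 (h2 hx.1) with h | h
      · exact absurd h hx.2
      · exact h
    set pk : ℝ := 1 - (1 - 16 * κ) ^ k with hpk
    have hb0 : 0 ≤ 1 - 16 * κ := by linarith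
    have hb1 : 1 - 16 * κ ≤ 1 := by linarith
    have hpk0 : 0 ≤ pk := by
      have := pow_le_one₀ hb0 hb1 (n := k)
      linarith
    have hpk1 : pk ≤ 1 := by
      have : 0 ≤ (1 - 16 * κ) ^ k := pow_nonneg hb0 k
      linarith
    -- the state after the first round
    set Ω2 : Finset α → Finset ι := fun W => Ω'.filter fun S => (T W S).card < 2 ^ k with hΩ2
    set e2 : Finset α → ℝ := fun W1 => ∑ W ∈ X.powerset, wt X pk W * hit (Ω2 W1) (T W1) W with he2
    have hih : ∀ W1, ((Ω2 W1).card : ℝ) * (1 - e2 W1) ≤ Ω.card * errK k := by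
      intro W1
      refine ih (Ω2 W1) ((Finset.filter_subset _ _).trans hΩ) (T W1) ?_ ?_ ?_
      · intro S hS
        have hS' := (Finset.mem_filter.1 hS).1
        exact (hTsub W1 S hS').trans (hFA S hS')
      · intro S hS
        have hS' := (Finset.mem_filter.1 hS).1
        exact (hTsub W1 S hS').trans (hFX S hS')
      · intro S hS
        exact (Finset.mem_filter.1 hS).2
    have he2nn : ∀ W1, 0 ≤ e2 W1 := by
      intro W1
      exact Finset.sum_nonneg fun W _ => mul_nonneg (wt_nonneg X hpk0 hpk1 W) (hit_nonneg _ _ _)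
    -- link between the two states
    have hlink : ∀ W1 W2, hit (Ω2 W1) (T W1) W2 ≤ hit Ω' F (W1 ∪ W2) := by
      intro W1 W2
      unfold hit
      by_cases h1 : ∃ S ∈ Ω2 W1, T W1 S ⊆ W2
      · have h2 : ∃ S ∈ Ω', F S ⊆ W1 ∪ W2 := by
          obtain ⟨S, hS, hSW⟩ := h1
          have hS' := (Finset.mem_filter.1 hS).1
          obtain ⟨S', hS'mem, h3, _⟩ := hT1 W1 S hS'
          refine ⟨S', hS'mem, ?_⟩
          intro x hx
          by_cases hxW : x ∈ W1
          · exact Finset.mem_union_left _ hxW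
          · apply Finset.mem_union_right
            apply hSW
            rw [h3, Finset.mem_sdiff]
            exact ⟨hx, hxW⟩
        rw [if_pos h1, if_pos h2]
      · rw [if_neg h1]
        split_ifs <;> norm_num
    have hexp : (1 : ℝ) - (1 - 16 * κ) ^ (k + 1) = 1 - (1 - 16 * κ) * (1 - pk) := by
      rw [hpk, pow_succ]; ring
    have hlow : ∑ W1 ∈ X.powerset, wt X (16 * κ) W1 * e2 W1
        ≤ ∑ W ∈ X.powerset, wt X (1 - (1 - 16 * κ) ^ (k + 1)) W * hit Ω' F W := by
      rw [hexp, ← ex_union]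
      refine Finset.sum_le_sum fun W1 _ => ?_
      rw [he2, Finset.mul_sum]
      refine Finset.sum_le_sum fun W2 _ => ?_
      rw [← mul_assoc]
      exact mul_le_mul_of_nonneg_left (hlink W1 W2)
        (mul_nonneg (wt_nonneg X hp.le hκ1 W1) (wt_nonneg X hpk0 hpk1 W2))
    -- number of failures in the first round
    set fl : Finset α → ℝ := fun W => ((Ω'.filter fun S => ¬ (T W S).card < 2 ^ k).card : ℝ) with hfl
    have hcard : ∀ W, (Ω'.card : ℝ) = ((Ω2 W).card : ℝ) + fl W := by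
      intro W
      have := Finset.card_filter_add_card_filter_not (s := Ω') (fun S => (T W S).card < 2 ^ k)
      show (Ω'.card : ℝ) = ((Ω'.filter fun S => (T W S).card < 2 ^ k).card : ℝ)
        + ((Ω'.filter fun S => ¬ (T W S).card < 2 ^ k).card : ℝ)
      exact_mod_cast this.symm
    have hfail : ∑ W ∈ X.powerset, wt X (16 * κ) W * fl W
        ≤ Ω.card * (16 / 15 * (1 / 4 : ℝ) ^ (k + 1)) := by
      have h1 : ∀ W, fl W = ∑ t ∈ Finset.Icc (2 ^ k) (2 ^ (k + 1)),
          ((Ω'.filter fun S => (T W S).card = t).card : ℝ) := by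
        intro W
        show ((Ω'.filter fun S => ¬ (T W S).card < 2 ^ k).card : ℝ) = _
        rw [← Nat.cast_sum]
        congr 1
        rw [Finset.card_eq_sum_card_fiberwise (f := fun S => (T W S).card)
          (t := Finset.Icc (2 ^ k) (2 ^ (k + 1)))]
        · refine Finset.sum_congr rfl fun t ht => ?_
          congr 1
          ext S
          simp only [Finset.mem_filter, Finset.mem_Icc] at ht ⊢
          constructor
          · rintro ⟨⟨h1, _⟩, h3⟩
            exact ⟨h1, h3⟩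
          · rintro ⟨h1, h3⟩
            exact ⟨⟨h1, by omega⟩, h3⟩
        · intro S hS
          simp only [Finset.coe_filter, Set.mem_ofPred_eq] at hS
          simp only [Finset.coe_Icc, Set.mem_Icc]
          have := Finset.card_le_card (hTsub W S hS.1)
          have := hF S hS.1
          omega
      calc ∑ W ∈ X.powerset, wt X (16 * κ) W * fl W
          = ∑ t ∈ Finset.Icc (2 ^ k) (2 ^ (k + 1)), ∑ W ∈ X.powerset,
              wt X (16 * κ) W * ((Ω'.filter fun S => (T W S).card = t).card : ℝ) := by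
            rw [Finset.sum_comm]
            refine Finset.sum_congr rfl fun W _ => ?_
            rw [h1 W, Finset.mul_sum]
        _ ≤ ∑ t ∈ Finset.Icc (2 ^ k) (2 ^ (k + 1)),
              ((2 ^ (k + 1)).choose t : ℝ) * (κ / (16 * κ)) ^ t * Ω.card :=
            Finset.sum_le_sum fun t _ => hT2 t
        _ = Ω.card * ∑ t ∈ Finset.Icc (2 ^ k) (2 ^ (k + 1)),
              ((2 ^ (k + 1)).choose t : ℝ) * (1 / 16 : ℝ) ^ t := by
            rw [Finset.mul_sum]
            refine Finset.sum_congr rfl fun t _ => ?_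
            have : κ / (16 * κ) = 1 / 16 := by field_simp
            rw [this]; ring
        _ ≤ _ := mul_le_mul_of_nonneg_left (fail_sum_le k) (Nat.cast_nonneg _)
    have hflnn : ∀ W, 0 ≤ fl W := fun W => Nat.cast_nonneg _
    calc (Ω'.card : ℝ) * (1 - ∑ W ∈ X.powerset, wt X (1 - (1 - 16 * κ) ^ (k + 1)) W * hit Ω' F W)
        ≤ (Ω'.card : ℝ) * (1 - ∑ W1 ∈ X.powerset, wt X (16 * κ) W1 * e2 W1) := by
          refine mul_le_mul_of_nonneg_left ?_ (Nat.cast_nonneg _)
          linarith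
      _ = ∑ W1 ∈ X.powerset, wt X (16 * κ) W1 * ((Ω'.card : ℝ) * (1 - e2 W1)) := by
          have h1 : (1 : ℝ) = ∑ W1 ∈ X.powerset, wt X (16 * κ) W1 := (sum_wt X _).symm
          nth_rewrite 1 [h1]
          rw [← Finset.sum_sub_distrib, Finset.mul_sum]
          refine Finset.sum_congr rfl fun W1 _ => ?_
          ring
      _ ≤ ∑ W1 ∈ X.powerset, wt X (16 * κ) W1 * (Ω.card * errK k + fl W1) := by
          refine Finset.sum_le_sum fun W1 _ => ?_
          refine mul_le_mul_of_nonneg_left ?_ (wt_nonneg X hp.le hκ1 W1)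
          rw [hcard W1, add_mul]
          have h2 : fl W1 * (1 - e2 W1) ≤ fl W1 := by
            have := he2nn W1
            nlinarith [hflnn W1]
          linarith [hih W1]
      _ = Ω.card * errK k + ∑ W1 ∈ X.powerset, wt X (16 * κ) W1 * fl W1 := by
          simp only [mul_add, Finset.sum_add_distrib]
          rw [← Finset.sum_mul, sum_wt, one_mul]
      _ ≤ Ω.card * errK k + Ω.card * (16 / 15 * (1 / 4 : ℝ) ^ (k + 1)) := by linarith
      _ = _ := by rw [errK_succ]; ring

/-- **Spread lemma.** -/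
theorem spread_lemma [DecidableEq ι] (X : Finset α) (Ω : Finset ι) (hΩ : Ω.Nonempty) (A : ι → Finset α) (κ : ℝ)
    (hκ : 0 < κ) (hκ1 : 16 * κ ≤ 1)
    (hspread : ∀ T : Finset α, ((Ω.filter fun S => T ⊆ A S).card : ℝ) ≤ κ ^ T.card * Ω.card)
    (k : ℕ) (hAX : ∀ S ∈ Ω, A S ⊆ X) (hAk : ∀ S ∈ Ω, (A S).card < 2 ^ k) :
    1 / 2 ≤ ∑ W ∈ X.powerset, wt X (1 - (1 - 16 * κ) ^ k) W * hit Ω A W := by
  have h := spread_rounds X Ω A κ hκ hκ1 hspread k Ω (Finset.Subset.refl _) A
    (fun _ _ => Finset.Subset.refl _) hAX hAk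
  have hpos : (0 : ℝ) < (Ω.card : ℝ) := by exact_mod_cast hΩ.card_pos
  have h2 : (Ω.card : ℝ) * (1 - ∑ W ∈ X.powerset, wt X (1 - (1 - 16 * κ) ^ k) W * hit Ω A W)
      ≤ Ω.card * (1 / 2) := h.trans (mul_le_mul_of_nonneg_left (errK_le k) hpos.le)
  have h3 := le_of_mul_le_mul_left h2 hpos
  linarith

end Vale.Agent.Lib.P064
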