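import Vale.Agent.Lib.P064.ProdMeasure

/-!
# One round of the Park and Pham / FKNP fragment argument, for a spread family

`Ω` indexes the family, `A S` are its members, `κ`-spread: `#{S ∈ Ω : T ⊆ A S} ≤ κ^|T| |Ω|`.
A state is `Ω' ⊆ Ω` with fragments `F S ⊆ A S`, `|F S| ≤ r`.  For a set `W` let `T W S` be a set of
minimum size among `{F S' \ W : S' ∈ Ω', F S' ⊆ W ∪ F S}` (`S' = S` is a candidate).

Counting: fix `t`. Map a pair `(W,S)` with `|T W S| = t` to `(Z, T, S)`, `T = T W S`, `Z = W ∪ T`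
(disjoint union, so `W = Z \ T` and `wt W = wt Z ((1-p)/p)^t ≤ wt Z p^(-t)`).
Let `ψ Z ∈ Ω'` be a fixed choice with `F (ψ Z) ⊆ Z` (exists, as `T = F S' \ W`).
Then `F (ψ Z) ⊆ W ∪ T ⊆ W ∪ F S`, so by minimality `|T| ≤ |F (ψ Z) \ W|`, while
`F (ψ Z) \ W ⊆ Z \ W ⊆ T`; hence `T = F (ψ Z) \ W ⊆ F (ψ Z)`: at most `C(r,t)` choices of `T`
given `Z`.  Given `T`, `S` satisfies `T ⊆ F S ⊆ A S`: at most `κ^t |Ω|` choices.
Finally `∑_Z wt Z = 1`.
-/

namespace Vale.Agent.Lib.P064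

open Finset

variable {α ι : Type*} [DecidableEq α] [DecidableEq ι]

theorem spread_round (X : Finset α) (Ω : Finset ι) (A : ι → Finset α) (κ : ℝ) (hκ : 0 ≤ κ)
    (hspread : ∀ T : Finset α, ((Ω.filter fun S => T ⊆ A S).card : ℝ) ≤ κ ^ T.card * Ω.card)
    (p : ℝ) (hp : 0 < p) (hp1 : p ≤ 1)
    (Ω' : Finset ι) (hΩ : Ω' ⊆ Ω) (F : ι → Finset α) (hFA : ∀ S ∈ Ω', F S ⊆ A S)
    (hFX : ∀ S ∈ Ω', F S ⊆ X) (r : ℕ) (hr : ∀ S ∈ Ω', (F S).card ≤ r) :
    ∃ T : Finset α → ι → Finset α,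
      (∀ W, ∀ S ∈ Ω', ∃ S' ∈ Ω', T W S = F S' \ W ∧ F S' ⊆ W ∪ F S) ∧
      ∀ t : ℕ, ∑ W ∈ X.powerset, wt X p W * ((Ω'.filter fun S => (T W S).card = t).card : ℝ)
        ≤ (r.choose t : ℝ) * (κ / p) ^ t * Ω.card := by
  classical
  -- the minimal fragments
  have key : ∀ (W : Finset α) (S : ι), ∃ R : Finset α, S ∈ Ω' →
      (∃ S' ∈ Ω', R = F S' \ W ∧ F S' ⊆ W ∪ F S) ∧
      ∀ S'' ∈ Ω', F S'' ⊆ W ∪ F S → R.card ≤ (F S'' \ W).card := by
    intro W S
    by_cases hS : S ∈ Ω'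
    · have hne : (Ω'.filter fun S' => F S' ⊆ W ∪ F S).Nonempty :=
        ⟨S, by simp [hS, Finset.subset_union_right]⟩
      obtain ⟨S', hS', hmin⟩ := Finset.exists_min_image _ (fun S' => (F S' \ W).card) hne
      rw [Finset.mem_filter] at hS'
      exact ⟨F S' \ W, fun _ => ⟨⟨S', hS'.1, rfl, hS'.2⟩,
        fun S'' h1 h2 => hmin S'' (Finset.mem_filter.2 ⟨h1, h2⟩)⟩⟩
    · exact ⟨∅, fun h => absurd h hS⟩
  choose T hT using key
  refine ⟨T, fun W S hS => (hT W S hS).1, fun t => ?_⟩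
  -- a fixed member inside `Z`
  have keyG : ∀ Z : Finset α, ∃ G : Finset α, G.card ≤ r ∧
      ((∃ S' ∈ Ω', F S' ⊆ Z) → ∃ S' ∈ Ω', G = F S' ∧ F S' ⊆ Z) := by
    intro Z
    by_cases h : ∃ S' ∈ Ω', F S' ⊆ Z
    · obtain ⟨S', h1, h2⟩ := h
      exact ⟨F S', hr S' h1, fun _ => ⟨S', h1, rfl, h2⟩⟩
    · exact ⟨∅, by simp, fun h' => absurd h' h⟩
  choose G hGr hG using keyG
  set D : Finset (Finset α × ι) :=
    (X.powerset ×ˢ Ω').filter (fun x => (T x.1 x.2).card = t) with hD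
  have h1 : ∑ W ∈ X.powerset, wt X p W * ((Ω'.filter fun S => (T W S).card = t).card : ℝ)
      = ∑ x ∈ D, wt X p x.1 := by
    rw [hD, Finset.sum_filter, Finset.sum_product]
    refine Finset.sum_congr rfl fun W _ => ?_
    rw [← Finset.sum_filter]
    simp only [Finset.sum_const, nsmul_eq_mul]
    rw [mul_comm]
  -- structural facts about a pair in `D`
  have hfacts : ∀ x ∈ D, x.1 ∪ T x.1 x.2 ⊆ X ∧ Disjoint x.1 (T x.1 x.2) ∧
      T x.1 x.2 ⊆ G (x.1 ∪ T x.1 x.2) ∧ T x.1 x.2 ⊆ A x.2 ∧ x.2 ∈ Ω ∧ (T x.1 x.2).card = t := by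
    rintro ⟨W, S⟩ hx
    rw [hD, Finset.mem_filter, Finset.mem_product, Finset.mem_powerset] at hx
    obtain ⟨⟨hW, hS⟩, hcard⟩ := hx
    simp only at hW hS hcard ⊢
    obtain ⟨⟨S', hS', hTeq, hsub⟩, hmin⟩ := hT W S hS
    have hTF : T W S ⊆ F S := by
      intro a ha
      rw [hTeq, Finset.mem_sdiff] at ha
      rcases Finset.mem_union.1 (hsub ha.1) with h | h
      · exact absurd h ha.2
      · exact h
    have hdisj : Disjoint W (T W S) := by
      rw [hTeq]; exact Finset.disjoint_sdiff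
    have hex : ∃ S' ∈ Ω', F S' ⊆ W ∪ T W S := by
      refine ⟨S', hS', fun a ha => ?_⟩
      by_cases haW : a ∈ W
      · exact Finset.mem_union_left _ haW
      · exact Finset.mem_union_right _ (by rw [hTeq]; exact Finset.mem_sdiff.2 ⟨ha, haW⟩)
    obtain ⟨S0, hS0, hGeq, hS0sub⟩ := hG _ hex
    have hS0' : F S0 ⊆ W ∪ F S :=
      hS0sub.trans (Finset.union_subset_union_right hTF)
    have hle := hmin S0 hS0 hS0'
    have hsub2 : F S0 \ W ⊆ T W S := by
      intro a ha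
      rw [Finset.mem_sdiff] at ha
      rcases Finset.mem_union.1 (hS0sub ha.1) with h | h
      · exact absurd h ha.2
      · exact h
    have heq : F S0 \ W = T W S := Finset.eq_of_subset_of_card_le hsub2 hle
    refine ⟨Finset.union_subset hW (hTF.trans (hFX S hS)), hdisj, ?_, hTF.trans (hFA S hS),
      hΩ hS, hcard⟩
    rw [hGeq, ← heq]
    exact Finset.sdiff_subset
  have hq : 0 ≤ (1 - p) / p := div_nonneg (by linarith) hp.le
  have hq1 : (1 - p) / p ≤ 1 / p := by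
    apply div_le_div_of_nonneg_right _ hp.le
    linarith
  -- step 2: compare weights
  have h2 : ∑ x ∈ D, wt X p x.1 ≤ ∑ x ∈ D, wt X p (x.1 ∪ T x.1 x.2) * (1 / p) ^ t := by
    refine Finset.sum_le_sum fun x hx => ?_
    obtain ⟨hZX, hdisj, -, -, -, hcard⟩ := hfacts x hx
    have hW : (x.1 ∪ T x.1 x.2) \ T x.1 x.2 = x.1 := by
      rw [Finset.union_sdiff_right]
      exact Finset.sdiff_eq_self_of_disjoint hdisj
    have := wt_sdiff X hp.ne' (Finset.subset_union_right (s₁ := x.1) (s₂ := T x.1 x.2)) hZX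
    rw [hW, hcard] at this
    rw [this]
    exact mul_le_mul_of_nonneg_left (pow_le_pow_left₀ hq hq1 t) (wt_nonneg X hp.le hp1 _)
  -- step 3: fibre over `Z`
  have h3 : ∑ x ∈ D, wt X p (x.1 ∪ T x.1 x.2) * (1 / p) ^ t
      = ∑ Z ∈ X.powerset, wt X p Z * (1 / p) ^ t *
          ((D.filter fun x => x.1 ∪ T x.1 x.2 = Z).card : ℝ) := by
    rw [← Finset.sum_fiberwise_of_maps_to (s := D) (t := X.powerset)
      (g := fun x => x.1 ∪ T x.1 x.2)
      (fun x hx => Finset.mem_powerset.2 (hfacts x hx).1)]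
    refine Finset.sum_congr rfl fun Z _ => ?_
    rw [Finset.sum_congr rfl (g := fun _ => wt X p Z * (1 / p) ^ t)
      (fun x hx => by rw [(Finset.mem_filter.1 hx).2])]
    rw [Finset.sum_const, nsmul_eq_mul, mul_comm]
  -- step 4: size of a fibre
  have h4 : ∀ Z : Finset α, ((D.filter fun x => x.1 ∪ T x.1 x.2 = Z).card : ℝ)
      ≤ (r.choose t : ℝ) * (κ ^ t * Ω.card) := by
    intro Z
    have hinj : (D.filter fun x => x.1 ∪ T x.1 x.2 = Z).card ≤
        ((Finset.powersetCard t (G Z)).sigma fun R => Ω.filter fun S => R ⊆ A S).card := by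
      refine Finset.card_le_card_of_injOn (fun x => ⟨T x.1 x.2, x.2⟩) ?_ ?_
      · intro x hx
        have hx' := Finset.mem_filter.1 (Finset.mem_coe.1 hx)
        obtain ⟨-, -, hTG, hTA, hSΩ, hcard⟩ := hfacts x hx'.1
        rw [hx'.2] at hTG
        simp only [Finset.coe_sigma, Set.mem_sigma_iff, Finset.mem_coe, Finset.mem_powersetCard,
          Finset.mem_filter]
        exact ⟨⟨hTG, hcard⟩, hSΩ, hTA⟩
      · intro x hx y hy hxy
        have hx' := Finset.mem_filter.1 (Finset.mem_coe.1 hx)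
        have hy' := Finset.mem_filter.1 (Finset.mem_coe.1 hy)
        obtain ⟨-, hdx, -, -, -, -⟩ := hfacts x hx'.1
        obtain ⟨-, hdy, -, -, -, -⟩ := hfacts y hy'.1
        simp only [Sigma.mk.injEq, heq_eq_eq] at hxy
        have e1 : x.1 = Z \ T x.1 x.2 := by
          rw [← hx'.2, Finset.union_sdiff_right]
          exact (Finset.sdiff_eq_self_of_disjoint hdx).symm
        have e2 : y.1 = Z \ T y.1 y.2 := by
          rw [← hy'.2, Finset.union_sdiff_right]
          exact (Finset.sdiff_eq_self_of_disjoint hdy).symm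
        refine Prod.ext ?_ hxy.2
        rw [e1, e2, hxy.1]
    have hcs : (((Finset.powersetCard t (G Z)).sigma fun R => Ω.filter fun S => R ⊆ A S).card : ℝ)
        ≤ (r.choose t : ℝ) * (κ ^ t * Ω.card) := by
      rw [Finset.card_sigma, Nat.cast_sum]
      calc ∑ R ∈ Finset.powersetCard t (G Z), ((Ω.filter fun S => R ⊆ A S).card : ℝ)
          ≤ ∑ R ∈ Finset.powersetCard t (G Z), κ ^ t * Ω.card := by
            refine Finset.sum_le_sum fun R hR => ?_
            have := hspread R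
            rwa [(Finset.mem_powersetCard.1 hR).2] at this
        _ = ((G Z).card.choose t : ℝ) * (κ ^ t * Ω.card) := by
            rw [Finset.sum_const, Finset.card_powersetCard, nsmul_eq_mul]
        _ ≤ (r.choose t : ℝ) * (κ ^ t * Ω.card) := by
            refine mul_le_mul_of_nonneg_right ?_ (by positivity)
            exact_mod_cast Nat.choose_le_choose t (hGr Z)
    exact le_trans (by exact_mod_cast hinj) hcs
  rw [h1]
  refine h2.trans ?_
  rw [h3]
  calc ∑ Z ∈ X.powerset, wt X p Z * (1 / p) ^ t *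
          ((D.filter fun x => x.1 ∪ T x.1 x.2 = Z).card : ℝ)
      ≤ ∑ Z ∈ X.powerset, wt X p Z * ((1 / p) ^ t * ((r.choose t : ℝ) * (κ ^ t * Ω.card))) := by
        refine Finset.sum_le_sum fun Z _ => ?_
        rw [mul_assoc]
        refine mul_le_mul_of_nonneg_left ?_ (wt_nonneg X hp.le hp1 _)
        exact mul_le_mul_of_nonneg_left (h4 Z) (by positivity)
    _ = (r.choose t : ℝ) * (κ / p) ^ t * Ω.card := by
        rw [← Finset.sum_mul, sum_wt, one_mul, div_pow, div_pow, one_pow]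
        ring

end Vale.Agent.Lib.P064
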