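import Mathlib

namespace Vale.Agent.Lib.P064

open Finset

lemma sum_range_choose_col (m k : ℕ) : ∑ j ∈ range m, j.choose k = m.choose (k + 1) := by
  induction m with
  | zero => simp
  | succ m ih => rw [Finset.sum_range_succ, ih, Nat.choose_succ_succ, add_comm]

lemma descFactorial_mul_pow_le {D N : ℕ} (h : D ≤ N) (t : ℕ) :
    D.descFactorial t * N ^ t ≤ N.descFactorial t * D ^ t := by
  induction t with
  | zero => simp
  | succ t ih =>
    rw [Nat.descFactorial_succ, Nat.descFactorial_succ, pow_succ, pow_succ]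
    have h1 : (D - t) * N ≤ (N - t) * D := by
      rcases le_or_gt t D with ht | ht
      · obtain ⟨a, rfl⟩ := Nat.exists_eq_add_of_le ht
        obtain ⟨b, rfl⟩ := Nat.exists_eq_add_of_le h
        have e1 : t + a - t = a := by omega
        have e2 : t + a + b - t = a + b := by omega
        rw [e1, e2]
        nlinarith
      · have : D - t = 0 := by omega
        rw [this]; simp
    calc (D - t) * D.descFactorial t * (N ^ t * N)
        = ((D - t) * N) * (D.descFactorial t * N ^ t) := by ring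
      _ ≤ ((N - t) * D) * (N.descFactorial t * D ^ t) := Nat.mul_le_mul h1 ih
      _ = (N - t) * N.descFactorial t * (D ^ t * D) := by ring

lemma choose_mul_pow_le {D N : ℕ} (h : D ≤ N) (t : ℕ) :
    D.choose t * N ^ t ≤ N.choose t * D ^ t := by
  have h1 := descFactorial_mul_pow_le h t
  rw [Nat.descFactorial_eq_factorial_mul_choose, Nat.descFactorial_eq_factorial_mul_choose] at h1
  have hpos : 0 < t.factorial := Nat.factorial_pos t
  have : t.factorial * (D.choose t * N ^ t) ≤ t.factorial * (N.choose t * D ^ t) := by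
    calc t.factorial * (D.choose t * N ^ t) = t.factorial * D.choose t * N ^ t := by ring
      _ ≤ t.factorial * N.choose t * D ^ t := h1
      _ = t.factorial * (N.choose t * D ^ t) := by ring
  exact Nat.le_of_mul_le_mul_left this hpos

lemma sum_choose_mul_choose_mul_pow (N t : ℕ) (x : ℝ) :
    ∑ d ∈ range (N + 1), (N.choose d : ℝ) * (d.choose t : ℝ) * x ^ d
      = (N.choose t : ℝ) * x ^ t * (1 + x) ^ (N - t) := by
  rcases lt_or_ge N t with h | h
  · rw [Nat.choose_eq_zero_of_lt h]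
    simp only [Nat.cast_zero, zero_mul]
    apply Finset.sum_eq_zero
    intro d hd
    rw [Finset.mem_range] at hd
    rw [Nat.choose_eq_zero_of_lt (by omega : d < t)]
    simp
  · obtain ⟨M, rfl⟩ := Nat.exists_eq_add_of_le h
    rw [add_assoc, Finset.sum_range_add]
    have h0 : ∑ d ∈ range t, ((t + M).choose d : ℝ) * (d.choose t : ℝ) * x ^ d = 0 := by
      apply Finset.sum_eq_zero
      intro d hd
      rw [Finset.mem_range] at hd
      rw [Nat.choose_eq_zero_of_lt hd]
      simp
    rw [h0, zero_add]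
    have e1 : t + M - t = M := by omega
    rw [e1, add_comm (1 : ℝ) x, add_pow, Finset.mul_sum]
    refine Finset.sum_congr rfl fun i _ => ?_
    have h2 : (t + M).choose (t + i) * (t + i).choose t = (t + M).choose t * M.choose i := by
      rw [Nat.choose_mul (Nat.le_add_right t i)]
      congr 2 <;> omega
    have h3 : (((t + M).choose (t + i) : ℕ) : ℝ) * (((t + i).choose t : ℕ) : ℝ)
        = (((t + M).choose t : ℕ) : ℝ) * ((M.choose i : ℕ) : ℝ) := by exact_mod_cast h2
    rw [h3, pow_add]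
    simp only [one_pow, mul_one]
    ring

lemma star_analysis {V : Type*} [Fintype V] (deg : V → ℕ) (n k : ℕ) (q : ℝ)
    (hq0 : 0 ≤ q) (hcard : Fintype.card V ≤ n)
    (hdeg : ∀ v, deg v ≤ n - 1)
    (htail : ∀ j : ℕ, (((univ.filter fun v => j < deg v).card : ℕ) : ℝ)
        ≤ 2 * ((j : ℝ) + 1) * Real.exp 1 * n * (((n - 1).choose (j + 1) : ℕ) : ℝ) * q ^ (j + 1))
    (hsmall : 2 * Real.exp 1 * q ≤ 1) :
    (∑ v, (((deg v).choose (k + 1) : ℕ) : ℝ)) ≤
      n * (((n - 1).choose (k + 1) : ℕ) : ℝ) * q ^ (k + 1) *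
        ((2 * Real.exp 1) ^ (k + 1) + 2 * Real.exp 1 * ((k : ℝ) + 1) * Real.exp ((k : ℝ) + 2)) := by
  set N := n - 1 with hN
  set E := Real.exp 1 with hE
  have hEpos : 0 < E := Real.exp_pos 1
  set a : ℝ := E * q * N with ha
  have ha0 : 0 ≤ a := by positivity
  set D := ⌊2 * a⌋₊ with hD
  have hD1 : (D : ℝ) ≤ 2 * a := Nat.floor_le (by positivity)
  have hD2 : 2 * a < (D : ℝ) + 1 := Nat.lt_floor_add_one _
  have hDN : D ≤ N := by
    have : (D : ℝ) ≤ (N : ℝ) := by
      calc (D : ℝ) ≤ 2 * a := hD1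
        _ = (2 * E * q) * N := by rw [ha]; ring
        _ ≤ 1 * N := by
          apply mul_le_mul_of_nonneg_right hsmall (Nat.cast_nonneg _)
        _ = N := one_mul _
    exact_mod_cast this
  set M : ℕ → ℕ := fun j => (univ.filter fun v => j < deg v).card with hM
  -- Step 1
  have step1 : ∑ v, (deg v).choose (k + 1) = ∑ j ∈ range N, j.choose k * M j := by
    have h1 : ∀ v, (deg v).choose (k + 1) = ∑ j ∈ range N, if j < deg v then j.choose k else 0 := by
      intro v
      rw [← sum_range_choose_col, ← Finset.sum_filter]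
      congr 1
      ext j
      simp only [Finset.mem_range, Finset.mem_filter]
      have := hdeg v
      omega
    rw [Finset.sum_congr rfl (fun v _ => h1 v), Finset.sum_comm]
    refine Finset.sum_congr rfl fun j _ => ?_
    rw [← Finset.sum_filter, Finset.sum_const, smul_eq_mul, mul_comm]
  set x : ℝ := q * E with hx
  have hx0 : 0 ≤ x := by positivity
  set B : ℕ → ℝ := fun j => 2 * E * n * ((k : ℝ) + 1) * Real.exp (-(D : ℝ)) *
    (((N.choose (j + 1) : ℕ) : ℝ) * (((j + 1).choose (k + 1) : ℕ) : ℝ) * x ^ (j + 1)) with hB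
  have hB0 : ∀ j, 0 ≤ B j := by
    intro j
    have := Real.exp_pos (-(D : ℝ))
    positivity
  -- Step 2
  have step2 : ∀ j ∈ range N, ((j.choose k : ℕ) : ℝ) * ((M j : ℕ) : ℝ)
      ≤ (if j < D then (n : ℝ) * ((j.choose k : ℕ) : ℝ) else 0) + B j := by
    intro j _
    split_ifs with hj
    · have h1 : ((M j : ℕ) : ℝ) ≤ n := by
        have : M j ≤ n := (Finset.card_le_univ _).trans hcard
        exact_mod_cast this
      have h2 : ((j.choose k : ℕ) : ℝ) * ((M j : ℕ) : ℝ) ≤ (n : ℝ) * ((j.choose k : ℕ) : ℝ) := by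
        rw [mul_comm]
        exact mul_le_mul_of_nonneg_right h1 (Nat.cast_nonneg _)
      linarith [hB0 j]
    · rw [zero_add]
      have h1 := htail j
      have h2 : ((j : ℝ) + 1) * ((j.choose k : ℕ) : ℝ)
          = (((j + 1).choose (k + 1) : ℕ) : ℝ) * ((k : ℝ) + 1) := by
        exact_mod_cast Nat.add_one_mul_choose_eq j k
      have h3 : (1 : ℝ) ≤ Real.exp (-(D : ℝ)) * E ^ (j + 1) := by
        rw [hE, ← Real.exp_nat_mul, ← Real.exp_add]
        apply Real.one_le_exp
        have : (D : ℝ) ≤ j := by exact_mod_cast (not_lt.1 hj)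
        push_cast
        linarith
      have hc : 0 ≤ 2 * E * n * ((k : ℝ) + 1) *
          (((N.choose (j + 1) : ℕ) : ℝ) * (((j + 1).choose (k + 1) : ℕ) : ℝ) * q ^ (j + 1)) := by
        positivity
      calc ((j.choose k : ℕ) : ℝ) * ((M j : ℕ) : ℝ)
          ≤ ((j.choose k : ℕ) : ℝ) *
            (2 * ((j : ℝ) + 1) * E * n * ((N.choose (j + 1) : ℕ) : ℝ) * q ^ (j + 1)) :=
            mul_le_mul_of_nonneg_left h1 (Nat.cast_nonneg _)
        _ = 2 * E * n * (((j : ℝ) + 1) * ((j.choose k : ℕ) : ℝ)) *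
            (((N.choose (j + 1) : ℕ) : ℝ) * q ^ (j + 1)) := by ring
        _ = (2 * E * n * ((k : ℝ) + 1) *
          (((N.choose (j + 1) : ℕ) : ℝ) * (((j + 1).choose (k + 1) : ℕ) : ℝ) * q ^ (j + 1))) * 1 := by
            rw [h2]; ring
        _ ≤ (2 * E * n * ((k : ℝ) + 1) *
          (((N.choose (j + 1) : ℕ) : ℝ) * (((j + 1).choose (k + 1) : ℕ) : ℝ) * q ^ (j + 1))) *
            (Real.exp (-(D : ℝ)) * E ^ (j + 1)) := mul_le_mul_of_nonneg_left h3 hc
        _ = B j := by
            rw [hB, hx]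
            simp only [mul_pow]
            ring
  -- Step 3
  have step3 : ∑ j ∈ range N, (if j < D then (n : ℝ) * ((j.choose k : ℕ) : ℝ) else 0)
      = (n : ℝ) * ((D.choose (k + 1) : ℕ) : ℝ) := by
    rw [← Finset.sum_filter]
    have : (range N).filter (fun j => j < D) = range D := by
      ext j
      simp only [Finset.mem_range, Finset.mem_filter]
      omega
    rw [this, ← Finset.mul_sum, ← sum_range_choose_col]
    push_cast
    rfl
  -- Step 4
  have step4 : ∑ j ∈ range N, B j = 2 * E * n * ((k : ℝ) + 1) * Real.exp (-(D : ℝ)) *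
      (((N.choose (k + 1) : ℕ) : ℝ) * x ^ (k + 1) * (1 + x) ^ (N - (k + 1))) := by
    rw [← sum_choose_mul_choose_mul_pow, Finset.sum_range_succ', hB, ← Finset.mul_sum]
    simp
  -- Step 5
  have step5 : Real.exp (-(D : ℝ)) * (1 + x) ^ (N - (k + 1)) ≤ E := by
    have h1 : (1 + x) ^ (N - (k + 1)) ≤ Real.exp a := by
      calc (1 + x) ^ (N - (k + 1)) ≤ (Real.exp x) ^ (N - (k + 1)) := by
            apply pow_le_pow_left₀ (by positivity)
            rw [add_comm]; exact Real.add_one_le_exp x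
        _ = Real.exp (((N - (k + 1) : ℕ) : ℝ) * x) := by rw [← Real.exp_nat_mul]
        _ ≤ Real.exp a := by
            apply Real.exp_le_exp.2
            rw [ha, hx]
            have : ((N - (k + 1) : ℕ) : ℝ) ≤ (N : ℝ) := by exact_mod_cast Nat.sub_le _ _
            calc ((N - (k + 1) : ℕ) : ℝ) * (q * E) ≤ (N : ℝ) * (q * E) :=
                  mul_le_mul_of_nonneg_right this (by positivity)
              _ = E * q * N := by ring
    calc Real.exp (-(D : ℝ)) * (1 + x) ^ (N - (k + 1))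
        ≤ Real.exp (-(D : ℝ)) * Real.exp a := mul_le_mul_of_nonneg_left h1 (Real.exp_pos _).le
      _ = Real.exp (-(D : ℝ) + a) := by rw [Real.exp_add]
      _ ≤ E := by
          rw [hE]
          apply Real.exp_le_exp.2
          linarith
  -- Part A
  have partA : ((D.choose (k + 1) : ℕ) : ℝ)
      ≤ ((N.choose (k + 1) : ℕ) : ℝ) * q ^ (k + 1) * (2 * E) ^ (k + 1) := by
    rcases Nat.eq_zero_or_pos N with hN0 | hN0
    · have : D = 0 := by omega
      rw [this]
      simp only [Nat.choose_zero_succ, Nat.cast_zero]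
      positivity
    · have h1 : ((D.choose (k + 1) : ℕ) : ℝ) * (N : ℝ) ^ (k + 1)
          ≤ ((N.choose (k + 1) : ℕ) : ℝ) * (D : ℝ) ^ (k + 1) := by
        exact_mod_cast choose_mul_pow_le hDN (k + 1)
      have hNpos : (0 : ℝ) < (N : ℝ) ^ (k + 1) := by positivity
      have h2 : (D : ℝ) ^ (k + 1) ≤ (2 * a) ^ (k + 1) :=
        pow_le_pow_left₀ (Nat.cast_nonneg _) hD1 _
      have h3 : ((D.choose (k + 1) : ℕ) : ℝ) * (N : ℝ) ^ (k + 1)
          ≤ (((N.choose (k + 1) : ℕ) : ℝ) * q ^ (k + 1) * (2 * E) ^ (k + 1)) * (N : ℝ) ^ (k + 1) := by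
        calc ((D.choose (k + 1) : ℕ) : ℝ) * (N : ℝ) ^ (k + 1)
            ≤ ((N.choose (k + 1) : ℕ) : ℝ) * (D : ℝ) ^ (k + 1) := h1
          _ ≤ ((N.choose (k + 1) : ℕ) : ℝ) * (2 * a) ^ (k + 1) :=
              mul_le_mul_of_nonneg_left h2 (Nat.cast_nonneg _)
          _ = _ := by
              rw [ha]
              simp only [mul_pow]
              ring
      exact le_of_mul_le_mul_right h3 hNpos
  -- assemble
  have hsum : (∑ v, (((deg v).choose (k + 1) : ℕ) : ℝ))
      = ∑ j ∈ range N, ((j.choose k : ℕ) : ℝ) * ((M j : ℕ) : ℝ) := by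
    exact_mod_cast step1
  rw [hsum]
  calc ∑ j ∈ range N, ((j.choose k : ℕ) : ℝ) * ((M j : ℕ) : ℝ)
      ≤ ∑ j ∈ range N, ((if j < D then (n : ℝ) * ((j.choose k : ℕ) : ℝ) else 0) + B j) :=
        Finset.sum_le_sum step2
    _ = (n : ℝ) * ((D.choose (k + 1) : ℕ) : ℝ) + 2 * E * n * ((k : ℝ) + 1) * Real.exp (-(D : ℝ)) *
      (((N.choose (k + 1) : ℕ) : ℝ) * x ^ (k + 1) * (1 + x) ^ (N - (k + 1))) := by
        rw [Finset.sum_add_distrib, step3, step4]
    _ = (n : ℝ) * ((D.choose (k + 1) : ℕ) : ℝ) + 2 * E * n * ((k : ℝ) + 1) *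
      (((N.choose (k + 1) : ℕ) : ℝ) * x ^ (k + 1)) *
        (Real.exp (-(D : ℝ)) * (1 + x) ^ (N - (k + 1))) := by ring
    _ ≤ (n : ℝ) * (((N.choose (k + 1) : ℕ) : ℝ) * q ^ (k + 1) * (2 * E) ^ (k + 1))
        + 2 * E * n * ((k : ℝ) + 1) * (((N.choose (k + 1) : ℕ) : ℝ) * x ^ (k + 1)) * E := by
        apply add_le_add
        · exact mul_le_mul_of_nonneg_left partA (Nat.cast_nonneg _)
        · exact mul_le_mul_of_nonneg_left step5 (by positivity)
    _ = _ := by
        have : Real.exp ((k : ℝ) + 2) = E ^ (k + 1) * E := by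
          rw [hE, ← Real.exp_nat_mul, ← Real.exp_add]
          congr 1
          push_cast
          ring
        rw [this, hx]
        simp only [mul_pow]
        ring

end Vale.Agent.Lib.P064
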