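import Vale.Agent.Lib.P064.Packing
import Vale.Agent.Lib.P064.StarAnalysis

namespace Vale.Agent.Lib.P064

open SimpleGraph Finset

variable {V : Type*}

/-- The star `K_{1,t}` on the vertex set `Fin (t+1)` with centre `0`. -/
abbrev star (t : ℕ) : SimpleGraph (Fin (t + 1)) := starGraph (0 : Fin (t + 1))

/-- The subgraph of `H` formed by the edges from `v` to the vertices of `S`. -/
def starSub (H : SimpleGraph V) (v : V) (S : Finset V) : H.Subgraph where
  verts := insert v (S : Set V)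
  Adj a b := H.Adj a b ∧ ((a = v ∧ b ∈ S) ∨ (b = v ∧ a ∈ S))
  adj_sub := fun h => h.1
  edge_vert := by
    rintro a b ⟨_, ⟨rfl, _⟩ | ⟨_, h⟩⟩
    · exact Set.mem_insert _ _
    · exact Set.mem_insert_of_mem _ h
  symm := ⟨fun _ _ h => ⟨h.1.symm, h.2.symm⟩⟩

lemma mem_of_mem_edgeSet_starSub {H : SimpleGraph V} {v : V} {S : Finset V} {e : Sym2 V}
    (he : e ∈ (starSub H v S).edgeSet) : v ∈ e := by
  induction e using Sym2.ind with
  | _ a b =>
    rw [Subgraph.mem_edgeSet] at he
    rcases he.2 with ⟨rfl, _⟩ | ⟨rfl, _⟩ <;> simp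

lemma ncard_edgeSet_star (t : ℕ) : (star t).edgeSet.ncard = t := by
  classical
  have h := (isTree_starGraph (0 : Fin (t + 1))).card_edgeFinset
  rw [Fintype.card_fin] at h
  rw [← coe_edgeFinset, Set.ncard_coe_finset]
  exact Nat.add_right_cancel h

/-- Every copy of the star is a `starSub`. -/
lemma toSubgraph_star_copy [DecidableEq V] {H : SimpleGraph V} {t : ℕ} (f : Copy (star t) H) :
    f.toSubgraph = starSub H (f 0) (univ.image fun i : Fin t => f i.succ) := by
  ext a b
  · simp only [Subgraph.map_verts, Subgraph.verts_top, Set.image_univ, Set.mem_range, starSub,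
      Finset.coe_image, Finset.coe_univ, Set.mem_insert_iff]
    constructor
    · rintro ⟨y, rfl⟩
      induction y using Fin.cases with
      | zero => left; rfl
      | succ i => right; exact ⟨i, rfl⟩
    · rintro (rfl | ⟨i, rfl⟩)
      · exact ⟨0, rfl⟩
      · exact ⟨i.succ, rfl⟩
  · simp only [Subgraph.map_adj, Subgraph.top_adj, Relation.map_apply, starSub, Finset.mem_image,
      Finset.mem_univ, true_and]
    constructor
    · rintro ⟨x, y, hxy, rfl, rfl⟩
      refine ⟨f.toHom.map_adj hxy, ?_⟩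
      rw [starGraph_adj] at hxy
      obtain ⟨hne, rfl | rfl⟩ := hxy
      · left
        refine ⟨rfl, ?_⟩
        obtain ⟨i, rfl⟩ := Fin.exists_succ_eq.2 (Ne.symm hne)
        exact ⟨i, rfl⟩
      · right
        refine ⟨rfl, ?_⟩
        obtain ⟨i, rfl⟩ := Fin.exists_succ_eq.2 hne
        exact ⟨i, rfl⟩
    · rintro ⟨_, ⟨rfl, i, rfl⟩ | ⟨rfl, i, rfl⟩⟩
      · exact ⟨0, i.succ, by simp [starGraph_adj, Fin.succ_ne_zero, (Fin.succ_ne_zero i).symm], rfl, rfl⟩
      · exact ⟨i.succ, 0, by simp [starGraph_adj, Fin.succ_ne_zero], rfl, rfl⟩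

/-- A vertex together with `t` of its neighbours spans a copy of the star. -/
lemma starSub_iso [DecidableEq V] {H : SimpleGraph V} {t : ℕ} (v : V) (S : Finset V)
    (hS : ∀ w ∈ S, H.Adj v w) (hcard : S.card = t) :
    Nonempty (star t ≃g (starSub H v S).coe) := by
  let e : Fin t ≃ S := (S.equivFinOfCardEq hcard).symm
  let g : Fin (t + 1) → V := Fin.cases v (fun i => (e i : V))
  have hg0 : g 0 = v := rfl
  have hgs : ∀ i : Fin t, g i.succ = (e i : V) := fun i => rfl
  have hne : ∀ i : Fin t, (e i : V) ≠ v := fun i h => (hS _ (e i).2).ne h.symm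
  have hinj : Function.Injective g := by
    intro x y hxy
    induction x using Fin.cases with
    | zero =>
      induction y using Fin.cases with
      | zero => rfl
      | succ j => rw [hg0, hgs] at hxy; exact absurd hxy.symm (hne j)
    | succ i =>
      induction y using Fin.cases with
      | zero => rw [hg0, hgs] at hxy; exact absurd hxy (hne i)
      | succ j =>
        rw [hgs, hgs] at hxy
        rw [e.injective (Subtype.ext hxy)]
  let f : Copy (star t) H :=
    ⟨⟨g, by
      intro x y hxy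
      rw [starGraph_adj] at hxy
      obtain ⟨hne', rfl | rfl⟩ := hxy
      · obtain ⟨i, rfl⟩ := Fin.exists_succ_eq.2 (Ne.symm hne')
        rw [hg0, hgs]; exact hS _ (e i).2
      · obtain ⟨i, rfl⟩ := Fin.exists_succ_eq.2 hne'
        rw [hg0, hgs]; exact (hS _ (e i).2).symm⟩, hinj⟩
  have h1 : f.toSubgraph = starSub H v S := by
    rw [toSubgraph_star_copy]
    congr 1
    ext w
    simp only [Finset.mem_image, Finset.mem_univ, true_and]
    constructor
    · rintro ⟨i, rfl⟩
      exact (e i).2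
    · intro hw
      exact ⟨e.symm ⟨w, hw⟩, by show g (Fin.succ _) = w; rw [hgs]; simp⟩
  rw [← h1]
  exact ⟨f.isoToSubgraph⟩

open Classical in
/-- `N(H,K_{1,t}) ≤ ∑_v binom(d(v),t)`. -/
lemma copyCount_star_le [Fintype V] (H : SimpleGraph V) (t : ℕ) :
    H.copyCount (star t) ≤ ∑ v, (H.degree v).choose t := by
  rw [copyCount_eq_card_copiesIn]
  have hsub : copiesIn H (star t) ⊆
      (univ.sigma fun v => powersetCard t (H.neighborFinset v)).image
        (fun p : (_ : V) × Finset V => starSub H p.1 p.2) := by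
    intro T hT
    rw [mem_copiesIn] at hT
    obtain ⟨i⟩ := hT
    let f : Copy (star t) H := ⟨T.hom.comp i.toHom, Subgraph.hom_injective.comp i.injective⟩
    have hf : f.toSubgraph = T := by
      show Subgraph.map (T.hom.comp i.toHom) ⊤ = T
      simp [Subgraph.map_comp]
    rw [Finset.mem_image]
    refine ⟨⟨f 0, univ.image fun i : Fin t => f i.succ⟩, ?_, ?_⟩
    · simp only [Finset.mem_sigma, Finset.mem_univ, true_and, Finset.mem_powersetCard]
      constructor
      · intro w hw
        rw [Finset.mem_image] at hw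
        obtain ⟨j, _, rfl⟩ := hw
        rw [mem_neighborFinset]
        apply f.toHom.map_adj
        simp [starGraph_adj, (Fin.succ_ne_zero j).symm]
      · have hinj : Function.Injective (fun i : Fin t => f i.succ) :=
          fun a b hab => Fin.succ_injective t (f.injective hab)
        rw [Finset.card_image_of_injective _ hinj]
        simp
    · rw [← hf, toSubgraph_star_copy]
  refine (Finset.card_le_card hsub).trans (Finset.card_image_le.trans ?_)
  rw [Finset.card_sigma]
  refine Finset.sum_le_sum fun v _ => ?_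
  rw [Finset.card_powersetCard, card_neighborFinset_eq_degree]

open Classical in
lemma copyCount_star_le_card [Fintype V] (H : SimpleGraph V) (t : ℕ) :
    H.copyCount (star t) ≤ Fintype.card V * (Fintype.card V - 1).choose t := by
  refine (copyCount_star_le H t).trans ?_
  calc ∑ v, (H.degree v).choose t ≤ ∑ _v : V, (Fintype.card V - 1).choose t :=
        Finset.sum_le_sum fun v _ =>
          Nat.choose_le_choose t (Nat.le_sub_one_of_lt (H.degree_lt_card_verts v))
    _ = _ := by rw [Finset.sum_const, Finset.card_univ, smul_eq_mul]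

/-- `binom(n,t+1) ≤ N(K_n,K_{1,t})`. -/
lemma choose_le_copyCount_top_star (n t : ℕ) :
    n.choose (t + 1) ≤ (⊤ : SimpleGraph (Fin n)).copyCount (star t) := by
  classical
  rw [copyCount_eq_card_copiesIn]
  have hne : ∀ P ∈ powersetCard (t + 1) (univ : Finset (Fin n)), P.Nonempty := by
    intro P hP
    rw [Finset.mem_powersetCard] at hP
    rw [← Finset.card_pos]; omega
  let Φ : Finset (Fin n) → (⊤ : SimpleGraph (Fin n)).Subgraph := fun P =>
    if h : P.Nonempty then starSub ⊤ h.choose (P.erase h.choose) else ⊥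
  have hΦ : ∀ P (hP : P ∈ powersetCard (t + 1) (univ : Finset (Fin n))),
      Φ P = starSub ⊤ (hne P hP).choose (P.erase (hne P hP).choose) := by
    intro P hP
    simp only [Φ, dif_pos (hne P hP)]
  have hverts : ∀ P ∈ powersetCard (t + 1) (univ : Finset (Fin n)), (Φ P).verts = (P : Set (Fin n)) := by
    intro P hP
    rw [hΦ P hP]
    simp only [starSub]
    rw [← Finset.coe_insert, Finset.insert_erase (hne P hP).choose_spec]
  have hcard : (powersetCard (t + 1) (univ : Finset (Fin n))).card = n.choose (t + 1) := by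
    rw [Finset.card_powersetCard, Finset.card_univ, Fintype.card_fin]
  rw [← hcard]
  refine Finset.card_le_card_of_injOn Φ ?_ ?_
  · intro P hP
    have hP' : P ∈ powersetCard (t + 1) (univ : Finset (Fin n)) := hP
    rw [Finset.mem_coe, mem_copiesIn, hΦ P hP']
    apply starSub_iso
    · intro w hw
      rw [top_adj]
      exact (Finset.ne_of_mem_erase hw).symm
    · rw [Finset.card_erase_of_mem (hne P hP').choose_spec, (Finset.mem_powersetCard.1 hP').2]
      rfl
  · intro P hP Q hQ h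
    have h1 := hverts P hP
    have h2 := hverts Q hQ
    rw [h] at h1
    exact Finset.coe_injective (h1.symm.trans h2)

/-- monotonicity of the number of copies under containment of the host graph -/
lemma copyCount_le_of_copy {α β γ : Type*} [Fintype α] [Fintype β] {G : SimpleGraph α}
    {K : SimpleGraph β} (f : Copy G K) (F : SimpleGraph γ) : G.copyCount F ≤ K.copyCount F := by
  rw [copyCount_eq_card_copiesIn, copyCount_eq_card_copiesIn]
  refine Finset.card_le_card_of_injOn (Subgraph.map f.toHom) ?_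
    (subgraph_map_injective f.toHom f.injective).injOn
  intro T hT
  rw [Finset.mem_coe, mem_copiesIn] at hT ⊢
  obtain ⟨i⟩ := hT
  exact ⟨(f.isoSubgraphMap T).comp i⟩

lemma copyCount_le_top {γ : Type*} [Fintype V] (H : SimpleGraph V) (n : ℕ)
    (hcard : Fintype.card V ≤ n) (F : SimpleGraph γ) :
    H.copyCount F ≤ (⊤ : SimpleGraph (Fin n)).copyCount F := by
  obtain ⟨e⟩ : Nonempty (V ↪ Fin n) :=
    Function.Embedding.nonempty_of_card_le (by simpa using hcard)
  exact copyCount_le_of_copy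
    ⟨⟨e, fun {a b} h => by rw [top_adj]; exact e.injective.ne h.ne⟩, e.injective⟩ F

open Classical in
/-- Tail bound for the degree sequence: the number of vertices of degree at least `d` is at most
`2 d e E N(G(n,q),K_{1,d})`. -/
lemma tail_bound [Fintype V] (H : SimpleGraph V) (n : ℕ) (q : ℝ) (hq : 0 ≤ q)
    (hyp : ∀ I : H.Subgraph, 1 ≤ expCopies n q I.coe) (d : ℕ) (hd : 1 ≤ d) :
    (((univ.filter fun v => d ≤ H.degree v).card : ℕ) : ℝ)
      ≤ 2 * (d : ℝ) * (Real.exp 1 * expCopies n q (star d)) := by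
  let valid : Finset H.Subgraph → Prop := fun D =>
    (∀ C ∈ D, Nonempty (star d ≃g C.coe)) ∧
      (∀ C₁ ∈ D, ∀ C₂ ∈ D, C₁ ≠ C₂ → Disjoint C₁.edgeSet C₂.edgeSet)
  obtain ⟨D, hDmem, hDmax⟩ := Finset.exists_max_image (univ.filter valid) Finset.card
    ⟨∅, by simp [valid]⟩
  simp only [Finset.mem_filter, Finset.mem_univ, true_and] at hDmem hDmax
  obtain ⟨hDiso, hDdisj⟩ := hDmem
  have hk : (D.card : ℝ) ≤ Real.exp 1 * expCopies n q (star d) := by
    have h := packing_factorial n q 1 hq hyp D hDiso hDdisj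
    rw [one_mul] at h
    refine le_exp_mul_of_factorial_le _ _ ?_ h
    rw [expCopies_eq]
    positivity
  have hedges : ∀ T : H.Subgraph, Nonempty (star d ≃g T.coe) → T.edgeSet.ncard = d := by
    rintro T ⟨i⟩
    rw [← ncard_edgeSet_coe, ← ncard_edgeSet_of_iso i, ncard_edgeSet_star]
  set U := (sSup (D : Set H.Subgraph)).edgeSet with hUdef
  have hU : U.ncard = D.card * d :=
    ncard_edgeSet_sSup d D (fun C hC => hedges C (hDiso C hC)) hDdisj
  have hCU : ∀ C ∈ D, C.edgeSet ⊆ U := fun C hC =>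
    Subgraph.edgeSet_mono (le_sSup (by simpa using hC))
  have hcover : ∀ v, d ≤ H.degree v → ∃ e ∈ U, v ∈ e := by
    intro v hv
    by_contra hcon
    push Not at hcon
    rw [← card_neighborFinset_eq_degree] at hv
    obtain ⟨S, hS, hScard⟩ := Finset.exists_subset_card_eq hv
    set T := starSub H v S with hT
    have hTiso : Nonempty (star d ≃g T.coe) :=
      starSub_iso v S (fun w hw => by simpa using hS hw) hScard
    have hTU : ∀ e ∈ T.edgeSet, e ∉ U := fun e he heU => hcon e heU (mem_of_mem_edgeSet_starSub he)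
    have hTne : T.edgeSet.Nonempty := by
      apply Set.nonempty_of_ncard_ne_zero
      rw [hedges T hTiso]; omega
    have hTD : T ∉ D := by
      intro h
      obtain ⟨e, he⟩ := hTne
      exact hTU e he (hCU T h he)
    have hdisjT : ∀ C ∈ D, Disjoint T.edgeSet C.edgeSet := by
      intro C hC
      rw [Set.disjoint_left]
      exact fun e he heC => hTU e he (hCU C hC heC)
    have hvalid : valid (insert T D) := by
      constructor
      · intro C hC
        rcases Finset.mem_insert.1 hC with rfl | hC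
        · exact hTiso
        · exact hDiso C hC
      · intro C₁ h₁ C₂ h₂ hne
        rcases Finset.mem_insert.1 h₁ with rfl | h₁
        · rcases Finset.mem_insert.1 h₂ with rfl | h₂
          · exact absurd rfl hne
          · exact hdisjT C₂ h₂
        · rcases Finset.mem_insert.1 h₂ with rfl | h₂
          · exact (hdisjT C₁ h₁).symm
          · exact hDdisj C₁ h₁ C₂ h₂ hne
    have := hDmax (insert T D) hvalid
    rw [Finset.card_insert_of_notMem hTD] at this
    omega
  have hsub : (univ.filter fun v => d ≤ H.degree v) ⊆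
      (Set.toFinite U).toFinset.biUnion Sym2.toFinset := by
    intro v hv
    simp only [Finset.mem_filter, Finset.mem_univ, true_and] at hv
    obtain ⟨e, he, hve⟩ := hcover v hv
    rw [Finset.mem_biUnion]
    exact ⟨e, by simpa using he, Sym2.mem_toFinset.2 hve⟩
  have hcount : (univ.filter fun v => d ≤ H.degree v).card ≤ (D.card * d) * 2 := by
    refine (Finset.card_le_card hsub).trans ?_
    rw [← hU, Set.ncard_eq_toFinset_card U (Set.toFinite U)]
    apply Finset.card_biUnion_le_card_mul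
    intro e _
    rw [Sym2.card_toFinset]
    split_ifs <;> omega
  calc (((univ.filter fun v => d ≤ H.degree v).card : ℕ) : ℝ)
      ≤ (((D.card * d) * 2 : ℕ) : ℝ) := by exact_mod_cast hcount
    _ = 2 * (d : ℝ) * (D.card : ℝ) := by push_cast; ring
    _ ≤ _ := mul_le_mul_of_nonneg_left hk (by positivity)

lemma const_bound_nat (t : ℕ) (ht : 1 ≤ t) : (t + 1) * (6 ^ t + 18 * t * 3 ^ t) ≤ 228 ^ t := by
  have h1 : t + 1 ≤ 2 ^ t := Nat.lt_two_pow_self
  have h2 : t ≤ 2 ^ t := by omega
  have h3 : (19 : ℕ) ≤ 19 ^ t := by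
    calc (19 : ℕ) = 19 ^ 1 := by norm_num
      _ ≤ 19 ^ t := Nat.pow_le_pow_right (by norm_num) ht
  have e1 : (228 : ℕ) ^ t = 19 ^ t * 12 ^ t := by rw [← Nat.mul_pow]
  have e2 : (12 : ℕ) ^ t = 2 ^ t * 6 ^ t := by rw [← Nat.mul_pow]
  have e3 : (12 : ℕ) ^ t = 2 ^ t * 2 ^ t * 3 ^ t := by rw [← Nat.mul_pow, ← Nat.mul_pow]
  have a1 : (t + 1) * 6 ^ t ≤ 12 ^ t := by
    rw [e2]; exact Nat.mul_le_mul_right _ h1
  have a2 : (t + 1) * (18 * t * 3 ^ t) ≤ 18 * 12 ^ t := by
    rw [e3]
    calc (t + 1) * (18 * t * 3 ^ t) = 18 * ((t + 1) * t * 3 ^ t) := by ring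
      _ ≤ 18 * (2 ^ t * 2 ^ t * 3 ^ t) :=
          Nat.mul_le_mul_left _ (Nat.mul_le_mul_right _ (Nat.mul_le_mul h1 h2))
  calc (t + 1) * (6 ^ t + 18 * t * 3 ^ t) = (t + 1) * 6 ^ t + (t + 1) * (18 * t * 3 ^ t) := by ring
    _ ≤ 12 ^ t + 18 * 12 ^ t := Nat.add_le_add a1 a2
    _ = 19 * 12 ^ t := by ring
    _ ≤ 19 ^ t * 12 ^ t := Nat.mul_le_mul_right _ h3
    _ = 228 ^ t := e1.symm

lemma const_bound (k : ℕ) :
    ((k : ℝ) + 2) * ((2 * Real.exp 1) ^ (k + 1)
      + 2 * Real.exp 1 * ((k : ℝ) + 1) * Real.exp ((k : ℝ) + 2)) ≤ 228 ^ (k + 1) := by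
  have hE : Real.exp 1 ≤ 3 := by
    have := Real.exp_one_lt_d9
    linarith
  have hE0 : 0 < Real.exp 1 := Real.exp_pos 1
  have h1 : (2 * Real.exp 1) ^ (k + 1) ≤ 6 ^ (k + 1) := by
    apply pow_le_pow_left₀ (by positivity)
    linarith
  have h2 : Real.exp ((k : ℝ) + 2) ≤ 3 ^ (k + 2) := by
    have : Real.exp ((k : ℝ) + 2) = (Real.exp 1) ^ (k + 2) := by
      rw [← Real.exp_nat_mul]
      congr 1
      push_cast
      ring
    rw [this]
    exact pow_le_pow_left₀ hE0.le hE _
  have h3 : 2 * Real.exp 1 * ((k : ℝ) + 1) * Real.exp ((k : ℝ) + 2)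
      ≤ 2 * 3 * ((k : ℝ) + 1) * 3 ^ (k + 2) := by
    have := Real.exp_pos ((k : ℝ) + 2)
    gcongr
  have h4 := const_bound_nat (k + 1) (by omega)
  have h5 : (((k + 1 + 1) * (6 ^ (k + 1) + 18 * (k + 1) * 3 ^ (k + 1)) : ℕ) : ℝ)
      ≤ ((228 ^ (k + 1) : ℕ) : ℝ) := by exact_mod_cast h4
  push_cast at h5
  calc ((k : ℝ) + 2) * ((2 * Real.exp 1) ^ (k + 1)
      + 2 * Real.exp 1 * ((k : ℝ) + 1) * Real.exp ((k : ℝ) + 2))
      ≤ ((k : ℝ) + 2) * (6 ^ (k + 1) + 2 * 3 * ((k : ℝ) + 1) * 3 ^ (k + 2)) := by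
        gcongr
    _ = ((k : ℝ) + 1 + 1) * (6 ^ (k + 1) + 18 * ((k : ℝ) + 1) * 3 ^ (k + 1)) := by ring
    _ ≤ 228 ^ (k + 1) := h5

/-- **Stars.** If every subgraph of `H` has expected count at least `1` in `G(n,q)`, then
`N(H,K_{1,t}) ≤ E N(G(n,min{1,228 q}),K_{1,t})` for every `t ≥ 1`. -/
theorem stars_main (n : ℕ) [Fintype V] (H : SimpleGraph V) (q : ℝ) (hq : 0 ≤ q)
    (hcard : Fintype.card V ≤ n) (hyp : ∀ I : H.Subgraph, 1 ≤ expCopies n q I.coe)
    (t : ℕ) (ht : 1 ≤ t) :
    (H.copyCount (star t) : ℝ) ≤ expCopies n (min 1 (228 * q)) (star t) := by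
  classical
  rw [expCopies_eq, ncard_edgeSet_star]
  rcases le_or_gt 1 (228 * q) with hL | hL
  · rw [min_eq_left hL, one_pow, mul_one]
    exact_mod_cast copyCount_le_top H n hcard (star t)
  rw [min_eq_right hL.le]
  obtain ⟨k, rfl⟩ : ∃ k, t = k + 1 := ⟨t - 1, by omega⟩
  rcases Nat.eq_zero_or_pos n with rfl | hn
  · have hV : IsEmpty V := Fintype.card_eq_zero_iff.1 (by omega)
    have h0 : H.copyCount (star (k + 1)) = 0 := by
      have := copyCount_star_le H (k + 1)
      simpa using this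
    rw [h0, Nat.cast_zero]
    positivity
  have hE : Real.exp 1 ≤ 3 := by
    have := Real.exp_one_lt_d9
    linarith
  have hsmall : 2 * Real.exp 1 * q ≤ 1 := by nlinarith
  have hdeg : ∀ v, H.degree v ≤ n - 1 := by
    intro v
    have := H.degree_lt_card_verts v
    omega
  have htop : ∀ d : ℕ, ((⊤ : SimpleGraph (Fin n)).copyCount (star d) : ℝ)
      ≤ (n : ℝ) * (((n - 1).choose d : ℕ) : ℝ) := by
    intro d
    have h1 : (⊤ : SimpleGraph (Fin n)).copyCount (star d) ≤ n * (n - 1).choose d := by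
      have := copyCount_star_le_card (⊤ : SimpleGraph (Fin n)) d
      rwa [Fintype.card_fin] at this
    exact_mod_cast h1
  have htail : ∀ j : ℕ, (((univ.filter fun v => j < H.degree v).card : ℕ) : ℝ)
      ≤ 2 * ((j : ℝ) + 1) * Real.exp 1 * n * (((n - 1).choose (j + 1) : ℕ) : ℝ) * q ^ (j + 1) := by
    intro j
    have h1 := tail_bound H n q hq hyp (j + 1) (by omega)
    rw [expCopies_eq, ncard_edgeSet_star] at h1
    have h2 : ((⊤ : SimpleGraph (Fin n)).copyCount (star (j + 1)) : ℝ) * q ^ (j + 1)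
        ≤ (n : ℝ) * (((n - 1).choose (j + 1) : ℕ) : ℝ) * q ^ (j + 1) :=
      mul_le_mul_of_nonneg_right (htop (j + 1)) (pow_nonneg hq _)
    have h3 : (univ.filter fun v => j < H.degree v) = (univ.filter fun v => j + 1 ≤ H.degree v) :=
      Finset.filter_congr (fun v _ => Nat.lt_iff_add_one_le)
    rw [h3]
    refine h1.trans ?_
    push_cast
    have hpos : 0 ≤ 2 * ((j : ℝ) + 1) * Real.exp 1 := by positivity
    calc 2 * ((j : ℝ) + 1) * (Real.exp 1 *
          (((⊤ : SimpleGraph (Fin n)).copyCount (star (j + 1)) : ℝ) * q ^ (j + 1)))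
        = 2 * ((j : ℝ) + 1) * Real.exp 1 *
          (((⊤ : SimpleGraph (Fin n)).copyCount (star (j + 1)) : ℝ) * q ^ (j + 1)) := by ring
      _ ≤ 2 * ((j : ℝ) + 1) * Real.exp 1 *
          ((n : ℝ) * (((n - 1).choose (j + 1) : ℕ) : ℝ) * q ^ (j + 1)) :=
          mul_le_mul_of_nonneg_left h2 hpos
      _ = _ := by ring
  have hmain := star_analysis (fun v => H.degree v) n k q hq hcard hdeg htail hsmall
  have hup : (H.copyCount (star (k + 1)) : ℝ) ≤ ∑ v, (((H.degree v).choose (k + 1) : ℕ) : ℝ) := by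
    exact_mod_cast copyCount_star_le H (k + 1)
  have hlow : ((n.choose (k + 2) : ℕ) : ℝ) ≤ ((⊤ : SimpleGraph (Fin n)).copyCount (star (k + 1)) : ℝ) := by
    exact_mod_cast choose_le_copyCount_top_star n (k + 1)
  have hid : (n : ℝ) * (((n - 1).choose (k + 1) : ℕ) : ℝ) = ((n.choose (k + 2) : ℕ) : ℝ) * ((k : ℝ) + 2) := by
    have h := Nat.add_one_mul_choose_eq (n - 1) (k + 1)
    have hn1 : n - 1 + 1 = n := by omega
    rw [hn1] at h
    have h' : ((n * (n - 1).choose (k + 1) : ℕ) : ℝ) = ((n.choose (k + 1 + 1) * (k + 1 + 1) : ℕ) : ℝ) := by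
      exact_mod_cast h
    push_cast at h'
    rw [h']
    ring
  have hqk : 0 ≤ q ^ (k + 1) := pow_nonneg hq _
  calc (H.copyCount (star (k + 1)) : ℝ)
      ≤ ∑ v, (((H.degree v).choose (k + 1) : ℕ) : ℝ) := hup
    _ ≤ n * (((n - 1).choose (k + 1) : ℕ) : ℝ) * q ^ (k + 1) *
        ((2 * Real.exp 1) ^ (k + 1) + 2 * Real.exp 1 * ((k : ℝ) + 1) * Real.exp ((k : ℝ) + 2)) := hmain
    _ = ((n.choose (k + 2) : ℕ) : ℝ) * q ^ (k + 1) * (((k : ℝ) + 2) *
        ((2 * Real.exp 1) ^ (k + 1) + 2 * Real.exp 1 * ((k : ℝ) + 1) * Real.exp ((k : ℝ) + 2))) := by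
        rw [hid]; ring
    _ ≤ ((n.choose (k + 2) : ℕ) : ℝ) * q ^ (k + 1) * 228 ^ (k + 1) :=
        mul_le_mul_of_nonneg_left (const_bound k) (by positivity)
    _ = ((n.choose (k + 2) : ℕ) : ℝ) * (228 * q) ^ (k + 1) := by rw [mul_pow]; ring
    _ ≤ ((⊤ : SimpleGraph (Fin n)).copyCount (star (k + 1)) : ℝ) * (228 * q) ^ (k + 1) :=
        mul_le_mul_of_nonneg_right hlow (by positivity)

end Vale.Agent.Lib.P064
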